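import Vale.Agent.P198.A.Stm

/-! The area estimate. -/

open Set Metric Topology Filter

namespace Vale.Agent.P198

variable {G Z : Type*} [Group G] [MetricSpace Z] [MulAction G Z] [CompactSpace Z] {D : Dyn G Z}
  {E : Geo Z} {R : Ring Z}

namespace AArea

omit [CompactSpace Z] in
open Classical in
theorem flow_sq {n : ℕ} {E0 E1 : Set Z} (F : Flow D n E0 E1) (X : Finset G) :
    ∑ g ∈ X, F.ρ g ^ 2 ≤ F.M * ∑ i ∈ F.T, F.μ i *
      ∑ j ∈ Finset.range (F.m i + 1), if F.c i j ∈ X then F.ρ (F.c i j) else 0 := by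
  have h1 : ∀ g, F.ρ g ≤ F.M * ∑ i ∈ F.T, F.μ i *
      ∑ j ∈ Finset.range (F.m i + 1), if F.c i j = g then (1 : ℝ) else 0 := fun g => by
    rw [F.ρ_def g, Finset.sum_filter]
    refine mul_le_mul_of_nonneg_left (Finset.sum_le_sum fun i hi => ?_) F.M_pos.le
    have h0 : ∀ j ∈ Finset.range (F.m i + 1), (0 : ℝ) ≤ if F.c i j = g then 1 else 0 :=
      fun j _ => by split_ifs <;> norm_num
    split_ifs with h
    · obtain ⟨j, hj, e⟩ := h
      have h2 := Finset.single_le_sum h0 (Finset.mem_range.2 (Nat.lt_succ_of_le hj))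
      rw [if_pos e] at h2
      exact le_mul_of_one_le_right (F.μ_pos i hi).le h2
    · exact mul_nonneg (F.μ_pos i hi).le (Finset.sum_nonneg h0)
  refine (Finset.sum_le_sum fun g _ => (pow_two (F.ρ g)).le.trans
    (mul_le_mul_of_nonneg_right (h1 g) (F.ρ_nonneg g))).trans (le_of_eq ?_)
  simp only [mul_assoc, ← Finset.mul_sum, Finset.sum_mul]
  refine congrArg _ ?_
  rw [Finset.sum_comm]
  refine Finset.sum_congr rfl fun i _ => ?_
  rw [← Finset.mul_sum, Finset.sum_comm]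
  refine congrArg _ (Finset.sum_congr rfl fun j _ => ?_)
  simp only [ite_mul, one_mul, zero_mul]
  rw [Finset.sum_ite_eq]

omit [CompactSpace Z] in
theorem mem_crv {n : ℕ} {ε : ℝ} {k : ℕ} {d : ℕ → G} {w : ℕ → ℂ} {Lk : ℕ → Set ℂ}
    (h : IsLf D E R n ε k d w Lk) {j : ℕ} (hj : j ≤ k) : w j ∈ crv k w Lk := by
  refine Or.inl (Or.inr ?_)
  rcases hj.lt_or_eq with h1 | h1
  · exact mem_iUnion₂.2 ⟨j, h1, h.ml j h1⟩
  · obtain ⟨j', rfl⟩ : ∃ j', j = j' + 1 := ⟨j - 1, by have := h.pos; omega⟩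
    exact mem_iUnion₂.2 ⟨j', by omega, h.mr j' (by omega)⟩

theorem grid {x t0 lam : ℝ} {K : ℕ} (hl : 0 < lam) (h1 : t0 ≤ x) (h2 : x ≤ t0 + K * lam) :
    ∃ a ≤ K, |x - (t0 + (a : ℝ) * lam)| ≤ lam := by
  have h0 : 0 ≤ (x - t0) / lam := div_nonneg (by linarith) hl.le
  refine ⟨⌊(x - t0) / lam⌋₊, Nat.floor_le_of_le ((div_le_iff₀ hl).2 (by linarith)), ?_⟩
  have h3 := (le_div_iff₀ hl).1 (Nat.floor_le h0)
  have h4 := (div_lt_iff₀ hl).1 (Nat.lt_floor_add_one ((x - t0) / lam))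
  rw [abs_le]
  constructor <;> linarith

open Classical in
theorem proj_le (T : Finset ℕ) (μ : ℕ → ℝ) (S : Finset (ℕ × ℤ)) (Q : Set (ℕ × ℤ))
    (h0 : ∀ j ∈ S, 0 ≤ μ j.1) :
    ∑ i ∈ T, μ i * (if ∃ k, (i, k) ∈ S ∧ (i, k) ∈ Q then (1 : ℝ) else 0) ≤
      wt S (fun j => μ j.1) Q := by
  simp only [mul_ite, mul_one, mul_zero]
  rw [← Finset.sum_filter]
  unfold wt
  have h1 : ∀ i ∈ (S.filter fun j => j ∈ Q).image Prod.fst, 0 ≤ μ i := fun i hi => by
    obtain ⟨j, hj, rfl⟩ := Finset.mem_image.1 hi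
    exact h0 j (Finset.mem_filter.1 hj).1
  refine (Finset.sum_le_sum_of_subset_of_nonneg (fun i hi => ?_) fun i hi _ => h1 i hi).trans
    (Finset.sum_image_le_of_nonneg h1)
  obtain ⟨k, h2, h3⟩ := (Finset.mem_filter.1 hi).2
  exact Finset.mem_image.2 ⟨(i, k), Finset.mem_filter.2 ⟨h2, h3⟩, rfl⟩

end AArea

open AArea in
theorem Seq.areaP (s : Seq D E R) {l : PL} (hl : s.Is l) (h1 : s.SlabP l) (h2 : l.SliceP)
    (hT : TimeP D) (hR : s.RhoP) (hM : s.MupP) : s.AreaP l := by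
  classical
  obtain ⟨C', hC', hM⟩ := hM
  obtain ⟨U, hU, hUl⟩ := hl.hU
  refine ⟨60 * C', by positivity, fun p0 r hp1 hp2 hr hr8 => ?_⟩
  obtain ⟨H, hH⟩ := h2 (p0.im - r) (p0.im + r) (r / 9) (by linarith) (by positivity)
  obtain ⟨lam0, hl0, hS⟩ := h1 H (r / 9) (by positivity)
  have hm : 0 < min lam0 (1 / 32) := lt_min hl0 (by norm_num)
  obtain ⟨K, hK⟩ := exists_nat_gt (2 * r / min lam0 (1 / 32))
  have hK0 : (0 : ℝ) < K := lt_trans (by positivity) hK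
  have hK1 : (1 : ℝ) ≤ K := by exact_mod_cast (Nat.cast_pos.1 hK0 : 0 < K)
  obtain ⟨lam, hlam⟩ : ∃ lam : ℝ, lam = 2 * r / K := ⟨_, rfl⟩
  have hlp : 0 < lam := by rw [hlam]; positivity
  have hKl : (K : ℝ) * lam = 2 * r := by rw [hlam]; field_simp
  have hle : lam ≤ min lam0 (1 / 32) := by
    rw [hlam, div_le_iff₀ hK0]
    rw [div_lt_iff₀ hm] at hK
    linarith
  have ht : ∀ a ≤ K, 1 / 4 ≤ p0.re - r + (a : ℝ) * lam ∧ p0.re - r + (a : ℝ) * lam ≤ 3 / 4 := by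
    intro a ha
    have h3 : (a : ℝ) * lam ≤ K * lam := mul_le_mul_of_nonneg_right (by exact_mod_cast ha) hlp.le
    have h4 : 0 ≤ (a : ℝ) * lam := by positivity
    constructor <;> linarith
  have hH' := fun a (ha : a ≤ K) => hH (p0.re - r + (a : ℝ) * lam) lam (ht a ha).1 (ht a ha).2 hlp
    (hle.trans (min_le_right _ _))
  choose! H1 hH1 using hH'
  obtain ⟨H', hH'⟩ := ((Finset.range (K + 1)).image H1).exists_le
  have hH2 : ∀ a ≤ K, H1 a ≤ H' := fun a ha =>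
    hH' _ (Finset.mem_image_of_mem _ (Finset.mem_range.2 (Nat.lt_succ_of_le ha)))
  filter_upwards [hS lam hlp (hle.trans (min_le_left _ _)) H', hU.app 1 lam hlp,
    Nat.hyperfilter_le_atTop (hR lam hlp), Nat.hyperfilter_le_atTop hM,
    Nat.hyperfilter_le_atTop s.lf] with n hn1 hn2 hn3 hn4 hn5
  obtain ⟨S, hS1, hS2⟩ := hn1
  refine (flow_sq (s.P n).toFlow _).trans ?_
  let Q : ℕ → Set (ℕ × ℤ) := fun a => {j | ∃ y ∈ sh j.2 (s.A n j.1) ∩
    l.Bd (p0.re - r + (a : ℝ) * lam) lam, p0.im - r ≤ l.V y ∧ l.V y ≤ p0.im + r}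
  have key : ∀ i ∈ (s.P n).T, (∑ j ∈ Finset.range ((s.P n).m i + 1),
      if (s.P n).c i j ∈ (D.lev n).filter (fun g => ∃ y, R.p y = D.pt g ∧ ‖l.f y - p0‖ ≤ r) then
        (s.P n).ρ ((s.P n).c i j) else 0) ≤ ∑ a ∈ Finset.range (K + 1),
      (if ∃ k, (i, k) ∈ S ∧ (i, k) ∈ Q a then (1 : ℝ) else 0) * (5 * lam) := by
    intro i hi
    have h0 : ∀ j a, 0 ≤ (if ∃ k, (i, k) ∈ S ∧ (i, k) ∈ Q a then (1 : ℝ) else 0) *
        if |(s.P n).u ((s.P n).c i j) - (p0.re - r + (a : ℝ) * lam)| ≤ 2 * lam then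
          (s.P n).ρ ((s.P n).c i j) else 0 := fun j a => by
      have := (s.P n).toFlow.ρ_nonneg ((s.P n).c i j)
      split_ifs <;> linarith
    have h3 : ∀ j ∈ Finset.range ((s.P n).m i + 1),
        (if (s.P n).c i j ∈ (D.lev n).filter (fun g => ∃ y, R.p y = D.pt g ∧ ‖l.f y - p0‖ ≤ r) then
          (s.P n).ρ ((s.P n).c i j) else 0) ≤ ∑ a ∈ Finset.range (K + 1),
        (if ∃ k, (i, k) ∈ S ∧ (i, k) ∈ Q a then (1 : ℝ) else 0) *
        if |(s.P n).u ((s.P n).c i j) - (p0.re - r + (a : ℝ) * lam)| ≤ 2 * lam then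
          (s.P n).ρ ((s.P n).c i j) else 0 := by
      intro j hj
      have hj' : j ≤ (s.P n).m i := Nat.le_of_lt_succ (Finset.mem_range.1 hj)
      by_cases hc : (s.P n).c i j ∈
          (D.lev n).filter (fun g => ∃ y, R.p y = D.pt g ∧ ‖l.f y - p0‖ ≤ r)
      swap
      · rw [if_neg hc]
        exact Finset.sum_nonneg fun a _ => h0 j a
      rw [if_pos hc]
      obtain ⟨hlev, y, hy1, hy2⟩ := Finset.mem_filter.1 hc
      have hre : |l.U y - p0.re| ≤ r := (Complex.abs_re_le_norm (l.f y - p0)).trans hy2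
      have him : |l.V y - p0.im| ≤ r := (Complex.abs_im_le_norm (l.f y - p0)).trans hy2
      rw [abs_le] at hre him
      obtain ⟨a, ha, hya⟩ := grid (x := l.U y) (t0 := p0.re - r) (K := K) hlp (by linarith)
        (by linarith)
      obtain ⟨k, hk⟩ := R.inj (s.w n i j) y (((hn5 i hi).pw j hj').trans hy1.symm)
      have hyA : y ∈ sh k (s.A n i) := ⟨_, mem_crv (hn5 i hi) hj', hk.symm⟩
      have hyH : y ∈ Hb H := (hH1 a ha).2.1 y (l.mem_mid (by linarith) (by linarith))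
        (by linarith) (by linarith)
      have hyH' : y ∈ Hb H' := le_trans hyH ((hH1 a ha).1.trans (hH2 a ha))
      have hex : ∃ k, (i, k) ∈ S ∧ (i, k) ∈ Q a :=
        ⟨k, (hS1 i k).2 ⟨hi, y, hyA, hyH'⟩, y, ⟨hyA, hya⟩, by linarith, by linarith⟩
      have hu := hn2 ((s.P n).c i j) (R.p y) (D.mem_lev.1 hlev) (by
        rw [hy1, dist_self, one_mul]
        exact D.qpow_pos n)
      rw [← hUl] at hu
      have hu' : |(s.P n).u ((s.P n).c i j) - (p0.re - r + (a : ℝ) * lam)| ≤ 2 * lam := by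
        rw [abs_le] at hu hya ⊢
        constructor <;> linarith [hu.1, hu.2, hya.1, hya.2]
      have h4 := Finset.single_le_sum (fun a _ => h0 j a)
        (Finset.mem_range.2 (Nat.lt_succ_of_le ha))
      rwa [if_pos hex, if_pos hu', one_mul] at h4
    refine (Finset.sum_le_sum h3).trans ?_
    rw [Finset.sum_comm]
    refine Finset.sum_le_sum fun a _ => ?_
    rw [← Finset.mul_sum, ← Finset.sum_filter]
    refine mul_le_mul_of_nonneg_left ?_ (by split_ifs <;> norm_num)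
    have h5 := (hT n _ _ (s.P n) lam (p0.re - r + (a : ℝ) * lam) (2 * lam) hn3 (by linarith) i hi).2
    linarith
  have key2 : ∀ a ∈ Finset.range (K + 1), ∑ i ∈ (s.P n).T, (s.P n).μ i *
      ((if ∃ k, (i, k) ∈ S ∧ (i, k) ∈ Q a then (1 : ℝ) else 0) * (5 * lam)) ≤ 3 * r * (5 * lam) := by
    intro a ha
    have ha' : a ≤ K := Nat.le_of_lt_succ (Finset.mem_range.1 ha)
    have h6 := hS2 _ (ht a ha').1 (ht a ha').2
    have h7 := (hH1 a ha').2.2 H' (hH2 a ha') _ _ _ h6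
    have h8 := proj_le (s.P n).T (s.P n).μ S (Q a) h6.nonneg
    simp only [← mul_assoc, ← Finset.sum_mul]
    refine mul_le_mul_of_nonneg_right (mul_le_mul_of_nonneg_right (h8.trans (h7.trans ?_))
      (by norm_num)) hlp.le
    linarith
  have h9 := Finset.sum_le_sum fun i (hi : i ∈ (s.P n).T) =>
    mul_le_mul_of_nonneg_left (key i hi) ((s.P n).μ_pos i hi).le
  simp only [Finset.mul_sum (Finset.range (K + 1))] at h9
  rw [Finset.sum_comm (t := Finset.range (K + 1))] at h9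
  have h10 := h9.trans (Finset.sum_le_sum key2)
  rw [Finset.sum_const, Finset.card_range, nsmul_eq_mul] at h10
  have h11 : ((K + 1 : ℕ) : ℝ) * (3 * r * (5 * lam)) ≤ 60 * r ^ 2 := by
    have h12 : lam ≤ 2 * r := by nlinarith
    push_cast
    nlinarith
  refine (mul_le_mul_of_nonneg_left (h10.trans h11) (s.P n).M_pos.le).trans ?_
  have h13 := mul_le_mul_of_nonneg_right hn4 (by positivity : (0 : ℝ) ≤ 60 * r ^ 2)
  linarith

end Vale.Agent.P198
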