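import Vale.Agent.P198.A.Stm

/-! Few walks have a large window. -/

open Set Metric Topology Filter

namespace Vale.Agent.P198

variable {G Z : Type*} [Group G] [MetricSpace Z] [MulAction G Z] [CompactSpace Z] {D : Dyn G Z}
  {E : Geo Z} {R : Ring Z}

namespace ABadW

omit [CompactSpace Z] in
theorem big {δ δ' : ℝ} (hδ : 0 < δ)
    (hl : ∀ w ∈ strip (-1) 2, ∀ w' : ℂ, dist w' w ≤ 3 → dist (R.p w') (R.p w) < δ' →
      dist w' w < min δ 1) {W : Set ℂ} (hW : IsPathConnected W) (hs : W ⊆ strip (-1) 2)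
    {y y' : ℂ} (hy : y ∈ W) (hy' : y' ∈ W) (h : δ ≤ dist y y') : R.p '' W ∈ Big Z δ' := by
  obtain ⟨x', z, hj, h1, h2⟩ := (pathP ℂ).band W (fun w => dist w y) y y' 0 (min δ 1)
    (hW.joinedIn y hy y' hy') (by fun_prop) (by simp) (lt_min hδ one_pos).le
    ((min_le_left _ _).trans (by rwa [dist_comm]))
  have e : x' = y := dist_eq_zero.1 h1
  subst e
  refine ⟨R.p x', R.p z, (hj.mono inter_subset_left).map R.cont, ?_⟩
  by_contra hc
  have h3 := hl x' (hs hy) z (by linarith [min_le_right δ 1])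
    (by rw [dist_comm]; exact not_le.1 hc)
  exact absurd h2 h3.ne

end ABadW

theorem Seq.badWP (s : Seq D E R) (hW : s.WinP) (hT : TimeP D) (hCS : CSP D) (hS : SprP D)
    (hB : BigP D) (hM : s.MloP) (hR : s.RhoP) : s.BadWP := by
  classical
  intro δ κ hδ hκ
  obtain ⟨δ', hδ', hl⟩ := R.low (min δ 1) (lt_min hδ one_pos)
  obtain ⟨B, hB0, hB1⟩ := hB δ' hδ'
  obtain ⟨N, hN, hN1⟩ := hS (4 * D.C * E.Λ)
  obtain ⟨c, hc, hc1⟩ := hM
  have hlam : 0 < κ * c / (3 * N * B) := by positivity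
  refine ⟨κ * c / (3 * N * B), hlam, ?_⟩
  generalize hlam' : κ * c / (3 * N * B) = lam at hlam
  have hlam2 : 3 * N * B * lam = κ * c := by
    rw [← hlam']
    field_simp
  filter_upwards [hW, hB1, hc1, hR lam hlam, s.lf,
    s.ε_lim.eventually (gt_mem_nhds (show (0 : ℝ) < 1 / 2 by norm_num))] with n h1 h2 h3 h4 h5 h6
  intro t
  obtain ⟨τ, hτ, hm, hbig⟩ := h2
  obtain ⟨σ, hσ, hmσ, hsp⟩ := hN1 n τ hτ
  unfold wt
  set S := (s.P n).T.filter fun i => i ∈ {i | ∃ y ∈ s.Wn n i t lam, ∃ y' ∈ s.Wn n i t lam,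
    δ ≤ dist y y'} with hSd
  have hST : S ⊆ (s.P n).T := Finset.filter_subset _ _
  have hcs := hCS n R.E0 R.E1 (s.P n).toFlow σ S (fun g => |(s.P n).u g - t| ≤ lam) hσ hST
  have hμ : ∀ i ∈ S, 0 < (s.P n).μ i := fun i hi => (s.P n).μ_pos i (hST hi)
  have e1 : ∑ i ∈ S, (s.P n).μ i ≤ ∑ i ∈ S, (s.P n).μ i *
      ∑ j ∈ (Finset.range ((s.P n).m i + 1)).filter
        fun j => |(s.P n).u ((s.P n).c i j) - t| ≤ lam, σ ((s.P n).c i j) := by
    refine Finset.sum_le_sum fun i hi => le_mul_of_one_le_right (hμ i hi).le ?_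
    obtain ⟨hiT, y, hy, y', hy', hd⟩ := Finset.mem_filter.1 hi
    have hlf := h5 i hiT
    have hs : s.Wn n i t lam ⊆ strip (-1) 2 := fun w hw => by
      simp only [Seq.Wn, mem_iUnion, mem_ofPred_eq] at hw
      obtain ⟨j, hj, hw⟩ := hw
      have p1 := mem_ball.1 (hlf.sm j hj.1 hw)
      have p2 := hlf.rem j hj.1.le
      rw [dist_eq_norm] at p1
      have p3 := abs_le.1 ((Complex.abs_re_le_norm (w - s.w n i j)).trans p1.le)
      rw [Complex.sub_re] at p3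
      constructor <;> linarith [p2.1, p2.2, p3.1, p3.2]
    refine (hbig _ (ABadW.big hδ hl ((h1 i hiT t lam).2 ⟨y, hy⟩) hs hy hy' hd)).trans
      (hsp _ _ ((s.P n).c i) ?_)
    rintro _ ⟨w, hw, rfl⟩
    simp only [Seq.Wn, mem_iUnion, mem_ofPred_eq] at hw
    obtain ⟨j, hj, hw⟩ := hw
    exact ⟨j, Finset.mem_filter.2 ⟨Finset.mem_range.2 (by omega), hj.2⟩, hlf.nr j hj.1 w hw⟩
  have e2 : ∑ i ∈ S, (s.P n).μ i * ∑ j ∈ (Finset.range ((s.P n).m i + 1)).filter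
        fun j => |(s.P n).u ((s.P n).c i j) - t| ≤ lam, (s.P n).ρ ((s.P n).c i j) ≤
      (∑ i ∈ S, (s.P n).μ i) * (3 * lam) := by
    rw [Finset.sum_mul]
    refine Finset.sum_le_sum fun i hi => mul_le_mul_of_nonneg_left ?_ (hμ i hi).le
    have := (hT n R.E0 R.E1 (s.P n) lam t lam h4 hlam.le i (hST hi)).2
    linarith
  have e3 : 0 ≤ ∑ i ∈ S, (s.P n).μ i := Finset.sum_nonneg fun i hi => (hμ i hi).le
  have e4 : D.mass n σ ≤ N * B := hmσ.trans (mul_le_mul_of_nonneg_left hm hN.le)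
  have e5 : 0 ≤ D.mass n σ := Finset.sum_nonneg fun g _ => sq_nonneg _
  have e6 := hcs.trans ((mul_le_mul_of_nonneg_left e2 e5).trans
    (mul_le_mul_of_nonneg_right e4 (by positivity)))
  have e7 := (mul_le_mul (pow_le_pow_left₀ e3 e1 2) h3 hc.le (sq_nonneg _)).trans e6
  generalize ∑ i ∈ S, (s.P n).μ i = W at e3 e7 ⊢
  by_contra hcon
  have hκW : κ < W := not_le.1 hcon
  have p1 : N * B * (W * (3 * lam)) = W * (κ * c) := by
    rw [← hlam2]
    ring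
  rw [p1] at e7
  have p2 : 0 < W * c := mul_pos (hκ.trans hκW) hc
  nlinarith

end Vale.Agent.P198
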