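import Vale.Agent.P198.A.Stm

open Set Metric Topology Filter

namespace Vale.Agent.P198

theorem PL.bandP (l : PL) (h : l.ThruP) : l.BandP := by
  intro t e t1 t2 he he2 x hx y hy
  obtain ⟨A, hA, hAx⟩ := h t e t1 t2 he he2 x hx
  obtain ⟨A', hA', hAy⟩ := h t e t1 t2 he he2 y hy
  obtain ⟨M, hM⟩ := (hA.cpt.union hA'.cpt).isBounded.exists_norm_le
  have hM0 : 0 ≤ M := by
    obtain ⟨z, hz, -⟩ := hA.left
    exact (norm_nonneg z).trans (hM z (Or.inl hz))
  have hθ := l.θ_pos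
  obtain ⟨Λ, hΛ, -, hc, hU, ⟨z, hz, hz'⟩, w, hw, hw'⟩ := levelP' (-1) 2 (-M) M t e l.U
    (by norm_num) (by linarith) he l.U_cont.continuousOn
    (fun w _ hw => by linarith [l.lo w (by rw [hw]; linarith)])
    (fun w _ hw => by linarith [l.hi w (by rw [hw]; linarith)])
  have key : ∀ B, Crs (-1) 2 B → B ⊆ A ∪ A' → (B ∩ Λ).Nonempty := by
    intro B hB hs
    obtain ⟨p, hp, hp'⟩ := hB.left
    obtain ⟨q, hq, hq'⟩ := hB.right
    refine xP (-1) 2 (-M) M B Λ p q z w (fun u hu => ?_) hΛ (hB.conn.joinedIn p hp q hq) hp' hq'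
      (hc.joinedIn z hz w hw) hz' hw'
    have h1 := abs_le.1 ((Complex.abs_im_le_norm u).trans (hM u (hs hu)))
    exact ⟨(hB.sub hu).1, (hB.sub hu).2, h1.1, h1.2⟩
  obtain ⟨a, ha, ha'⟩ := key A hA subset_union_left
  obtain ⟨b, hb, hb'⟩ := key A' hA' subset_union_right
  have h1 := hAx a ⟨ha, (hU a ha').le⟩
  have h2 := hAy b ⟨hb, (hU b hb').le⟩
  have h3 : JoinedIn (l.Bd t (2 * e)) a b := (hc.joinedIn a ha' b hb').mono fun u hu => by
    show |l.U u - t| ≤ 2 * e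
    linarith [hU u hu]
  exact (h1.trans h3).trans h2.symm

theorem PL.lamP (l : PL) (h1 : l.PropP) (h2 : l.BandP) : l.LamP := by
  intro t lam t1 t2 hl hl2
  obtain ⟨w, hw⟩ := h1.lev t (by linarith) (by linarith)
  have hb : ∀ e, 0 ≤ e → w ∈ l.Bd t e := fun e he => by
    show |l.U w - t| ≤ e
    rw [hw, sub_self, abs_zero]; exact he
  refine ⟨pathComponentIn (l.Bd t lam) w, t1, t2, hl, hl2,
    isPathConnected_pathComponentIn (hb _ hl.le), fun y hy => ?_, pathComponentIn_subset⟩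
  have := h2 t (lam / 2) t1 t2 (by linarith) (by linarith) w (hb _ (by linarith)) y hy
  rwa [show 2 * (lam / 2) = lam by ring] at this

end Vale.Agent.P198
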