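import Vale.Agent.P198.A.Stm

open Set Filter Topology

namespace Vale.Agent.P198

variable {G Z : Type*} [Group G] [MetricSpace Z] [MulAction G Z] [CompactSpace Z]

theorem bigP (D : Dyn G Z) (hT : D.Tst) : BigP D := by
  intro δ hδ
  obtain ⟨B, hB, hT⟩ := hT
  have h3 : 0 < δ / 3 := by positivity
  obtain ⟨S, -, hS, hcov⟩ := finite_cover_balls_of_compact (isCompact_univ (X := Z)) h3
  refine ⟨((hS.toFinset.card : ℝ) + 1) ^ 2 * B, by positivity, ?_⟩
  have hq := (tendsto_pow_atTop_nhds_zero_of_lt_one D.q_pos.le D.q_lt).eventually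
    (ge_mem_nhds h3)
  filter_upwards [hq] with n hn
  choose ρ h0 _ hm hl using fun z => hT n z (δ / 3) hn
  refine ⟨fun g => ∑ z ∈ hS.toFinset, ρ z g, fun g => Finset.sum_nonneg fun z _ => h0 z g, ?_, ?_⟩
  · have h1 : ∑ g ∈ D.lev n, (∑ z ∈ hS.toFinset, ρ z g) ^ 2 ≤
        ∑ g ∈ D.lev n, (hS.toFinset.card : ℝ) * ∑ z ∈ hS.toFinset, ρ z g ^ 2 :=
      Finset.sum_le_sum fun g _ => sq_sum_le_card_mul_sum_sq
    rw [← Finset.mul_sum, Finset.sum_comm] at h1
    have h2 : ∑ z ∈ hS.toFinset, ∑ g ∈ D.lev n, ρ z g ^ 2 ≤ (hS.toFinset.card : ℝ) * B := by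
      have := Finset.sum_le_card_nsmul hS.toFinset _ B fun z _ => hm z
      rwa [nsmul_eq_mul] at this
    have h4 : (0 : ℝ) ≤ hS.toFinset.card := Nat.cast_nonneg _
    have h5 := mul_le_mul_of_nonneg_left h2 h4
    unfold Dyn.mass
    nlinarith
  · rintro A ⟨x, y, hj, hd⟩
    obtain ⟨z, hz, hx⟩ := mem_iUnion₂.1 (hcov (mem_univ x))
    have hx' : dist x z < δ / 3 := hx
    have h1 := hl z A x y hj hx'.le (by linarith [dist_triangle_right x y z])
    exact h1.trans (Finset.sum_le_sum fun g _ =>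
      Finset.single_le_sum (f := fun z => ρ z g) (fun z _ => h0 z g) (hS.mem_toFinset.2 hz))

end Vale.Agent.P198
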