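import Vale.Agent.P198.A.Stm

/-! Cauchy-Schwarz along the flow. -/

open Set Metric Topology Filter

namespace Vale.Agent.P198

variable {G Z : Type*} [Group G] [MetricSpace Z] [MulAction G Z]

namespace ACS

open Classical in
theorem swap {D : Dyn G Z} {n : ℕ} {E0 E1 : Set Z} (F : Flow D n E0 E1) (τ : G → ℝ)
    {S : Finset ℕ} (Q : G → Prop) (hS : S ⊆ F.T) :
    ∑ i ∈ S, F.μ i * ∑ j ∈ (Finset.range (F.m i + 1)).filter fun j => Q (F.c i j), τ (F.c i j) =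
      ∑ g ∈ (D.lev n).filter Q, τ g * ∑ i ∈ S.filter fun i => ∃ j ≤ F.m i, F.c i j = g, F.μ i := by
  have h1 : ∀ i ∈ S,
      ∑ j ∈ (Finset.range (F.m i + 1)).filter fun j => Q (F.c i j), τ (F.c i j) =
        ∑ g ∈ ((D.lev n).filter Q).filter fun g => ∃ j ≤ F.m i, F.c i j = g, τ g := by
    intro i hi
    refine Finset.sum_bij (fun j _ => F.c i j) (fun j hj => ?_) (fun j hj j' hj' h => ?_)
      (fun g hg => ?_) fun _ _ => rfl
    · simp only [Finset.mem_filter, Finset.mem_range, Nat.lt_succ_iff] at hj ⊢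
      exact ⟨⟨D.mem_lev.2 ((F.ch i (hS hi)).wk.lev j hj.1), hj.2⟩, j, hj.1, rfl⟩
    · simp only [Finset.mem_filter, Finset.mem_range, Nat.lt_succ_iff] at hj hj'
      exact F.inj i (hS hi) j hj.1 j' hj'.1 h
    · simp only [Finset.mem_filter] at hg
      obtain ⟨⟨-, h2⟩, j, hj, rfl⟩ := hg
      exact ⟨j, Finset.mem_filter.2 ⟨Finset.mem_range.2 (Nat.lt_succ_iff.2 hj), h2⟩, rfl⟩
  rw [Finset.sum_congr rfl fun i hi => by rw [h1 i hi]]
  simp only [Finset.sum_filter (s := (D.lev n).filter Q), Finset.sum_filter (s := S),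
    Finset.mul_sum]
  rw [Finset.sum_comm]
  refine Finset.sum_congr rfl fun g _ => Finset.sum_congr rfl fun i _ => ?_
  split_ifs
  · ring
  · ring

end ACS

theorem csP (D : Dyn G Z) : CSP D := by
  classical
  intro n E0 E1 F σ S Q _ hS
  rw [ACS.swap F σ Q hS, ACS.swap F F.ρ Q hS]
  set η : G → ℝ := fun g => ∑ i ∈ S.filter fun i => ∃ j ≤ F.m i, F.c i j = g, F.μ i with hη
  have h0 : ∀ g, 0 ≤ η g := fun g => Finset.sum_nonneg fun i hi =>
    (F.μ_pos i (hS (Finset.mem_filter.1 hi).1)).le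
  have h1 : ∀ g, F.M * η g ≤ F.ρ g := fun g => by
    rw [F.ρ_def]
    refine mul_le_mul_of_nonneg_left (Finset.sum_le_sum_of_subset_of_nonneg
      (Finset.filter_subset_filter _ hS) fun i hi _ => ?_) F.M_pos.le
    exact (F.μ_pos i (Finset.mem_filter.1 hi).1).le
  have h2 := Finset.sum_mul_sq_le_sq_mul_sq ((D.lev n).filter Q) σ η
  have h3 : ∑ g ∈ (D.lev n).filter Q, σ g ^ 2 ≤ D.mass n σ :=
    Finset.sum_le_sum_of_subset_of_nonneg (Finset.filter_subset _ _) fun g _ _ => sq_nonneg _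
  have h4 : (∑ g ∈ (D.lev n).filter Q, η g ^ 2) * F.M ≤
      ∑ g ∈ (D.lev n).filter Q, F.ρ g * η g := by
    rw [Finset.sum_mul]
    refine Finset.sum_le_sum fun g _ => ?_
    nlinarith [mul_le_mul_of_nonneg_right (h1 g) (h0 g)]
  have h5 : 0 ≤ (∑ g ∈ (D.lev n).filter Q, η g ^ 2) * F.M :=
    mul_nonneg (Finset.sum_nonneg fun g _ => sq_nonneg _) F.M_pos.le
  calc (∑ g ∈ (D.lev n).filter Q, σ g * η g) ^ 2 * F.M
      ≤ (∑ g ∈ (D.lev n).filter Q, σ g ^ 2) * (∑ g ∈ (D.lev n).filter Q, η g ^ 2) * F.M :=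
        mul_le_mul_of_nonneg_right h2 F.M_pos.le
    _ = (∑ g ∈ (D.lev n).filter Q, σ g ^ 2) * ((∑ g ∈ (D.lev n).filter Q, η g ^ 2) * F.M) :=
        mul_assoc _ _ _
    _ ≤ D.mass n σ * ∑ g ∈ (D.lev n).filter Q, F.ρ g * η g :=
        mul_le_mul h3 h4 h5 ((Finset.sum_nonneg fun g _ => sq_nonneg _).trans h3)

end Vale.Agent.P198
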