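import Vale.Agent.P198.A.Stm

/-! Paths give injective walks. -/

open Set Metric Topology Filter

namespace Vale.Agent.P198

variable {G Z : Type*} [Group G] [MetricSpace Z] [MulAction G Z] [CompactSpace Z] {D : Dyn G Z}
  {E : Geo Z} {R : Ring Z}

namespace ACT

theorem walk {α : Type*} {r : α → α → Prop} {a b : α} (h : Relation.ReflTransGen r a b) :
    ∃ (k : ℕ) (d : ℕ → α), d 0 = a ∧ d k = b ∧ (∀ j < k, r (d j) (d (j + 1))) ∧
      ∀ j ≤ k, ∀ j' ≤ k, d j = d j' → j = j' := by
  classical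
  induction h with
  | refl => exact ⟨0, fun _ => a, rfl, rfl, fun _ h => absurd h (by omega), fun _ _ _ _ _ => by omega⟩
  | @tail b c _ hbc ih =>
    obtain ⟨k, d, h0, hk, hr, hi⟩ := ih
    by_cases hc : ∃ i ≤ k, d i = c
    · obtain ⟨i, hik, hic⟩ := hc
      exact ⟨i, d, h0, hic, fun j hj => hr j (by omega),
        fun j hj j' hj' => hi j (by omega) j' (by omega)⟩
    · push Not at hc
      refine ⟨k + 1, fun j => if j ≤ k then d j else c, by simpa using h0, by simp, fun j hj => ?_,
        fun j hj j' hj' e => ?_⟩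
      · rcases (Nat.lt_succ_iff.1 hj).eq_or_lt with rfl | h1
        · simpa [hk] using hbc
        · simp only [if_pos h1.le, if_pos (Nat.succ_le_of_lt h1)]
          exact hr j h1
      · by_cases h1 : j ≤ k <;> by_cases h2 : j' ≤ k
        · simp only [if_pos h1, if_pos h2] at e
          exact hi j h1 j' h2 e
        · simp only [if_pos h1, if_neg h2] at e
          exact absurd e (hc j h1)
        · simp only [if_neg h1, if_pos h2] at e
          exact absurd e.symm (hc j' h2)
        · omega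

end ACT

theorem ctP (D : Dyn G Z) : CTP D := by
  intro n P x y g g' ⟨γ, hγ⟩ hg hg' hx hy
  let r : G → G → Prop := fun a b => b ∈ D.hit n P ∧ dist (D.pt a) (D.pt b) < 4 * D.C * D.q ^ n
  have hr : ∀ (t : unitInterval) (a b : G), D.len b = n → dist (γ t) (D.pt a) < 2 * D.C * D.q ^ n →
      dist (γ t) (D.pt b) < 2 * D.C * D.q ^ n → Relation.ReflTransGen r a b := by
    intro t a b hb h1 h2
    refine Relation.ReflTransGen.single ⟨D.mem_hit.2 ⟨hb, γ t, hγ t, h2⟩, ?_⟩
    have := dist_triangle_left (D.pt a) (D.pt b) (γ t)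
    linarith
  have key := (isPreconnected_univ (α := unitInterval)).induction₂'
    (fun s t => ∀ a b, D.len b = n → dist (γ s) (D.pt a) < 2 * D.C * D.q ^ n →
      dist (γ t) (D.pt b) < 2 * D.C * D.q ^ n → Relation.ReflTransGen r a b)
    (fun s _ => ?_) (fun s t u _ _ _ h1 h2 a b hb ha hb' => ?_) (mem_univ 0) (mem_univ 1)
  · obtain ⟨k, d, h0, hk, h1, h2⟩ := ACT.walk (key g g' hg' (by simpa using hx) (by simpa using hy))
    have h3 : ∀ j ≤ k, d j ∈ D.hit n P := by
      intro j hj
      rcases j with _ | j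
      · rw [h0]
        exact D.mem_hit.2 ⟨hg, x, by simpa using hγ 0, hx⟩
      · exact (h1 j (by omega)).1
    exact ⟨k, d, ⟨fun j hj => (D.mem_hit.1 (h3 j hj)).1, fun j hj => (h1 j hj).2⟩, h0, hk, h3, h2⟩
  · obtain ⟨c, hc, hs⟩ := D.exists_hit n (γ s)
    have h1 : ∀ᶠ t in 𝓝 s, dist (γ t) (D.pt c) < 2 * D.C * D.q ^ n :=
      (γ.continuous.dist continuous_const).continuousAt.eventually (gt_mem_nhds hs)
    filter_upwards [nhdsWithin_le_nhds h1] with t ht
    exact ⟨fun a b hb ha hb' => (hr s a c hc ha hs).trans (hr t c b hb ht hb'),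
      fun a b hb ha hb' => (hr t a c hc ha ht).trans (hr s c b hb hs hb')⟩
  · obtain ⟨c, hc, hs⟩ := D.exists_hit n (γ t)
    exact (h1 a c hc ha hs).trans (h2 c b hb hs hb')

end Vale.Agent.P198
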