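import Vale.Agent.P198.A.Stm

open Set Metric Topology Filter

namespace Vale.Agent.P198

variable {Z : Type*} [MetricSpace Z]

namespace AChartK

theorem int_zero (k : ℤ) (h : ‖(k : ℂ) * TT‖ < 1) : k = 0 := by
  by_contra hk
  have h1 : (1 : ℝ) ≤ |(k : ℝ)| := by exact_mod_cast Int.one_le_abs hk
  have h2 : ‖TT‖ = 2 * Real.pi := by
    simp [TT, abs_of_pos Real.pi_pos]
  rw [norm_mul, h2, Complex.norm_intCast] at h
  nlinarith [Real.pi_gt_three]

theorem f_cont (l : PL) : ContinuousOn l.f l.Mid := by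
  have e : l.f = fun w => (l.U w : ℂ) + (l.V w : ℂ) * Complex.I := by
    funext w
    apply Complex.ext <;> simp [PL.f]
  rw [e]
  exact (Complex.continuous_ofReal.comp l.U_cont).continuousOn.add
    ((Complex.continuous_ofReal.comp_continuousOn l.V_cont).mul continuousOn_const)

theorem re_near {ζ : ℂ} {ρ : ℝ} (h : ζ ∈ ball (1 / 2 : ℂ) ρ) : |ζ.re - 1 / 2| < ρ := by
  rw [mem_ball, dist_eq_norm] at h
  have h1 := Complex.abs_re_le_norm (ζ - 1 / 2)
  have h2 : (ζ - 1 / 2).re = ζ.re - 1 / 2 := by simp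
  rw [h2] at h1
  linarith

theorem mid_strip (l : PL) {w : ℂ} (h : w ∈ l.Mid) : w ∈ strip (-1) 2 := by
  have h1 := l.θ_pos
  obtain ⟨h2, h3⟩ := h
  constructor <;> linarith

theorem seg_far {p v ζ : ℂ} {T : ℝ} (hT : 1 ≤ T) (h : ζ ∈ segment ℝ (p + v) (p + (T : ℂ) * v)) :
    ‖v‖ ≤ ‖ζ - p‖ := by
  obtain ⟨a, b, ha, hb, hab, rfl⟩ := h
  have e : a • (p + v) + b • (p + (T : ℂ) * v) - p = ((a + b * T : ℝ) : ℂ) * v := by
    have h1 : (b : ℂ) = 1 - a := by
      have : (b : ℝ) = 1 - a := by linarith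
      rw [this]; push_cast; ring
    simp only [Complex.real_smul]
    push_cast
    rw [h1]
    ring
  rw [e, norm_mul, Complex.norm_real, Real.norm_eq_abs]
  have h2 : 1 ≤ a + b * T := by nlinarith
  rw [abs_of_nonneg (by linarith)]
  nlinarith [norm_nonneg v]

end AChartK

open AChartK in
theorem PL.chartK (l : PL) (R : Ring Z) (h1 : l.PropP) (h2 : l.HomP) (h3 : l.CoreP R) :
    Nonempty (ChartK Z) := by
  obtain ⟨gi, hgc, hfg, hgf⟩ := h2
  obtain ⟨κ, H, δ, hκ, hH, hδ, hcore⟩ := h3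
  have hSo : IsOpen {ζ : ℂ | 3 / 8 < ζ.re ∧ ζ.re < 5 / 8} :=
    (isOpen_lt continuous_const Complex.continuous_re).inter
      (isOpen_lt Complex.continuous_re continuous_const)
  have hc0 : (1 / 2 : ℂ) ∈ {ζ : ℂ | 3 / 8 < ζ.re ∧ ζ.re < 5 / 8} := by
    constructor <;> norm_num
  set ws := gi (1 / 2) with hws
  have hfws : l.f ws = 1 / 2 := hfg _ hc0.1 hc0.2
  have hUws : l.U ws = 1 / 2 := by
    have := congrArg Complex.re hfws
    simpa [PL.f] using this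
  have hre := l.re_mem (w := ws) (by rw [hUws]; norm_num) (by rw [hUws]; norm_num)
  have hθ := l.θ_pos
  have hwsM : ws ∈ l.Mid := l.mem_mid (by rw [hUws]; norm_num) (by rw [hUws]; norm_num)
  obtain ⟨ρ, hρ, hρ'⟩ := Metric.continuousAt_iff.1 (hgc.continuousAt (hSo.mem_nhds hc0)) (1 / 4)
    (by norm_num)
  obtain ⟨R1, hR0, hR1, hR2⟩ : ∃ R1 : ℝ, 0 < R1 ∧ R1 ≤ 1 / 32 ∧ 3 * R1 ≤ ρ :=
    ⟨min (1 / 32) (ρ / 3), lt_min (by norm_num) (by linarith), min_le_left _ _,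
      by linarith [min_le_right (1 / 32 : ℝ) (ρ / 3)]⟩
  have hB : ∀ ζ ∈ ball (1 / 2 : ℂ) (3 * R1),
      (3 / 8 < ζ.re ∧ ζ.re < 5 / 8) ∧ gi ζ ∈ ball ws (1 / 4) := by
    intro ζ hζ
    have h4 := abs_lt.1 (re_near hζ)
    exact ⟨⟨by linarith [h4.1], by linarith [h4.2]⟩, hρ' (lt_of_lt_of_le hζ hR2)⟩
  obtain ⟨δ0, hδ0, huc⟩ := h1.uc (R1 / 8) (by linarith)
  obtain ⟨ε, hε0, hε1, hε2, hε3⟩ : ∃ ε : ℝ, 0 < ε ∧ ε ≤ δ0 ∧ ε ≤ l.θ ∧ ε ≤ 1 / 4 :=
    ⟨min δ0 (min l.θ (1 / 4)), lt_min hδ0 (lt_min hθ (by norm_num)), min_le_left _ _,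
      (min_le_right _ _).trans (min_le_left _ _), (min_le_right _ _).trans (min_le_right _ _)⟩
  have hE : ∀ w ∈ ball ws ε, w ∈ l.Mid ∧ l.f w ∈ ball (1 / 2 : ℂ) (R1 / 4) := by
    intro w hw
    have h4 : w ∈ l.Mid := by
      have h5 := Complex.abs_re_le_norm (w - ws)
      rw [mem_ball, dist_eq_norm] at hw
      rw [Complex.sub_re] at h5
      have h6 := abs_lt.1 (lt_of_le_of_lt h5 hw)
      constructor <;> linarith [h6.1, h6.2, hre.1, hre.2]
    refine ⟨h4, ?_⟩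
    have h5 := huc w h4 ws hwsM (lt_of_lt_of_le hw hε1)
    rw [hfws] at h5
    rw [mem_ball, dist_eq_norm]
    linarith
  obtain ⟨δs, hδs, hsec⟩ := R.sec ε hε0
  obtain ⟨sc, hsc, -, hsp⟩ := hsec ws (mid_strip l hwsM)
  obtain ⟨δ2, hδ2, hlow⟩ := R.low δ0 hδ0
  have hκ0 : 0 < κ := by linarith
  obtain ⟨r0, hr0, hr1, hr2, hr3⟩ : ∃ r0 : ℝ, 0 < r0 ∧ r0 ≤ δs ∧ 2 * κ * r0 ≤ δ ∧
      2 * κ ^ 2 * r0 ≤ δ2 := by
    refine ⟨min δs (min (δ / (2 * κ)) (δ2 / (2 * κ ^ 2))), lt_min hδs (lt_min (by positivity)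
      (by positivity)), min_le_left _ _, ?_, ?_⟩
    · have : min δs (min (δ / (2 * κ)) (δ2 / (2 * κ ^ 2))) ≤ δ / (2 * κ) :=
        (min_le_right _ _).trans (min_le_left _ _)
      rw [le_div_iff₀ (by positivity)] at this
      linarith
    · have : min δs (min (δ / (2 * κ)) (δ2 / (2 * κ ^ 2))) ≤ δ2 / (2 * κ ^ 2) :=
        (min_le_right _ _).trans (min_le_right _ _)
      rw [le_div_iff₀ (by positivity)] at this
      linarith
  have hsub : ball (R.p ws) r0 ⊆ ball (R.p ws) δs := ball_subset_ball hr1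
  have hF : ∀ x ∈ ball (R.p ws) r0, R.p (sc x) = x ∧ sc x ∈ ball ws ε ∧ sc x ∈ l.Mid ∧
      l.f (sc x) ∈ ball (1 / 2 : ℂ) (R1 / 4) ∧ (3 / 8 < l.U (sc x) ∧ l.U (sc x) < 5 / 8) ∧
      gi (l.f (sc x)) = sc x := by
    intro x hx
    obtain ⟨h4, h5⟩ := hsp x (hsub hx)
    obtain ⟨h6, h7⟩ := hE _ h5
    have h8 := (hB _ (ball_subset_ball (by linarith) h7)).1
    exact ⟨h4, h5, h6, h7, h8, hgf _ h8.1 h8.2⟩
  have hinj : InjOn (fun x => l.f (sc x)) (ball (R.p ws) r0) := by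
    intro x hx y hy e
    have h4 := congrArg gi e
    simp only at h4
    rw [(hF x hx).2.2.2.2.2, (hF y hy).2.2.2.2.2] at h4
    rw [← (hF x hx).1, h4, (hF y hy).1]
  have hjoin : ∀ a b : ℂ, segment ℝ a b ⊆ ball (1 / 2 : ℂ) (3 * R1) →
      JoinedIn (R.p '' (gi '' segment ℝ a b)) (R.p (gi a)) (R.p (gi b)) := by
    intro a b hab
    exact ((JoinedIn.of_segment_subset Subset.rfl).map_continuousOn
      (hgc.mono fun ζ hζ => (hB ζ (hab hζ)).1)).map R.cont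
  refine ⟨⟨R.p ws, r0, fun x => l.f (sc x), H, κ ^ 2, hr0, hH, one_le_pow₀ hκ,
    (f_cont l).comp (hsc.mono hsub) fun x hx => (hF x hx).2.2.1, hinj, fun U hU hUs => ?_, ?_⟩⟩
  · have e : (fun x => l.f (sc x)) '' U =
        {ζ : ℂ | 3 / 8 < ζ.re ∧ ζ.re < 5 / 8} ∩ gi ⁻¹' (R.p ⁻¹' U ∩ ball ws ε) := by
      ext ζ
      constructor
      · rintro ⟨x, hx, rfl⟩
        obtain ⟨h4, h5, -, -, h6, h7⟩ := hF x (hUs hx)
        refine ⟨h6, ?_⟩
        rw [mem_preimage, h7]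
        exact ⟨by rw [mem_preimage, h4]; exact hx, h5⟩
      · rintro ⟨h4, h5, h6⟩
        obtain ⟨h7, h8, -⟩ := hF _ (hUs h5)
        obtain ⟨k, hk⟩ := R.inj _ _ h7.symm
        have h9 : k = 0 := by
          refine int_zero k ?_
          have h10 := dist_triangle_right (sc (R.p (gi ζ))) (gi ζ) ws
          rw [mem_ball] at h6 h8
          rw [dist_eq_norm, hk, add_sub_cancel_left] at h10
          rw [hk] at h8
          linarith
        refine ⟨R.p (gi ζ), h5, ?_⟩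
        simp only
        rw [hk, h9, Int.cast_zero, zero_mul, add_zero]
        exact hfg ζ h4.1 h4.2
    rw [e]
    exact hgc.isOpen_inter_preimage hSo ((hU.preimage R.cont).inter isOpen_ball)
  · intro x hx y hy z hz hd
    by_contra hcon
    rw [not_le] at hcon
    obtain ⟨hx1, hx2, hx3, hx4, hx5, hx6⟩ := hF x hx
    obtain ⟨hy1, -, -, hy4, -, hy6⟩ := hF y hy
    obtain ⟨hz1, -, -, hz4, -, hz6⟩ := hF z hz
    have hn0 : 0 ≤ H * ‖l.f (sc z) - l.f (sc x)‖ := by positivity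
    have hv : 0 < ‖l.f (sc y) - l.f (sc x)‖ := lt_of_le_of_lt hn0 hcon
    have hyx : 0 < dist y x := by
      rw [dist_pos]
      rintro rfl
      simp at hv
    have hzx : z ≠ x := by
      rw [← dist_pos]
      exact lt_of_lt_of_le (by positivity) hd
    have hs : 0 < ‖l.f (sc z) - l.f (sc x)‖ :=
      norm_pos_iff.2 (sub_ne_zero.2 fun e => hzx (hinj hz hx e))
    have hyx2 : dist y x ≤ 2 * r0 := by
      have := dist_triangle_right y x (R.p ws)
      rw [mem_ball] at hx hy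
      linarith
    have hv2 : ‖l.f (sc y) - l.f (sc x)‖ ≤ R1 / 2 := by
      have := dist_triangle_right (l.f (sc y)) (l.f (sc x)) (1 / 2)
      rw [mem_ball] at hx4 hy4
      rw [dist_eq_norm] at this
      linarith
    set v := l.f (sc y) - l.f (sc x) with hvdef
    set T : ℝ := R1 / ‖v‖ with hT
    have hT1 : 1 ≤ T := by
      rw [hT, le_div_iff₀ hv]
      linarith
    have hTv : ‖(T : ℂ) * v‖ = R1 := by
      rw [norm_mul, Complex.norm_real, Real.norm_eq_abs, abs_of_nonneg (by linarith), hT]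
      field_simp
    have hey : l.f (sc x) + v = l.f (sc y) := by rw [hvdef]; ring
    have he : l.f (sc x) + (T : ℂ) * v ∈ ball (1 / 2 : ℂ) (3 * R1) := by
      have h4 := dist_triangle (l.f (sc x) + (T : ℂ) * v) (l.f (sc x)) (1 / 2)
      rw [dist_eq_norm (l.f (sc x) + (T : ℂ) * v) (l.f (sc x)), add_sub_cancel_left, hTv] at h4
      rw [mem_ball] at hx4 ⊢
      linarith
    have hbb : ball (1 / 2 : ℂ) (R1 / 4) ⊆ ball (1 / 2 : ℂ) (3 * R1) :=
      ball_subset_ball (by linarith)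
    have hs1 : segment ℝ (l.f (sc x)) (l.f (sc z)) ⊆ ball (1 / 2 : ℂ) (3 * R1) :=
      (convex_ball _ _).segment_subset (hbb hx4) (hbb hz4)
    have hs2 : segment ℝ (l.f (sc y)) (l.f (sc x) + (T : ℂ) * v) ⊆ ball (1 / 2 : ℂ) (3 * R1) :=
      (convex_ball _ _).segment_subset (hbb hy4) he
    have hK : ∀ A : Set ℂ, A ⊆ ball (1 / 2 : ℂ) (3 * R1) → gi '' A ⊆ ball (sc x) 1 := by
      rintro A hA _ ⟨ζ, hζ, rfl⟩
      have h4 := (hB ζ (hA hζ)).2
      have h5 := dist_triangle_right (gi ζ) (sc x) ws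
      rw [mem_ball] at h4 hx2 ⊢
      linarith
    refine hcore (sc x) (l.f (sc x)) (κ * dist y x) ‖l.f (sc z) - l.f (sc x)‖
      (gi '' segment ℝ (l.f (sc x)) (l.f (sc z)))
      (gi '' segment ℝ (l.f (sc y)) (l.f (sc x) + (T : ℂ) * v)) (by linarith [hx5.1])
      (by linarith [hx5.2]) hx5.1.le hx5.2.le (by positivity) (by nlinarith) hs (by linarith)
      (hK _ hs1) (hK _ hs2) ⟨_, _, hjoin _ _ hs1, ?_, ?_⟩ ⟨_, _, hjoin _ _ hs2, ?_, ?_⟩ ?_ ?_
    · rw [hx6, dist_self, mul_zero]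
      positivity
    · rw [hz6, hz1, hx1]
      linarith
    · rw [hy6, hy1, hx1]
    · obtain ⟨h4, h5⟩ := hB _ he
      have h6 := hfg _ h4.1 h4.2
      have h7 : gi (l.f (sc x) + (T : ℂ) * v) ∈ l.Mid := by
        have h8 : l.U (gi (l.f (sc x) + (T : ℂ) * v)) = (l.f (sc x) + (T : ℂ) * v).re :=
          congrArg Complex.re h6
        exact l.mem_mid (by rw [h8]; linarith [h4.1]) (by rw [h8]; linarith [h4.2])
      have h8 : dist (gi (l.f (sc x) + (T : ℂ) * v)) (sc x) ≤ 3 := by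
        have := hK _ hs2 (mem_image_of_mem gi (right_mem_segment ℝ _ _))
        rw [mem_ball] at this
        linarith
      have h9 : δ2 ≤ dist (R.p (gi (l.f (sc x) + (T : ℂ) * v))) (R.p (sc x)) := by
        by_contra h10
        have h11 := huc _ h7 _ hx3 (hlow _ (mid_strip l hx3) _ h8 (not_le.1 h10))
        rw [h6, add_sub_cancel_left, hTv] at h11
        linarith
      have h10 : κ * (κ * dist y x) ≤ 2 * κ ^ 2 * r0 := by
        have := mul_le_mul_of_nonneg_left hyx2 (show 0 ≤ κ ^ 2 by positivity)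
        linarith
      linarith
    · rintro _ ⟨ζ, hζ, rfl⟩
      have h4 := (hB ζ (hs1 hζ)).1
      rw [hfg ζ h4.1 h4.2, ← dist_eq_norm, ← mem_closedBall]
      refine (convex_closedBall _ _).segment_subset (mem_closedBall_self hs.le) ?_ hζ
      rw [mem_closedBall, dist_eq_norm]
    · rintro _ ⟨ζ, hζ, rfl⟩
      have h4 := (hB ζ (hs2 hζ)).1
      rw [hfg ζ h4.1 h4.2]
      rw [← hey] at hζ
      exact hcon.le.trans (seg_far hT1 hζ)

end Vale.Agent.P198
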