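import Vale.Agent.P198.A.Stm

open Set Metric Topology Filter

namespace Vale.Agent.P198

variable {G Z : Type*} [Group G] [MetricSpace Z] [MulAction G Z] [CompactSpace Z] {D : Dyn G Z}
  {E : Geo Z} {R : Ring Z}

namespace ACnt1

theorem re_shift (y : ℂ) (k : ℤ) : (y + k * TT).re = y.re := by simp [TT]

theorem eq_of_close {y y' a b : ℂ} {k k' : ℤ} (h1 : y ∈ ball a 1) (h2 : y' ∈ ball a 1)
    (h3 : y + k * TT ∈ ball b 1) (h4 : y' + k' * TT ∈ ball b 1) : k = k' := by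
  have e : ((k - k' : ℤ) : ℂ) * TT = (y + k * TT - b) - (y' + k' * TT - b) - (y - a) + (y' - a) := by
    push_cast
    ring
  rw [mem_ball_iff_norm] at h1 h2 h3 h4
  have h5 : ‖((k - k' : ℤ) : ℂ) * TT‖ < 4 := by
    rw [e]
    have p1 := norm_add_le ((y + k * TT - b) - (y' + k' * TT - b) - (y - a)) (y' - a)
    have p2 := norm_sub_le ((y + k * TT - b) - (y' + k' * TT - b)) (y - a)
    have p3 := norm_sub_le (y + k * TT - b) (y' + k' * TT - b)
    linarith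
  have h6 : ‖TT‖ = 2 * Real.pi := by simp [TT, abs_of_pos Real.pi_pos]
  rw [norm_mul, h6, Complex.norm_intCast] at h5
  by_contra hne
  have h7 : (1 : ℝ) ≤ |((k - k' : ℤ) : ℝ)| := by
    exact_mod_cast Int.one_le_abs (sub_ne_zero.2 hne)
  nlinarith [Real.pi_gt_three]

omit [CompactSpace Z] in
theorem link {n m : ℕ} {ε θ : ℝ} {d : ℕ → G} {w : ℕ → ℂ} {Lk : ℕ → Set ℂ}
    (h : IsLf D E R n ε m d w Lk) (hε : ε < θ) {Q : Set ℂ} (hQ : Q ⊆ strip θ (1 - θ)) {k : ℤ}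
    (hk : (sh k (crv m w Lk) ∩ Q).Nonempty) : ∃ j < m, ∃ y ∈ Lk j, y + k * TT ∈ Q := by
  obtain ⟨_, ⟨y, hy, rfl⟩, hq⟩ := hk
  obtain ⟨h1, h2⟩ := hQ hq
  rw [re_shift] at h1 h2
  rcases hy with (hy | hy) | hy
  · linarith [hy.2.2, (abs_lt.1 h.re0).2]
  · obtain ⟨j, hj, hy⟩ := mem_iUnion₂.1 hy
    exact ⟨j, hj, y, hy, hq⟩
  · linarith [hy.2.1, (abs_lt.1 h.re1).1]

end ACnt1

open ACnt1 in
theorem Seq.cnt1P (s : Seq D E R) : s.Cnt1P := by
  classical
  intro θ hθ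
  filter_upwards [s.lf, s.ε_lim.eventually (gt_mem_nhds hθ),
    s.ε_lim.eventually (gt_mem_nhds one_pos)] with n hn h1 h2 Q w0 hQ
  have key : ∀ i ∈ (s.P n).T, ({k : ℤ | (sh k (s.A n i) ∩ Q).Nonempty}.ncard : ℝ) ≤
      ((D.near n (4 * D.C * E.Λ) (R.p '' Q)).filter
        fun g => ∃ j ≤ (s.P n).m i, (s.P n).c i j = g).card := by
    intro i hi
    have hl := hn i hi
    have hk : ∀ k : ℤ, (sh k (s.A n i) ∩ Q).Nonempty →
        ∃ j < (s.P n).m i, ∃ y ∈ s.Lk n i j, y + k * TT ∈ Q :=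
      fun k hk => link hl h1 (fun x hx => (hQ hx).1) hk
    choose! j hj y hy hq using hk
    rw [← Set.ncard_coe_finset, Nat.cast_le]
    refine Set.ncard_le_ncard_of_injOn (fun k => (s.P n).c i (j k)) (fun k hk => ?_)
      (fun k hk k' hk' e => ?_) (Finset.finite_toSet _)
    · refine Finset.mem_coe.2 (Finset.mem_filter.2 ⟨D.mem_near.2
        ⟨((s.P n).ch i hi).wk.lev _ (hj k hk).le, _, ⟨_, hq k hk, rfl⟩, ?_⟩, _, (hj k hk).le, rfl⟩)
      rw [R.per]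
      exact hl.nr _ (hj k hk) _ (hy k hk)
    · have e' := (s.P n).inj i hi _ (hj k hk).le _ (hj k' hk').le e
      exact eq_of_close (ball_subset_ball h2.le (hl.sm _ (hj k hk) (hy k hk)))
        (ball_subset_ball h2.le (hl.sm _ (hj k hk) (e' ▸ hy k' hk'))) (hQ (hq k hk)).2
        (hQ (hq k' hk')).2
  simp only [(s.P n).ρ_def]
  rw [← Finset.mul_sum]
  refine mul_le_mul_of_nonneg_left ?_ (s.P n).M_pos.le
  simp only [Finset.sum_filter]
  rw [Finset.sum_comm]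
  refine Finset.sum_le_sum fun i hi => ?_
  rw [← Finset.sum_filter, Finset.sum_const, nsmul_eq_mul, mul_comm]
  exact mul_le_mul_of_nonneg_right (key i hi) ((s.P n).μ_pos i hi).le

end Vale.Agent.P198
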