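import Vale.Agent.P198.A.Stm

/-! Few lifts meet a small disc. -/

open Set Metric Topology Filter

namespace Vale.Agent.P198

variable {G Z : Type*} [Group G] [MetricSpace Z] [MulAction G Z] [CompactSpace Z] {D : Dyn G Z}
  {E : Geo Z} {R : Ring Z}

namespace ACnt2

theorem re_add (a : ℂ) (k : ℤ) : (a + k * TT).re = a.re := by simp [TT]

theorem im_add (a : ℂ) (k : ℤ) : (a + k * TT).im = a.im + k * (2 * Real.pi) := by simp [TT]

theorem exists_shift (y : ℂ) : ∃ l : ℤ, |(y + l * TT).im| ≤ 4 := by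
  have hπ := Real.pi_pos
  refine ⟨-round (y.im / (2 * Real.pi)), ?_⟩
  have h1 := abs_sub_round (y.im / (2 * Real.pi))
  have h2 : (y + (-round (y.im / (2 * Real.pi)) : ℤ) * TT).im =
      (y.im / (2 * Real.pi) - round (y.im / (2 * Real.pi))) * (2 * Real.pi) := by
    rw [im_add]
    push_cast
    field_simp
    ring
  rw [h2, abs_mul, abs_of_pos (by positivity : 0 < 2 * Real.pi)]
  nlinarith [Real.pi_le_four]

theorem ncard_le {A Q : Set ℂ} {l : ℤ} (hf : {k : ℤ | (sh k A ∩ Hb 8).Nonempty}.Finite)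
    (h : ∀ y ∈ Q, y + l * TT ∈ Hb 8) :
    {k : ℤ | (sh k A ∩ Q).Nonempty}.ncard ≤ {k : ℤ | (sh k A ∩ Hb 8).Nonempty}.ncard := by
  refine ncard_le_ncard_of_injOn (· + l) ?_ (fun _ _ _ _ h => add_right_cancel h) hf
  rintro k ⟨_, ⟨a, ha, rfl⟩, hy⟩
  refine ⟨_, ⟨a, ha, ?_⟩, h _ hy⟩
  push_cast
  ring

omit [CompactSpace Z] in
theorem link {n k : ℕ} {ε θ : ℝ} {d : ℕ → G} {w : ℕ → ℂ} {Lk : ℕ → Set ℂ}
    (h : IsLf D E R n ε k d w Lk) (hε : ε ≤ θ) {a : ℂ} (ha : a ∈ crv k w Lk) (h1 : θ ≤ a.re)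
    (h2 : a.re ≤ 1 - θ) : ∃ j ≤ k, dist (R.p a) (D.pt (d j)) < 4 * D.C * E.Λ * D.q ^ n := by
  rcases ha with (ha | ha) | ha
  · linarith [ha.2.2, (abs_lt.1 h.re0).2]
  · simp only [mem_iUnion] at ha
    obtain ⟨j, hj, ha⟩ := ha
    exact ⟨j, hj.le, h.nr j hj a ha⟩
  · linarith [ha.2.1, (abs_lt.1 h.re1).1]

end ACnt2

open ACnt2 in
theorem Seq.cnt2P (s : Seq D E R) (hC : CrvP D E R) (hW : WindP) (hE : s.ExtP) (hS : s.SmP)
    (hM : s.MloP) : s.Cnt2P := by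
  classical
  intro θ κ hθ hκ
  obtain ⟨C, hC0, hE⟩ := hE 8
  obtain ⟨c, hc, hM⟩ := hM
  obtain ⟨r', hr', hS⟩ := hS (((κ / C) ^ 2) ^ 2 * c) (by positivity)
  obtain ⟨e, he, hu⟩ := R.uc (r' / 2) (by positivity)
  refine ⟨min (e / 2) 1, by positivity, ?_⟩
  filter_upwards [hE, hM, hS, s.lf, s.ε_lim.eventually (ge_mem_nhds hθ),
    s.ε_lim.eventually (ge_mem_nhds (show (0 : ℝ) < 1 / 2 by norm_num)),
    D.ev_small (4 * D.C * E.Λ) (r' / 2) (by positivity)] with n h1 h2 h3 h4 h5 h6 h7 w0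
  rcases (strip θ (1 - θ) ∩ ball w0 (min (e / 2) 1)).eq_empty_or_nonempty with h0 | ⟨y0, hy0⟩
  · rw [h0]
    simp [Seq.cnt, hκ.le]
  obtain ⟨l, hl⟩ := exists_shift y0
  have hd : ∀ y ∈ strip θ (1 - θ) ∩ ball w0 (min (e / 2) 1), dist y y0 < e ∧ dist y y0 < 2 := by
    intro y hy
    have a1 := mem_ball.1 hy.2
    have a2 := mem_ball.1 hy0.2
    have a3 := dist_triangle_right y y0 w0
    constructor <;> linarith [min_le_left (e / 2) 1, min_le_right (e / 2) 1]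
  have hb : ∀ y ∈ strip θ (1 - θ) ∩ ball w0 (min (e / 2) 1), y + l * TT ∈ Hb 8 := by
    intro y hy
    have a1 := (hd y hy).2
    have a2 := Complex.abs_im_le_norm (y - y0)
    rw [← dist_eq_norm, Complex.sub_im] at a2
    rw [im_add] at hl
    show |(y + l * TT).im| ≤ 8
    rw [im_add, abs_le]
    constructor <;> linarith [abs_le.1 hl, abs_le.1 a2]
  set S := (s.P n).T.filter fun i =>
    i ∈ {i | ∃ j ≤ (s.P n).m i, dist (D.pt ((s.P n).c i j)) (R.p y0) < r'} with hSd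
  have hμ : ∀ i ∈ S, 0 ≤ (s.P n).μ i := fun i hi =>
    ((s.P n).μ_pos i (Finset.mem_filter.1 hi).1).le
  have hw : ∑ i ∈ S, (s.P n).μ i ≤ (κ / C) ^ 2 := by
    have a1 : (∑ i ∈ S, (s.P n).μ i) ^ 2 * (s.P n).M ≤ ((κ / C) ^ 2) ^ 2 * c := by
      refine le_of_eq_of_le ?_ (h3 (R.p y0))
      unfold wt
      refine congrArg (fun x => x ^ 2 * (s.P n).M) (Finset.sum_congr ?_ fun _ _ => rfl)
      ext i
      simp only [hSd, Finset.mem_filter]
    have a2 := (mul_le_mul_of_nonneg_left h2 (sq_nonneg (∑ i ∈ S, (s.P n).μ i))).trans a1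
    exact (abs_le_of_sq_le_sq' (le_of_mul_le_mul_right a2 hc) (by positivity)).2
  have h8 := h1 S (Finset.filter_subset _ _)
  have h9 : C * √(∑ i ∈ S, (s.P n).μ i) ≤ κ := by
    rw [mul_comm, ← le_div_iff₀ hC0]
    exact Real.sqrt_le_iff.2 ⟨by positivity, hw⟩
  refine le_trans ?_ (h8.trans h9)
  unfold Seq.cnt
  rw [← Finset.sum_subset (Finset.filter_subset _ _ : S ⊆ (s.P n).T)]
  · refine Finset.sum_le_sum fun i hi => mul_le_mul_of_nonneg_left (Nat.cast_le.2 ?_) (hμ i hi)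
    exact ncard_le (hW.fin _ _ _ _ (hC.crs _ _ _ _ _ _ h6 (h4 i (Finset.mem_filter.1 hi).1))) hb
  · intro i hi hni
    have : {k : ℤ | (sh k (s.A n i) ∩ (strip θ (1 - θ) ∩ ball w0 (min (e / 2) 1))).Nonempty} = ∅ := by
      refine eq_empty_of_forall_notMem ?_
      rintro k ⟨_, ⟨a, ha, rfl⟩, hy⟩
      have a1 := hy.1
      simp only [strip, mem_ofPred_eq, re_add] at a1
      obtain ⟨j, hj, a2⟩ := link (h4 i hi) h5 ha a1.1 a1.2
      have a3 := hu y0 ⟨by linarith [hy0.1.1], by linarith [hy0.1.2]⟩ _ (hd _ hy).1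
      simp only [R.per] at a3
      refine hni (Finset.mem_filter.2 ⟨hi, j, hj, ?_⟩)
      linarith [dist_triangle_left (D.pt ((s.P n).c i j)) (R.p y0) (R.p a)]
    rw [this, ncard_empty, Nat.cast_zero, mul_zero]

end Vale.Agent.P198
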