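import Vale.Agent.P198.A.Stm

/-! The coarea inequality: some level meets little weight. -/

open Set MeasureTheory

namespace Vale.Agent.P198

theorem coareaP (G : Type*) : CoareaP G := by
  intro T σ lo hi hσ hl
  have hi1 : ∀ g, Integrable ((Ico (lo g) (hi g)).indicator fun _ : ℝ => σ g) := fun g =>
    (integrable_indicator_iff measurableSet_Ico).2 (integrableOn_const measure_Ico_lt_top.ne)
  obtain ⟨t, ht, h⟩ := exists_le_setAverage (μ := (volume : Measure ℝ)) (s := Ioo 0 1)
    (f := fun t => ∑ g ∈ T, (Ico (lo g) (hi g)).indicator (fun _ : ℝ => σ g) t) (by simp) (by simp)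
    (integrable_finsetSum T fun g _ => hi1 g).integrableOn
  refine ⟨t, ht.1, ht.2, ?_⟩
  rw [setAverage_eq, integral_finsetSum _ fun g _ => (hi1 g).integrableOn] at h
  simp only [Real.volume_real_Ioo, sub_zero, zero_le_one, max_eq_left, inv_one, one_smul] at h
  rw [Finset.sum_filter]
  refine le_trans (le_of_eq (Finset.sum_congr rfl fun g _ => ?_))
    (h.trans (Finset.sum_le_sum fun g hg => ?_))
  · simp only [indicator, mem_Ico]
  · refine (setIntegral_le_integral (hi1 g) (Filter.Eventually.of_forall fun t =>
      indicator_nonneg (fun _ _ => hσ g hg) t)).trans_eq ?_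
    rw [integral_indicator_const _ measurableSet_Ico, Real.volume_real_Ico_of_le (hl g hg),
      smul_eq_mul, mul_comm]

end Vale.Agent.P198
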