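import Vale.Agent.P198.A.Stm

open Set Metric Topology Filter

namespace Vale.Agent.P198

variable {G Z : Type*} [Group G] [MetricSpace Z] [MulAction G Z] [CompactSpace Z] {D : Dyn G Z}
  {E : Geo Z} {R : Ring Z}

namespace ACore

theorem lift_eq {Z : Type*} [MetricSpace Z] (R : Ring Z) {w0 y y' : ℂ} (h : R.p y = R.p y')
    (h1 : y ∈ ball w0 1) (h2 : y' ∈ ball w0 1) : y' = y := by
  obtain ⟨k, hk⟩ := R.inj y y' h
  have h3 : dist y' y < 2 := by
    have := dist_triangle_right y' y w0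
    rw [mem_ball] at h1 h2
    linarith
  rw [hk, dist_eq_norm, add_sub_cancel_left, norm_mul, TT] at h3
  have h4 : ‖(2 * Real.pi * Complex.I : ℂ)‖ = 2 * Real.pi := by
    simp [abs_of_pos Real.pi_pos]
  rw [h4, Complex.norm_intCast] at h3
  have h5 : |(k : ℝ)| < 1 := by nlinarith [Real.pi_gt_three, abs_nonneg (k : ℝ)]
  have h6 : k = 0 := by
    rw [← Int.cast_abs] at h5
    have h7 : |k| < 1 := by exact_mod_cast h5
    exact Int.abs_lt_one_iff.1 h7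
  rw [hk, h6]
  simp

theorem ball_sub (l : PL) {w0 : ℂ} (h1 : 1 / 4 ≤ l.U w0) (h2 : l.U w0 ≤ 3 / 4) :
    ball w0 l.θ ⊆ l.Mid ∩ ball w0 1 := by
  intro y hy
  have h3 := l.re_mem (w := w0) (by linarith) (by linarith)
  have h4 : |y.re - w0.re| < l.θ := by
    rw [← Complex.sub_re]
    exact (Complex.abs_re_le_norm _).trans_lt (mem_ball_iff_norm.1 hy)
  have h5 := abs_lt.1 h4
  exact ⟨⟨by linarith, by linarith⟩, ball_subset_ball (by linarith [l.θ_lt]) hy⟩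

theorem mid_strip (l : PL) {y : ℂ} (h : y ∈ l.Mid) : y ∈ strip (-1) 2 :=
  ⟨by linarith [h.1, l.θ_pos], by linarith [h.2, l.θ_pos]⟩

theorem f_cont (l : PL) : ContinuousOn l.f l.Mid := by
  have e : l.f = fun w => (l.U w : ℂ) + (l.V w : ℂ) * Complex.I := by
    funext w
    exact Complex.mk_eq_add_mul_I _ _
  rw [e]
  exact (Complex.continuous_ofReal.comp l.U_cont).continuousOn.add
    ((Complex.continuous_ofReal.comp_continuousOn l.V_cont).mul continuousOn_const)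

theorem fin_ineq {N C0 Cd Ca X Y : ℝ} (hC : 0 < C0) (hd : 0 < Cd) (ha : 0 < Ca)
    (hN : 64 * C0 ^ 2 * Cd * Ca < N) (h1 : N / (4 * C0) ≤ X) (h2 : X ^ 2 ≤ Cd * Y)
    (h3 : Y ≤ 4 * Ca * N) : False := by
  have h0 : 0 < N := lt_trans (by positivity) hN
  have h4 : N ≤ X * (4 * C0) := (div_le_iff₀ (by positivity)).1 h1
  have h5 : N ^ 2 ≤ (X * (4 * C0)) ^ 2 := pow_le_pow_left₀ h0.le h4 2
  have h6 : X ^ 2 ≤ Cd * (4 * Ca * N) := h2.trans (mul_le_mul_of_nonneg_left h3 hd.le)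
  have h7 : X ^ 2 * (16 * C0 ^ 2) ≤ Cd * (4 * Ca * N) * (16 * C0 ^ 2) :=
    mul_le_mul_of_nonneg_right h6 (by positivity)
  nlinarith [mul_lt_mul_of_pos_right hN h0]

end ACore

open ACore in
theorem Seq.coreP (s : Seq D E R) {l : PL} (hP : l.PropP) (hD : DualP D) (hA : s.AreaP l)
    (hO : s.OscP l) (hS : ShellP G) : l.CoreP R := by
  classical
  obtain ⟨κ, hκ, hD⟩ := hD
  have hL : 0 ≤ 4 * D.C * E.Λ := by
    have := D.C_pos
    have := E.one_le_Λ
    positivity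
  obtain ⟨Cd, hCd, hD⟩ := hD _ hL
  obtain ⟨Ca, hCa, hA⟩ := hA
  obtain ⟨C0, hC0, hO⟩ := hO
  obtain ⟨N, hN⟩ := exists_nat_gt (64 * C0 ^ 2 * Cd * Ca)
  obtain ⟨δ, hδ, hsec⟩ := R.sec l.θ l.θ_pos
  refine ⟨κ, 2 ^ N, δ / 4, hκ, one_le_pow₀ one_le_two, by positivity, ?_⟩
  intro w0 p0 r t K1 K2 a1 a2 a3 a4 hr hrδ ht hH b1 b2 c1 c2 d1 d2
  have hb := ball_sub l a1 a2
  obtain ⟨sc, sc1, -, sc3⟩ := hsec w0 (mid_strip l (hb (mem_ball_self l.θ_pos)).1)
  obtain ⟨δu, hδu, huc⟩ := hP.uc (t / 8) (by positivity)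
  obtain ⟨δl, hδl, hlow⟩ := R.low δu hδu
  have pw : ∀ j < N, (2 : ℝ) ^ (j + 1) * t ≤ 2 ^ N * t := fun j hj =>
    mul_le_mul_of_nonneg_right (pow_le_pow_right₀ one_le_two hj) ht.le
  have hy : (hyperfilter ℕ : Filter ℕ) ≤ atTop := by
    rw [← Nat.cofinite_eq_atTop]; exact hyperfilter_le_cofinite
  have e1 := (Finset.range N).eventually_all.2 fun j hj => hA p0 (2 ^ (j + 1) * t) a3 a4
    (by positivity) (by linarith [pw j (Finset.mem_range.1 hj)])
  obtain ⟨n, n1, n2, n3, n4, n5⟩ := (e1.and ((hO (t / 4) (by positivity)).and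
    (((D.ev_small 2 r hr).and ((D.ev_small (4 * D.C * E.Λ) (δ / 4) (by positivity)).and
      (D.ev_small (4 * D.C * E.Λ) δl hδl))).filter_mono hy))).exists
  obtain ⟨σ, s0, s1, s2⟩ := hS (D.lev n) (s.P n).ρ (fun g => ‖l.f (sc (D.pt g)) - p0‖)
    (fun g => D.pt g ∈ ball (R.p w0) δ) t Ca C0 N (s.P n).ρ_nonneg ht hC0 (fun j hj => by
      refine le_trans (Finset.sum_le_sum_of_subset_of_nonneg (fun g hg => ?_)
        fun _ _ _ => sq_nonneg _) (n1 j (Finset.mem_range.2 hj))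
      rw [Finset.mem_filter] at hg ⊢
      exact ⟨hg.1, _, (sc3 _ hg.2.1).1, hg.2.2⟩)
  obtain ⟨W, _, ⟨y1, hy1, rfl⟩, _, ⟨y2, hy2, rfl⟩, hJ, hW, hsum⟩ :=
    hD n (R.p w0) r σ _ _ n3.le s0 c1 c2
  have hWδ : W ⊆ ball (R.p w0) δ := hW.trans (ball_subset_ball (by linarith))
  have hWt : sc '' W ⊆ ball w0 l.θ := by
    rintro _ ⟨x, hx, rfl⟩
    exact (sc3 x (hWδ hx)).2
  have hJ' := hJ.map_continuousOn (sc1.mono hWδ)
  have f1 := sc3 _ (hWδ hJ.source_mem)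
  have f2 := sc3 _ (hWδ hJ.target_mem)
  rw [lift_eq R f1.1.symm (b1 hy1) (hb f1.2).2, lift_eq R f2.1.symm (b2 hy2) (hb f2.2).2] at hJ'
  have hφ : ContinuousOn (fun w => ‖l.f w - p0‖) (sc '' W) :=
    (((f_cont l).mono fun y hy => (hb (hWt hy)).1).sub continuousOn_const).norm
  have key := s2 (D.near n (4 * D.C * E.Λ) W) (fun j => D.near n (4 * D.C * E.Λ) (R.p ''
    (sc '' W ∩ {w | 5 / 4 * (2 ^ j * t) ≤ ‖l.f w - p0‖ ∧ ‖l.f w - p0‖ ≤ 7 / 4 * (2 ^ j * t)})))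
    fun j hj => by
      have p1 : t ≤ 2 ^ j * t := le_mul_of_one_le_left ht.le (one_le_pow₀ one_le_two)
      have p2 := pw j hj
      rw [pow_succ] at p2 ⊢
      refine ⟨D.near_mono n le_rfl ?_, fun g hg => ?_, ?_⟩
      · rintro _ ⟨_, ⟨⟨x, hx, rfl⟩, -⟩, rfl⟩
        rw [(sc3 x (hWδ hx)).1]
        exact hx
      · obtain ⟨-, _, ⟨_, ⟨⟨x, hx, rfl⟩, q1, q2⟩, rfl⟩, q3⟩ := D.mem_near.1 hg
        have q4 := sc3 x (hWδ hx)
        have q5 : D.pt g ∈ ball (R.p w0) δ := by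
          have q6 := mem_ball.1 (hW hx)
          rw [q4.1] at q3
          have := dist_triangle_left (D.pt g) (R.p w0) x
          rw [mem_ball]
          linarith
        have q7 := sc3 _ q5
        have q8 := hlow (sc x) (mid_strip l (hb q4.2).1) (sc (D.pt g)) (by
          have := dist_triangle_right (sc (D.pt g)) (sc x) w0
          linarith [mem_ball.1 (hb q4.2).2, mem_ball.1 (hb q7.2).2])
          (by rw [q7.1, dist_comm]; linarith)
        have q9 := huc _ (hb q7.2).1 _ (hb q4.2).1 q8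
        have q11 := abs_norm_sub_norm_le (l.f (sc (D.pt g)) - p0) (l.f (sc x) - p0)
        rw [sub_sub_sub_cancel_right] at q11
        have q10 := abs_le.1 (q11.trans q9)
        exact ⟨q5, by linarith [q10.1], by linarith [q10.2]⟩
      · obtain ⟨x', y', g1, g2, g3⟩ := (pathP ℂ).band _ _ _ _ (5 / 4 * (2 ^ j * t))
          (7 / 4 * (2 ^ j * t)) hJ' hφ (by linarith [d1 y1 hy1]) (by linarith)
          (by linarith [d2 y2 hy2])
        have g4 := n2 _ w0 x' y' (fun y hy => hb (hWt hy.1)) g1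
        have g5 := norm_sub_norm_le (l.f y' - p0) (l.f x' - p0)
        rw [sub_sub_sub_cancel_right, norm_sub_rev (l.f y') (l.f x')] at g5
        linarith
  exact fin_ineq hC0 hCd hCa hN key hsum ((Finset.sum_le_sum_of_subset_of_nonneg
    (D.near_subset _ _ _) fun _ _ _ => sq_nonneg _).trans s1)

end Vale.Agent.P198
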