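import Vale.Agent.P198.A.Stm

/-! The curve of a lift. -/

open Set Metric Topology Filter

namespace Vale.Agent.P198

variable {G Z : Type*} [Group G] [MetricSpace Z] [MulAction G Z] [CompactSpace Z] {D : Dyn G Z}
  {E : Geo Z} {R : Ring Z}

namespace ACrv

theorem seg (a b c : ℝ) :
    {y : ℂ | y.im = c ∧ a ≤ y.re ∧ y.re ≤ b} = (fun t : ℝ => (t : ℂ) + c * Complex.I) '' Icc a b := by
  ext y
  constructor
  · rintro ⟨h1, h2⟩
    exact ⟨y.re, h2, by rw [← h1]; exact Complex.re_add_im y⟩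
  · rintro ⟨t, ht, rfl⟩
    simpa using ht

theorem seg_cpt (a b c : ℝ) : IsCompact {y : ℂ | y.im = c ∧ a ≤ y.re ∧ y.re ≤ b} := by
  rw [seg]
  exact isCompact_Icc.image (by fun_prop)

theorem seg_conn {a b : ℝ} (h : a ≤ b) (c : ℝ) :
    IsPathConnected {y : ℂ | y.im = c ∧ a ≤ y.re ∧ y.re ≤ b} := by
  rw [seg]
  exact ((convex_Icc a b).isPathConnected (nonempty_Icc.2 h)).image (by fun_prop)

omit [CompactSpace Z] in
theorem link {n k : ℕ} {ε : ℝ} {d : ℕ → G} {w : ℕ → ℂ} {Lk : ℕ → Set ℂ}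
    (h : IsLf D E R n ε k d w Lk) {a b : ℕ} (hab : a < b) (hb : b ≤ k) :
    IsPathConnected (⋃ j ∈ Ico a b, Lk j) := by
  induction b, hab using Nat.le_induction with
  | base =>
    rw [Nat.succ_eq_add_one, Ico_add_one_right_eq_Icc, Icc_self, biUnion_singleton]
    exact h.conn a hb
  | succ b hab ih =>
    have e : Ico a (b + 1) = insert b (Ico a b) := by
      ext j
      simp only [mem_Ico, mem_insert_iff]
      omega
    obtain ⟨b, rfl⟩ : ∃ c, b = c + 1 := ⟨b - 1, by omega⟩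
    rw [e, biUnion_insert]
    exact (h.conn _ hb).union (ih (by omega)) ⟨w (b + 1), h.ml _ hb,
      mem_biUnion (x := b) ⟨by omega, by omega⟩ (h.mr b (by omega))⟩

end ACrv

theorem crvP (D : Dyn G Z) (E : Geo Z) (R : Ring Z) : CrvP D E R := by
  refine ⟨fun n ε k d w Lk hε h => ?_, fun n ε k d w Lk h a b hab hb => ACrv.link h hab hb,
    fun n ε k d w Lk l h => ?_⟩
  · have h0 := h.rem 0 (Nat.zero_le _)
    have hk := h.rem k le_rfl
    have hL : IsPathConnected (⋃ j < k, Lk j) := by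
      simpa using ACrv.link h h.pos le_rfl
    obtain ⟨k', hk'⟩ : ∃ c, k = c + 1 := ⟨k - 1, by have := h.pos; omega⟩
    refine ⟨((ACrv.seg_cpt _ _ _).union ((finite_lt_nat k).isCompact_biUnion h.cpt)).union
      (ACrv.seg_cpt _ _ _), (((ACrv.seg_conn (by linarith) _).union hL ⟨w 0,
        ⟨rfl, by linarith, le_rfl⟩, mem_biUnion (x := 0) h.pos (h.ml 0 h.pos)⟩).union
        (ACrv.seg_conn (by linarith) _) ⟨w k, Or.inr (mem_biUnion (x := k') (show k' < k by omega)
          (hk' ▸ h.mr k' (by omega))), rfl, le_rfl, by linarith⟩), ?_,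
      ⟨⟨-1, (w 0).im⟩, Or.inl (Or.inl ⟨rfl, le_rfl, by simp only; linarith⟩), rfl⟩,
      ⟨⟨2, (w k).im⟩, Or.inr ⟨rfl, by simp only; linarith, le_rfl⟩, rfl⟩⟩
    rintro y ((⟨-, h1, h2⟩ | hy) | ⟨-, h1, h2⟩)
    · exact ⟨h1, by linarith⟩
    · obtain ⟨j, hj, hy⟩ := mem_iUnion₂.1 hy
      have h1 := (Complex.abs_re_le_norm (y - w j)).trans_lt (mem_ball_iff_norm.1 (h.sm j hj hy))
      have h2 := h.rem j hj.le
      rw [Complex.sub_re, abs_lt] at h1
      exact ⟨by linarith, by linarith⟩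
    · exact ⟨by linarith, h2⟩
  · have hre : ∀ z : ℂ, (z + l * TT).re = z.re := fun z => by simp [TT]
    have hc : Continuous fun z : ℂ => z + l * TT := by fun_prop
    refine ⟨h.pos, fun j hj => (R.per _ _).trans (h.pw j hj), fun j hj => (h.cpt j hj).image hc,
      fun j hj => (h.conn j hj).image hc, fun j hj => ⟨_, h.ml j hj, rfl⟩,
      fun j hj => ⟨_, h.mr j hj, rfl⟩, ?_, ?_, by rw [hre]; exact h.re0, by rw [hre]; exact h.re1,
      fun j hj => by rw [hre]; exact h.rem j hj⟩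
    · rintro j hj _ ⟨y, hy, rfl⟩
      simpa using h.sm j hj hy
    · rintro j hj _ ⟨y, hy, rfl⟩
      rw [R.per]
      exact h.nr j hj y hy

end Vale.Agent.P198
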