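import Vale.Agent.P198.A.Stm

/-! Good curves are dense along the level band. -/

open Set Metric Topology Filter

namespace Vale.Agent.P198

namespace ADens

theorem wt_le {ι : Type*} {S : Finset ι} {μ : ι → ℝ} (hμ : ∀ j ∈ S, 0 ≤ μ j) {E E1 E2 : Set ι}
    (h : ∀ j ∈ S, j ∈ E → j ∈ E1 ∨ j ∈ E2) : wt S μ E ≤ wt S μ E1 + wt S μ E2 := by
  classical
  unfold wt
  simp only [Finset.sum_filter]
  rw [← Finset.sum_add_distrib]
  refine Finset.sum_le_sum fun j hj => ?_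
  have h0 := hμ j hj
  by_cases e : j ∈ E
  · rw [if_pos e]
    rcases h j hj e with h1 | h1
    · rw [if_pos h1]
      split_ifs <;> linarith
    · rw [if_pos h1]
      split_ifs <;> linarith
  · rw [if_neg e]
    split_ifs <;> linarith

theorem hb_convex (H : ℝ) : Convex ℝ (Hb H) := by
  have : Hb H = {w : ℂ | -H ≤ w.im} ∩ {w : ℂ | w.im ≤ H} := by
    ext w
    exact abs_le (a := w.im)
  rw [this]
  exact (convex_halfSpace_im_ge _).inter (convex_halfSpace_im_le _)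

theorem meet {a b : ℝ} {A P : Set ℂ} {x y : ℂ} (hP : P ⊆ strip a b) (h : JoinedIn P x y)
    (hy : y ∈ Up a b A) (hx : x ∉ Up a b A) : (A ∩ P).Nonempty := by
  by_contra hne
  exact hx (up_join (h.mono fun w hw => ⟨hP hw, fun hA => hne ⟨w, hA, hw⟩⟩) hy)

end ADens

open ADens in
theorem PL.densP (l : PL) (h : l.KeyP) : l.DensP := by
  intro S μ A t lam H H' β Λ hs hl q1 hq1 q2 hq2 hj hV
  have hmid : Λ ⊆ l.Mid := fun w hw => by
    have h1 := abs_le.1 (show |l.U w - t| ≤ lam from hl.sub hw)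
    have := hl.t1
    have := hl.t2
    have := hl.le
    exact l.mem_mid (by linarith [h1.1]) (by linarith [h1.2])
  have hstr : Λ ⊆ strip (-1) 2 := fun w hw => by
    obtain ⟨h1, h2⟩ := hmid hw
    have := l.θ_pos
    constructor <;> linarith
  have m1 := hj.source_mem
  have m2 := hj.target_mem
  have hseg : JoinedIn (strip (-1) 2 ∩ Hb H) q1 q2 :=
    (((strip_convex _ _).inter (hb_convex H)).isPathConnected ⟨q1, hstr m1.1, hq1⟩).joinedIn
      q1 ⟨hstr m1.1, hq1⟩ q2 ⟨hstr m2.1, hq2⟩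
  have hex : ∃ j ∈ S, q2 ∈ Up (-1) 2 (A j) ∧ q1 ∉ Up (-1) 2 (A j) ∧ l.Gd S μ A t lam β j := by
    by_contra hno
    have h1 := wt_le hs.nonneg (E := {j | q2 ∈ Up (-1) 2 (A j)}) (E1 := {j | q1 ∈ Up (-1) 2 (A j)})
      (E2 := {j | (A j ∩ Hb H).Nonempty ∧ ¬ l.Gd S μ A t lam β j}) fun j hjS hu => by
        by_cases e : q1 ∈ Up (-1) 2 (A j)
        · exact Or.inl e
        · obtain ⟨w, hA, hw⟩ := meet inter_subset_left hseg hu e
          exact Or.inr ⟨⟨w, hA, hw.2⟩, fun hg => hno ⟨j, hjS, hu, e, hg⟩⟩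
    have h2 := (abs_le.1 (hs.hV q2 ⟨hmid m2.1, m2.2⟩ q1 ⟨hmid m1.1, m1.2⟩)).2
    have h3 := hs.bad
    linarith
  obtain ⟨j, hjS, hu, hn, hg⟩ := hex
  obtain ⟨z, hA, hz⟩ := meet (inter_subset_left.trans hstr) hj hu hn
  have k := h S μ A t lam H H' β Λ hs hl j hjS hg z ⟨⟨hA, hl.sub hz.1⟩, hz.2⟩
  have k1 := (k q1 m1).2 hn
  have k2 := (k q2 m2).1 hu
  exact ⟨j, hjS, hg, z, ⟨⟨hA, hz.1⟩, hz.2⟩, by linarith, by linarith⟩

end Vale.Agent.P198
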