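import Vale.Agent.P198.A.Stm

/-! Duality: two sets crossing an annulus are joined in it by a short path. -/

open Set Metric Topology Filter

namespace Vale.Agent.P198

variable {G Z : Type*} [Group G] [MetricSpace Z] [MulAction G Z] [CompactSpace Z] {D : Dyn G Z}
  {E : Geo Z} {R : Ring Z}

namespace ADual

omit [CompactSpace Z] in
theorem ln_union (n : ℕ) {τ : G → ℝ} (hτ : ∀ g, 0 ≤ τ g) (P Q : Set Z) :
    D.ln n τ (P ∪ Q) ≤ D.ln n τ P + D.ln n τ Q := by
  classical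
  have h1 : D.hit n (P ∪ Q) ⊆ D.hit n P ∪ D.hit n Q := by
    intro g hg
    obtain ⟨a1, x, hx, a2⟩ := D.mem_hit.1 hg
    rcases hx with hx | hx
    · exact Finset.mem_union_left _ (D.mem_hit.2 ⟨a1, x, hx, a2⟩)
    · exact Finset.mem_union_right _ (D.mem_hit.2 ⟨a1, x, hx, a2⟩)
  refine (Finset.sum_le_sum_of_subset_of_nonneg h1 fun g _ _ => hτ g).trans ?_
  have h2 := Finset.sum_union_inter (s₁ := D.hit n P) (s₂ := D.hit n Q) (f := τ)
  have h3 : 0 ≤ ∑ g ∈ D.hit n P ∩ D.hit n Q, τ g := Finset.sum_nonneg fun g _ => hτ g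
  unfold Dyn.ln
  linarith

omit [CompactSpace Z] in
/-- The distance from the inner ball. -/
theorem exists_X (E : Geo Z) (n : ℕ) {τ : G → ℝ} (hτ : ∀ g, 0 ≤ τ g) (z : Z) {s : ℝ}
    (hs : 0 < s) (h : ∀ A x y, JoinedIn A x y → dist x z ≤ s → 2 * s ≤ dist y z → 1 ≤ D.ln n τ A) :
    ∃ X : Z → ℝ, (∀ y, 0 ≤ X y) ∧ (∀ y, dist y z ≤ s → X y ≤ 0) ∧
      (∀ y, 2 * s ≤ dist y z → 1 ≤ X y) ∧
      ∀ P y y', JoinedIn P y y' → X y' ≤ X y + D.ln n τ P := by
  set S : Z → Set ℝ := fun y => {r | (dist y z ≤ s ∧ r = 0) ∨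
    ∃ P x, dist x z ≤ s ∧ JoinedIn P x y ∧ r = D.ln n τ P} with hS
  have h0 : ∀ y, ∀ r ∈ S y, 0 ≤ r := by
    rintro y r (⟨-, rfl⟩ | ⟨P, x, -, -, rfl⟩)
    · exact le_rfl
    · exact Finset.sum_nonneg fun g _ => hτ g
  have hb : ∀ y, BddBelow (S y) := fun y => ⟨0, h0 y⟩
  have hne : ∀ y, (S y).Nonempty := fun y =>
    ⟨_, Or.inr ⟨_, z, by simpa using hs.le, E.llc z y, rfl⟩⟩
  refine ⟨fun y => sInf (S y), fun y => le_csInf (hne y) (h0 y),
    fun y hy => csInf_le (hb y) (Or.inl ⟨hy, rfl⟩), fun y hy => le_csInf (hne y) ?_,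
    fun P y y' hP => ?_⟩
  · rintro r (⟨h1, -⟩ | ⟨P, x, h1, h2, rfl⟩)
    · linarith
    · exact h P x y h2 h1 hy
  · rw [← sub_le_iff_le_add]
    refine le_csInf (hne y) ?_
    rintro r (⟨h1, rfl⟩ | ⟨Q, x, h1, h2, rfl⟩)
    · rw [sub_nonpos]
      exact csInf_le (hb y') (Or.inr ⟨P, y, h1, hP, rfl⟩)
    · rw [sub_le_iff_le_add]
      refine le_trans (csInf_le (hb y') (Or.inr ⟨Q ∪ P, x, h1,
        (h2.mono subset_union_left).trans (hP.mono subset_union_right), rfl⟩)) ?_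
      exact ln_union n hτ Q P

omit [CompactSpace Z] in
theorem not_joined {X : Z → ℝ} {t : ℝ} {a b : Z} (ha : X a ≤ t) (hb : t < X b) :
    ¬ JoinedIn (closure {y | X y ≤ t} ∩ closure {y | t < X y})ᶜ a b := by
  rintro ⟨γ, hγ⟩
  have hc : IsPreconnected (range γ) := isPreconnected_range γ.continuous
  obtain ⟨_, ⟨u, rfl⟩, hu⟩ := isPreconnected_closed_iff.1 hc (closure {y | X y ≤ t})
    (closure {y | t < X y}) isClosed_closure isClosed_closure
    (fun y _ => (le_or_gt (X y) t).imp (fun h => subset_closure h) fun h => subset_closure h)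
    ⟨a, ⟨0, γ.source⟩, subset_closure ha⟩ ⟨b, ⟨1, γ.target⟩, subset_closure hb⟩
  exact hγ u hu

end ADual

open ADual

theorem dualP (D : Dyn G Z) (E : Geo Z) (hT : D.Tst) (hS : SprP D) (hC : CoareaP G) :
    DualP D := by
  classical
  have hΛ := E.one_le_Λ
  obtain ⟨B, hB, hT⟩ := hT
  refine ⟨3 * E.Λ + 3, by linarith, fun L hL => ?_⟩
  obtain ⟨N, hN, hS⟩ := hS ((2 * E.Λ + 1) * (L + 2))
  refine ⟨N * B, mul_pos hN hB, fun n z s σ K1 K2 hs hσ hK1 hK2 => ?_⟩
  have hq := D.qpow_pos n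
  have hs0 : 0 < s := by linarith
  obtain ⟨τ, hτ, -, hm, hadm⟩ := hT n z s (by linarith)
  obtain ⟨sig, hsig, hms, hsp⟩ := hS n τ hτ
  obtain ⟨X, X0, X1, X2, X3⟩ := exists_X E n hτ z hs0 hadm
  have hr : 0 < (L + 2) * D.q ^ n := by positivity
  have osc : ∀ g, ∀ y ∈ ball (D.pt g) ((L + 2) * D.q ^ n),
      ∀ y' ∈ ball (D.pt g) ((L + 2) * D.q ^ n), X y' ≤ X y + sig g := by
    intro g y hy y' hy'
    refine (X3 _ y y' (E.llc y y')).trans (add_le_add_right ?_ _)
    have h1 := hsp (closedBall y (E.Λ * dist y y')) {0} (fun _ => g) ?_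
    · simpa using h1
    · intro w hw
      refine ⟨0, Finset.mem_singleton_self _, ?_⟩
      rw [mem_ball] at hy hy'
      rw [mem_closedBall] at hw
      have a1 := dist_triangle w y (D.pt g)
      have a2 := dist_triangle_right y y' (D.pt g)
      have a3 : E.Λ * dist y y' ≤ E.Λ * (2 * ((L + 2) * D.q ^ n)) :=
        mul_le_mul_of_nonneg_left (by linarith) (by linarith)
      show dist w (D.pt g) < _
      linarith
  set lo : G → ℝ := fun g => sInf (X '' ball (D.pt g) ((L + 2) * D.q ^ n)) with hlo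
  have lo1 : ∀ g, ∀ y ∈ ball (D.pt g) ((L + 2) * D.q ^ n), lo g ≤ X y := fun g y hy =>
    csInf_le ⟨0, by rintro _ ⟨w, -, rfl⟩; exact X0 w⟩ ⟨y, hy, rfl⟩
  have lo2 : ∀ g, ∀ y ∈ ball (D.pt g) ((L + 2) * D.q ^ n), X y ≤ lo g + sig g := by
    intro g y hy
    rw [← sub_le_iff_le_add]
    refine le_csInf ⟨_, D.pt g, mem_ball_self hr, rfl⟩ ?_
    rintro _ ⟨w, hw, rfl⟩
    rw [sub_le_iff_le_add]
    exact osc g w hw y hy
  obtain ⟨t, t0, t1, hco⟩ := hC (D.near n (L + 1) (ann z s)) σ lo (fun g => lo g + sig g)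
    (fun g _ => hσ g) fun g _ => by linarith [hsig g]
  set F : Set Z := closure {y | X y ≤ t} ∩ closure {y | t < X y} with hF
  have Fc : IsCompact F := (isClosed_closure.inter isClosed_closure).isCompact
  have Fa : F ⊆ ann z s := by
    intro y hy
    constructor
    · refine closure_minimal (t := {y | s ≤ dist y z}) (fun w hw => ?_)
        (isClosed_le continuous_const (by fun_prop)) hy.2
      by_contra hc
      have h1 := X1 w (not_le.1 hc).le
      have h2 : t < X w := hw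
      linarith
    · refine closure_minimal (t := {y | dist y z ≤ 2 * s}) (fun w hw => ?_)
        (isClosed_le (by fun_prop) continuous_const) hy.1
      by_contra hc
      have h1 := X2 w (not_le.1 hc).le
      have h2 : X w ≤ t := hw
      linarith
  have inn : ∀ a, (3 * E.Λ + 3) * dist a z ≤ s → E.Λ * dist z a < s ∧ dist a z < s := by
    intro a ha
    have h1 : 0 ≤ dist a z := dist_nonneg
    have h2 : 0 ≤ E.Λ * dist a z := by positivity
    rw [dist_comm z a]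
    constructor <;> nlinarith
  have out : ∀ b, (3 * E.Λ + 3) * s ≤ dist b z → E.Λ * (3 * s) ≤ dist b z ∧ 2 * s < dist b z := by
    intro b hb
    have h2 : 0 ≤ E.Λ * s := by positivity
    constructor <;> nlinarith
  obtain ⟨a, b, hab, ha, hb⟩ := hK1
  obtain ⟨a', b', hab', ha', hb'⟩ := hK2
  obtain ⟨W, hW, -, Wc, -, Wsep⟩ := sepZ D F (thickening (D.q ^ n) F) a b Fc isOpen_thickening
    (self_subset_thickening hq F) (fun h => absurd (Fa h).1 (not_le.2 (inn a ha).2))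
    (fun h => absurd (Fa h).2 (not_le.2 (out b hb).2))
    (not_joined ((X1 a (inn a ha).2.le).trans t0.le) (t1.trans_le (X2 b (out b hb).2.le)))
  have j1 : ∀ a, (3 * E.Λ + 3) * dist a z ≤ s → JoinedIn (F ∩ W)ᶜ z a := by
    intro a ha
    refine (E.llc z a).mono fun y hy hyF => ?_
    have h1 := (Fa hyF.1).1
    have h2 := (inn a ha).1
    rw [mem_closedBall] at hy
    linarith
  have j2 : JoinedIn (F ∩ W)ᶜ b' b := by
    refine (E.llc2 z b' b (3 * s) (by linarith) (out b' hb').1 (out b hb).1).mono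
      fun y hy hyF => hy ?_
    have h1 := (Fa hyF.1).2
    rw [mem_ball]
    linarith
  obtain ⟨x1, hx1, hx1'⟩ : ∃ x ∈ K1, x ∈ F ∩ W := by
    by_contra hc
    exact Wsep (hab.mono fun y hy hyF => hc ⟨y, hy, hyF⟩)
  obtain ⟨x2, hx2, hx2'⟩ : ∃ x ∈ K2, x ∈ F ∩ W := by
    by_contra hc
    exact Wsep ((((j1 a ha).symm.trans (j1 a' ha')).trans
      (hab'.mono fun y hy hyF => hc ⟨y, hy, hyF⟩)).trans j2)
  refine ⟨W, x1, hx1, x2, hx2, Wc.joinedIn x1 hx1'.2 x2 hx2'.2, fun y hy => ?_, ?_⟩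
  · obtain ⟨f, hf, hyf⟩ := mem_thickening_iff.1 (hW hy)
    have h1 := (Fa hf).2
    have h2 := dist_triangle y f z
    rw [mem_ball]
    linarith
  · have sub : D.near n L W ⊆ (D.near n (L + 1) (ann z s)).filter
        fun g => lo g ≤ t ∧ t < lo g + sig g := by
      intro g hg
      obtain ⟨g1, x, hx, g2⟩ := D.mem_near.1 hg
      obtain ⟨f, hf, hxf⟩ := mem_thickening_iff.1 (hW hx)
      have h2 := dist_triangle_left f (D.pt g) x
      have h3 : dist f (D.pt g) < (L + 1) * D.q ^ n := by linarith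
      have h4 : f ∈ ball (D.pt g) ((L + 2) * D.q ^ n) := by
        rw [mem_ball]
        linarith
      obtain ⟨y, hy1, hy2⟩ := mem_closure_iff.1 hf.1 _ isOpen_ball h4
      obtain ⟨y', hy1', hy2'⟩ := mem_closure_iff.1 hf.2 _ isOpen_ball h4
      exact Finset.mem_filter.2 ⟨D.mem_near.2 ⟨g1, f, Fa hf, h3⟩, (lo1 g y hy1).trans hy2,
        lt_of_lt_of_le hy2' (lo2 g y' hy1')⟩
    have b1 : ∑ g ∈ D.near n L W, σ g ≤ ∑ g ∈ D.near n (L + 1) (ann z s), σ g * sig g := by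
      refine (Finset.sum_le_sum_of_subset_of_nonneg sub fun g _ _ => hσ g).trans ?_
      refine le_trans (le_of_eq ?_) (hco.trans (le_of_eq ?_))
      · congr
      · exact Finset.sum_congr rfl fun g _ => by ring
    have b2 := Finset.sum_mul_sq_le_sq_mul_sq (D.near n (L + 1) (ann z s)) σ sig
    have b3 : ∑ g ∈ D.near n (L + 1) (ann z s), sig g ^ 2 ≤ N * B :=
      (Finset.sum_le_sum_of_subset_of_nonneg (D.near_subset _ _ _) fun g _ _ => sq_nonneg _).trans
        (hms.trans (mul_le_mul_of_nonneg_left hm hN.le))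
    have b4 : 0 ≤ ∑ g ∈ D.near n (L + 1) (ann z s), σ g ^ 2 :=
      Finset.sum_nonneg fun g _ => sq_nonneg _
    refine (pow_le_pow_left₀ (Finset.sum_nonneg fun g _ => hσ g) b1 2).trans (b2.trans ?_)
    rw [mul_comm]
    exact mul_le_mul_of_nonneg_right b3 b4

end Vale.Agent.P198
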