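import Vale.Agent.P198.A.Stm

/-! Part II-a: vertical extent of the curves. -/

open Set Metric Topology Filter

namespace Vale.Agent.P198

variable {G Z : Type*} [Group G] [MetricSpace Z] [MulAction G Z] [CompactSpace Z] {D : Dyn G Z}
  {E : Geo Z} {R : Ring Z}

namespace AExt

variable {n k : ℕ} {ε δ : ℝ} {d : ℕ → G} {w : ℕ → ℂ} {Lk : ℕ → Set ℂ}

omit [CompactSpace Z] in
theorem same_im (h : IsLf D E R n ε k d w Lk) {y : ℂ} (hy : y ∈ crv k w Lk) :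
    ∃ y1 ∈ ⋃ j ∈ Ico 0 k, Lk j, y1.im = y.im := by
  have hk := h.pos
  rcases hy with (hy | hy) | hy
  · exact ⟨w 0, mem_biUnion (show 0 ∈ Ico 0 k from ⟨le_rfl, hk⟩) (h.ml 0 hk), hy.1.symm⟩
  · obtain ⟨j, hj, hy⟩ := mem_iUnion₂.1 hy
    exact ⟨y, mem_biUnion (show j ∈ Ico 0 k from ⟨Nat.zero_le j, hj⟩) hy, rfl⟩
  · have h1 := h.mr (k - 1) (by omega)
    rw [Nat.sub_add_cancel hk] at h1
    exact ⟨w k, mem_biUnion (show k - 1 ∈ Ico 0 k from ⟨Nat.zero_le _, by omega⟩) h1, hy.1.symm⟩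

theorem im_le (z z' : ℂ) : z.im - z'.im ≤ dist z z' := by
  rw [dist_eq_norm, ← Complex.sub_im]
  exact (le_abs_self _).trans (Complex.abs_im_le_norm _)

omit [CompactSpace Z] in
theorem big {U : Set ℂ} (hU : U ⊆ strip (-1) 2)
    (hδ : ∀ w ∈ strip (-1) 2, ∀ w' : ℂ, dist w' w ≤ 3 → dist (R.p w') (R.p w) < δ → dist w' w < 1)
    {x y : ℂ} (hxy : JoinedIn U x y) {a : ℝ} (h1 : x.im ≤ a) (h2 : a + 1 ≤ y.im) :
    R.p '' (U ∩ {z | a ≤ z.im ∧ z.im ≤ a + 1}) ∈ Big Z δ := by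
  obtain ⟨x1, y1, j1, e1, e2⟩ := (pathP ℂ).band U Complex.im x y a (a + 1) hxy
    Complex.continuous_im.continuousOn h1 (by linarith) h2
  have h3 := im_le y1 x1
  obtain ⟨x2, y2, j2, e3, e4⟩ := (pathP ℂ).band _ (fun z => dist z x1) x1 y1 0 1 j1
    (continuous_id.dist continuous_const).continuousOn (dist_self x1).le zero_le_one (by linarith)
  have e5 : x2 = x1 := dist_eq_zero.1 e3
  have e6 : dist y2 x1 = 1 := e4
  rw [e5] at j2
  refine ⟨R.p y2, R.p x1, ((j2.mono inter_subset_left).symm).map R.cont, not_lt.1 fun h => ?_⟩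
  have := hδ x1 (hU j1.source_mem.1) y2 (by linarith) h
  linarith

omit [CompactSpace Z] in
theorem ext (hC : CrvP D E R) (h : IsLf D E R n ε k d w Lk) (hε : ε ≤ 1 / 2)
    (hδ : ∀ w ∈ strip (-1) 2, ∀ w' : ℂ, dist w' w ≤ 3 → dist (R.p w') (R.p w) < δ → dist w' w < 1)
    {τ σ : G → ℝ} (hτ : ∀ A ∈ Big Z δ, 1 ≤ D.ln n τ A) (hσ0 : ∀ g, 0 ≤ σ g)
    (hσ : ∀ (P : Set Z) (J : Finset ℕ) (d : ℕ → G),
      (∀ y ∈ P, ∃ j ∈ J, dist y (D.pt (d j)) < 4 * D.C * E.Λ * D.q ^ n) →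
        D.ln n τ P ≤ ∑ j ∈ J, σ (d j)) :
    ∀ y ∈ crv k w Lk, ∀ y' ∈ crv k w Lk,
      y.im - y'.im ≤ 3 * ∑ j ∈ Finset.range (k + 1), σ (d j) + 3 := by
  classical
  intro y hy y' hy'
  have hx : 0 ≤ ∑ j ∈ Finset.range (k + 1), σ (d j) := Finset.sum_nonneg fun j _ => hσ0 _
  rcases lt_or_ge (y.im - y'.im) 0 with h0 | h0
  · linarith
  obtain ⟨y1, a1, a2⟩ := same_im h hy
  obtain ⟨x1, b1, b2⟩ := same_im h hy'
  have hU : (⋃ j ∈ Ico 0 k, Lk j) ⊆ strip (-1) 2 := by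
    refine subset_trans ?_ (hC.crs n ε k d w Lk hε h).sub
    intro z hz
    obtain ⟨j, hj, hz⟩ := mem_iUnion₂.1 hz
    exact Or.inl (Or.inr (mem_iUnion₂.2 ⟨j, hj.2, hz⟩))
  have hj := (hC.link n ε k d w Lk h 0 k h.pos le_rfl).joinedIn x1 b1 y1 a1
  obtain ⟨J, hJ⟩ : ∃ J : ℕ → Finset ℕ, ∀ r j, j ∈ J r ↔ j < k ∧
      ∃ z ∈ Lk j, y'.im + 3 * r ≤ z.im ∧ z.im ≤ y'.im + 3 * r + 1 :=
    ⟨fun r => (Finset.range k).filter fun j =>
      ∃ z ∈ Lk j, y'.im + 3 * r ≤ z.im ∧ z.im ≤ y'.im + 3 * r + 1, fun r j => by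
        rw [Finset.mem_filter, Finset.mem_range]⟩
  have c1 := Nat.floor_le (show 0 ≤ (y.im - y'.im) / 3 by linarith)
  have c2 := Nat.lt_floor_add_one ((y.im - y'.im) / 3)
  generalize ⌊(y.im - y'.im) / 3⌋₊ = N at c1 c2
  have c3 : ∀ r ∈ Finset.range N, (1 : ℝ) ≤ ∑ j ∈ J r, σ (d j) := fun r hr => by
    have c4 : (r : ℝ) + 1 ≤ N := by exact_mod_cast Finset.mem_range.1 hr
    have c5 : (0 : ℝ) ≤ r := Nat.cast_nonneg r
    refine (hτ _ (big hU hδ hj (a := y'.im + 3 * r) (by linarith) (by linarith))).trans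
      (hσ _ _ _ ?_)
    rintro _ ⟨z, ⟨hz, hz'⟩, rfl⟩
    obtain ⟨j, hj, hz⟩ := mem_iUnion₂.1 hz
    exact ⟨j, (hJ r j).2 ⟨hj.2, z, hz, hz'⟩, h.nr j hj.2 z hz⟩
  have c6 : ∀ r r' : ℕ, r < r' → Disjoint (J r) (J r') := fun r r' hr => by
    refine Finset.disjoint_left.2 fun j h1 h2 => ?_
    obtain ⟨hj, z, hz, -, e1⟩ := (hJ r j).1 h1
    obtain ⟨-, z', hz', e2, -⟩ := (hJ r' j).1 h2
    have e3 : (r : ℝ) + 1 ≤ r' := by exact_mod_cast hr
    have e4 := im_le z' z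
    have e5 := dist_triangle_right z' z (w j)
    have e6 : dist z (w j) < ε := h.sm j hj hz
    have e7 : dist z' (w j) < ε := h.sm j hj hz'
    linarith
  have c7 := Finset.sum_le_sum c3
  rw [← Finset.sum_biUnion (fun r _ r' _ hne => (lt_or_gt_of_ne hne).elim (c6 r r')
    fun h => (c6 r' r h).symm), Finset.sum_const, Finset.card_range, nsmul_eq_mul, mul_one] at c7
  have c8 : ∑ j ∈ (Finset.range N).biUnion J, σ (d j) ≤ ∑ j ∈ Finset.range (k + 1), σ (d j) := by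
    refine Finset.sum_le_sum_of_subset_of_nonneg (fun j hj => ?_) fun j _ _ => hσ0 _
    obtain ⟨r, -, hr⟩ := Finset.mem_biUnion.1 hj
    exact Finset.mem_range.2 (Nat.lt_succ_of_lt ((hJ r j).1 hr).1)
  linarith

omit [CompactSpace Z] in
theorem cs (hCS : CSP D) {E0 E1 : Set Z} (F : Flow D n E0 E1) {σ : G → ℝ} (hσ : ∀ g, 0 ≤ σ g)
    {S : Finset ℕ} (hS : S ⊆ F.T) :
    (∑ i ∈ S, F.μ i * ∑ j ∈ Finset.range (F.m i + 1), σ (F.c i j)) ^ 2 * F.M ≤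
      D.mass n σ * ∑ i ∈ S, F.μ i := by
  have h := hCS n E0 E1 F σ S (fun _ => True) hσ hS
  simp only [Finset.filter_true] at h
  refine h.trans (le_of_eq ?_)
  congr 1
  exact Finset.sum_congr rfl fun i hi => by rw [F.tot i (hS hi), mul_one]

end AExt

theorem Seq.extP (s : Seq D E R) (hC : CrvP D E R) (hW : WindP) (hCS : CSP D) (hS : SprP D)
    (hB : BigP D) (hM : s.MloP) : s.ExtP := by
  intro H
  rcases lt_or_ge H 0 with hH | hH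
  · refine ⟨1, one_pos, Eventually.of_forall fun n S _ => le_trans (le_of_eq ?_) (by positivity)⟩
    refine Finset.sum_eq_zero fun i _ => ?_
    have e : {k : ℤ | (sh k (s.A n i) ∩ Hb H).Nonempty} = ∅ := by
      refine eq_empty_of_forall_notMem ?_
      rintro k ⟨z, -, hz⟩
      have h1 : |z.im| ≤ H := hz
      linarith [abs_nonneg z.im]
    rw [e, ncard_empty, Nat.cast_zero, mul_zero]
  obtain ⟨δ, hδ0, hδ⟩ := R.low 1 one_pos
  obtain ⟨B, hB0, hB⟩ := hB δ hδ0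
  obtain ⟨N, hN0, hN⟩ := hS (4 * D.C * E.Λ)
  obtain ⟨c, hc0, hc⟩ := hM
  have hε : ∀ᶠ n in atTop, s.ε n < 1 / 2 := s.ε_lim.eventually (gt_mem_nhds (by norm_num))
  refine ⟨H + 4 + 3 * √(N * B / c), by positivity, ?_⟩
  filter_upwards [hB, hc, hε, s.lf] with n ⟨τ, t1, t2, t3⟩ h1 h2 h3 S hST
  obtain ⟨σ, s1, s2, s3⟩ := hN n τ t1
  have hμ : ∀ i ∈ S, 0 ≤ (s.P n).μ i := fun i hi => ((s.P n).μ_pos i (hST hi)).le
  have a1 : ∀ i ∈ S, (s.P n).μ i * ({k : ℤ | (sh k (s.A n i) ∩ Hb H).Nonempty}.ncard : ℝ) ≤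
      (H + 4) * (s.P n).μ i +
        3 * ((s.P n).μ i * ∑ j ∈ Finset.range ((s.P n).m i + 1), σ ((s.P n).c i j)) := by
    intro i hi
    have a2 := hW.num H _ (s.A n i) hH (AExt.ext hC (h3 i (hST hi)) h2.le hδ t3 s1 s3)
    have a3 : 0 ≤ ∑ j ∈ Finset.range ((s.P n).m i + 1), σ ((s.P n).c i j) :=
      Finset.sum_nonneg fun j _ => s1 _
    rw [abs_of_nonneg (by linarith)] at a2
    have a4 := mul_le_mul_of_nonneg_left a2 (hμ i hi)
    linarith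
  have a5 := Finset.sum_le_sum a1
  rw [Finset.sum_add_distrib, ← Finset.mul_sum, ← Finset.mul_sum] at a5
  have a6 := AExt.cs hCS (s.P n).toFlow s1 hST
  have m0 : 0 ≤ ∑ i ∈ S, (s.P n).μ i := Finset.sum_nonneg hμ
  have m1 : ∑ i ∈ S, (s.P n).μ i ≤ 1 := by
    rw [← (s.P n).μ_sum]
    exact Finset.sum_le_sum_of_subset_of_nonneg hST fun i hi _ => ((s.P n).μ_pos i hi).le
  generalize ∑ i ∈ S, (s.P n).μ i * ∑ j ∈ Finset.range ((s.P n).m i + 1), σ ((s.P n).c i j) = x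
    at a5 a6
  generalize ∑ i ∈ S, (s.P n).μ i = m at a5 a6 m0 m1 ⊢
  have b1 : m ≤ √m := Real.le_sqrt_of_sq_le (by nlinarith)
  have b2 : x ≤ √(N * B / c) * √m := by
    rw [← Real.sqrt_mul (by positivity)]
    refine Real.le_sqrt_of_sq_le ?_
    rw [div_mul_eq_mul_div, le_div_iff₀ hc0]
    have b3 := mul_le_mul_of_nonneg_left h1 (sq_nonneg x)
    have b4 := mul_le_mul_of_nonneg_right (s2.trans (mul_le_mul_of_nonneg_left t2 hN0.le)) m0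
    linarith
  have b5 := mul_le_mul_of_nonneg_left b1 (show 0 ≤ H + 4 by linarith)
  linarith

end Vale.Agent.P198
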