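import Vale.Agent.P198.A.Stm

/-! The extremal flow on walks exists. -/

open Set Metric Topology Filter

namespace Vale.Agent.P198

variable {G Z : Type*} [Group G] [MetricSpace Z] [MulAction G Z]

namespace AFlow

theorem reindex {ι : Type*} [Inhabited ι] (T : Finset ι) :
    ∃ idx : ℕ → ι, (∀ i ∈ Finset.range T.card, idx i ∈ T) ∧
      ∀ f : ι → ℝ, ∑ i ∈ Finset.range T.card, f (idx i) = ∑ i ∈ T, f i := by
  refine ⟨fun i => if h : i < T.card then (T.equivFin.symm ⟨i, h⟩ : ι) else default, ?_, ?_⟩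
  · intro i hi
    simp only [dif_pos (Finset.mem_range.1 hi)]
    exact (T.equivFin.symm ⟨i, _⟩).2
  · intro f
    rw [Finset.sum_range, ← Finset.sum_coe_sort T f, ← Equiv.sum_comp T.equivFin.symm]
    refine Finset.sum_congr rfl fun i _ => ?_
    simp only [dif_pos i.2]

/-- A bound for injective walks extends to all walks. -/
theorem all_walks (D : Dyn G Z) {n : ℕ} {A B : Finset G} {η : G → ℝ} {s : ℝ} (h0 : ∀ g, 0 ≤ η g)
    (h : ∀ (k : ℕ) (d : ℕ → G), D.Wk n k d → d 0 ∈ A → d k ∈ B →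
      (∀ j ≤ k, ∀ j' ≤ k, d j = d j' → j = j') → s ≤ ∑ j ∈ Finset.range (k + 1), η (d j))
    (k : ℕ) : ∀ d : ℕ → G, D.Wk n k d → d 0 ∈ A → d k ∈ B →
      s ≤ ∑ j ∈ Finset.range (k + 1), η (d j) := by
  induction k using Nat.strong_induction_on with
  | _ k ih =>
  intro d hw hA hB
  by_cases hi : ∀ j ≤ k, ∀ j' ≤ k, d j = d j' → j = j'
  · exact h k d hw hA hB hi
  obtain ⟨j, j', hjj, hj', e⟩ : ∃ j j', j < j' ∧ j' ≤ k ∧ d j = d j' := by
    push Not at hi
    obtain ⟨j, hj, j', hj', e, hne⟩ := hi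
    rcases lt_or_gt_of_ne hne with h1 | h1
    · exact ⟨j, j', h1, hj', e⟩
    · exact ⟨j', j, h1, hj, e.symm⟩
  let φ : ℕ → ℕ := fun l => if l ≤ j then l else l + (j' - j)
  have hφ : ∀ l, j ≤ l → d (φ l) = d (l + (j' - j)) := by
    intro l hl
    simp only [φ]
    split_ifs with h1
    · obtain rfl : l = j := by omega
      rw [e, show l + (j' - l) = j' by omega]
    · rfl
  have hφ' : ∀ l, l ≤ j → φ l = l := fun l hl => if_pos hl
  have hle : ∀ l ≤ k - (j' - j), φ l ≤ k := by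
    intro l hl
    simp only [φ]
    split_ifs <;> omega
  have hw' : D.Wk n (k - (j' - j)) (fun l => d (φ l)) := by
    refine ⟨fun l hl => hw.lev _ (hle l hl), fun l hl => ?_⟩
    rcases lt_or_ge l j with h1 | h1
    · rw [hφ' l h1.le, hφ' (l + 1) h1]
      exact hw.adj l (by omega)
    · rw [hφ l h1, hφ (l + 1) (by omega), show l + 1 + (j' - j) = l + (j' - j) + 1 by omega]
      exact hw.adj _ (by omega)
  have h1 := ih (k - (j' - j)) (by omega) (fun l => d (φ l)) hw'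
    (by rw [hφ' 0 (Nat.zero_le _)]; exact hA)
    (by rw [hφ _ (by omega), show k - (j' - j) + (j' - j) = k by omega]; exact hB)
  refine h1.trans ?_
  have hinj : Set.InjOn φ (Finset.range (k - (j' - j) + 1) : Set ℕ) := by
    intro a _ b _ hab
    simp only [φ] at hab
    split_ifs at hab <;> omega
  rw [← Finset.sum_image (f := fun l => η (d l)) hinj]
  refine Finset.sum_le_sum_of_subset_of_nonneg ?_ fun l _ _ => h0 _
  intro l hl
  obtain ⟨a, ha, rfl⟩ := Finset.mem_image.1 hl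
  have := hle a (by have := Finset.mem_range.1 ha; omega)
  exact Finset.mem_range.2 (by omega)

/-- Tight walks with positive weights do not return to the ends. -/
theorem isCh (D : Dyn G Z) {n : ℕ} {E0 E1 : Set Z} {ρ : G → ℝ}
    (adm : ∀ (k : ℕ) (d : ℕ → G), D.Wk n k d → d 0 ∈ D.hit n E0 → d k ∈ D.hit n E1 →
      1 ≤ ∑ j ∈ Finset.range (k + 1), ρ (d j))
    {k : ℕ} {d : ℕ → G} (hw : D.Wk n k d) (h0 : d 0 ∈ D.hit n E0) (h1 : d k ∈ D.hit n E1)
    (hp : ∀ j ≤ k, 0 < ρ (d j)) (ht : ∑ j ∈ Finset.range (k + 1), ρ (d j) = 1) :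
    D.IsCh E0 E1 n k d := by
  refine ⟨hw, h0, h1, fun j hj hjk hE => ?_, fun j hj hE => ?_⟩
  · have h2 := adm (k - j) (fun l => d (j + l))
      ⟨fun l hl => hw.lev _ (by omega), fun l hl => hw.adj _ (by omega)⟩ hE
      (by rw [show j + (k - j) = k by omega]; exact h1)
    rw [show k + 1 = j + (k - j + 1) by omega, Finset.sum_range_add] at ht
    have h3 : 0 < ∑ l ∈ Finset.range j, ρ (d l) :=
      Finset.sum_pos (fun l hl => hp l (by have := Finset.mem_range.1 hl; omega))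
        ⟨0, Finset.mem_range.2 hj⟩
    linarith
  · have h2 := adm j d ⟨fun l hl => hw.lev _ (by omega), fun l hl => hw.adj _ (by omega)⟩ h0 hE
    rw [show k + 1 = (j + 1) + (k - j) by omega, Finset.sum_range_add] at ht
    have h3 : 0 < ∑ l ∈ Finset.range (k - j), ρ (d (j + 1 + l)) :=
      Finset.sum_pos (fun l hl => hp _ (by have := Finset.mem_range.1 hl; omega))
        ⟨0, Finset.mem_range.2 (by omega)⟩
    linarith

end AFlow

open AFlow in
theorem flowEx [CompactSpace Z] (D : Dyn G Z) (h : CTP D) : FlowEx D := by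
  classical
  intro n E0 E1 ⟨x0, hx0⟩ ⟨x1, hx1⟩
  have : Inhabited (ℕ × (ℕ → G)) := ⟨(0, fun _ => 1)⟩
  have : PathConnectedSpace Z := (gTwo D).2.2
  let Γ : Set (ℕ × (ℕ → G)) := {p | D.Wk n p.1 p.2 ∧ p.2 0 ∈ D.hit n E0 ∧ p.2 p.1 ∈ D.hit n E1 ∧
    ∀ j ≤ p.1, ∀ j' ≤ p.1, p.2 j = p.2 j' → j = j'}
  let c : ℕ × (ℕ → G) → Finset G := fun p => (Finset.range (p.1 + 1)).image p.2
  have hne : Γ.Nonempty := by
    obtain ⟨g, hg, hg'⟩ := D.exists_hit n x0
    obtain ⟨g', hg1, hg1'⟩ := D.exists_hit n x1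
    obtain ⟨k, d, hw, e0, e1, -, hi⟩ := h n univ x0 x1 g g'
      (joinedIn_univ.2 (PathConnectedSpace.joined x0 x1)) hg hg1 hg' hg1'
    subst e0 e1
    exact ⟨(k, d), hw, D.mem_hit.2 ⟨hg, x0, hx0, hg'⟩, D.mem_hit.2 ⟨hg1, x1, hx1, hg1'⟩, hi⟩
  have hcm : ∀ p g, g ∈ c p ↔ ∃ j ≤ p.1, p.2 j = g := by
    intro p g
    simp only [c, Finset.mem_image, Finset.mem_range, Nat.lt_succ_iff]
  have hcV : ∀ p ∈ Γ, c p ⊆ D.lev n := by
    intro p hp g hg
    obtain ⟨j, hj, rfl⟩ := (hcm p g).1 hg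
    exact D.mem_lev.2 (hp.1.lev j hj)
  obtain ⟨T, μ, hT, hμ, hsum, hopt⟩ := optP G (ℕ × (ℕ → G)) (D.lev n) Γ c hne hcV
  obtain ⟨η, hη⟩ : ∃ η : G → ℝ, ∀ g, η g = ∑ i ∈ T, if g ∈ c i then μ i else 0 := ⟨_, fun _ => rfl⟩
  obtain ⟨s, hs⟩ : ∃ s : ℝ, s = ∑ g ∈ D.lev n, η g ^ 2 := ⟨_, rfl⟩
  have hopt' : ∀ j ∈ Γ, s ≤ ∑ g ∈ c j, η g := by
    intro j hj
    have := hopt j hj
    simp only [Finset.sum_filter] at this
    rw [hs]
    simp only [hη]
    convert this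
  have hη0 : ∀ g, 0 ≤ η g := fun g => by
    rw [hη]
    exact Finset.sum_nonneg fun i _ => by split_ifs; exacts [hμ i, le_rfl]
  have hηle : ∀ i ∈ T, ∀ g ∈ c i, μ i ≤ η g := by
    intro i hi g hg
    rw [hη]
    refine le_trans (le_of_eq (if_pos hg).symm) (Finset.single_le_sum
      (f := fun i => if g ∈ c i then μ i else 0) (fun i _ => ?_) hi)
    split_ifs; exacts [hμ i, le_rfl]
  have hwalk : ∀ p ∈ Γ, ∑ g ∈ c p, η g = ∑ j ∈ Finset.range (p.1 + 1), η (p.2 j) := by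
    intro p hp
    refine Finset.sum_image fun a ha b hb e => hp.2.2.2 a ?_ b ?_ e
    · exact Nat.lt_succ_iff.1 (Finset.mem_range.1 ha)
    · exact Nat.lt_succ_iff.1 (Finset.mem_range.1 hb)
  have hdc : ∑ i ∈ T, μ i * ∑ g ∈ c i, η g = s := by
    have h1 : ∀ i ∈ T, μ i * ∑ g ∈ c i, η g =
        ∑ g ∈ D.lev n, (if g ∈ c i then μ i else 0) * η g := by
      intro i hi
      simp only [ite_mul, zero_mul]
      rw [← Finset.sum_filter, Finset.filter_mem_eq_inter,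
        Finset.inter_eq_right.2 (hcV i (hT i hi)), Finset.mul_sum]
    rw [Finset.sum_congr rfl h1, Finset.sum_comm, hs]
    refine Finset.sum_congr rfl fun g _ => ?_
    rw [← Finset.sum_mul, ← hη, sq]
  have htight : ∀ i ∈ T, 0 < μ i → ∑ g ∈ c i, η g = s := by
    have h1 : ∑ i ∈ T, μ i * (∑ g ∈ c i, η g - s) = 0 := by
      simp only [mul_sub]
      rw [Finset.sum_sub_distrib, hdc, ← Finset.sum_mul, hsum, one_mul, sub_self]
    intro i hi hpos
    have h2 := (Finset.sum_eq_zero_iff_of_nonneg fun i hi =>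
      mul_nonneg (hμ i) (sub_nonneg.2 (hopt' i (hT i hi)))).1 h1 i hi
    rcases mul_eq_zero.1 h2 with h3 | h3
    · exact absurd h3 hpos.ne'
    · linarith
  have hspos : 0 < s := by
    obtain ⟨i, hi, hpos⟩ : ∃ i ∈ T, 0 < μ i := by
      by_contra hc
      push Not at hc
      have := Finset.sum_nonpos hc
      linarith
    have hg : i.2 0 ∈ c i := (hcm i _).2 ⟨0, Nat.zero_le _, rfl⟩
    rw [hs]
    exact Finset.sum_pos' (fun g _ => sq_nonneg _)
      ⟨i.2 0, hcV i (hT i hi) hg, pow_pos (hpos.trans_le (hηle i hi _ hg)) 2⟩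
  have hadm0 := all_walks D (n := n) (A := D.hit n E0) (B := D.hit n E1) (s := s) hη0
    fun k d hw h0 h1 hi => (hopt' (k, d) ⟨hw, h0, h1, hi⟩).trans
      (le_of_eq (hwalk (k, d) ⟨hw, h0, h1, hi⟩))
  have hadm : ∀ (k : ℕ) (d : ℕ → G), D.Wk n k d → d 0 ∈ D.hit n E0 → d k ∈ D.hit n E1 →
      1 ≤ ∑ j ∈ Finset.range (k + 1), s⁻¹ * η (d j) := by
    intro k d hw h0 h1
    rw [← Finset.mul_sum, le_inv_mul_iff₀ hspos, mul_one]
    exact hadm0 k d hw h0 h1
  obtain ⟨idx, hidx, hre⟩ := reindex (T.filter fun i => 0 < μ i)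
  have hre' : ∀ f : ℕ × (ℕ → G) → ℝ, (∀ i, μ i = 0 → f i = 0) →
      ∑ i ∈ Finset.range (T.filter fun i => 0 < μ i).card, f (idx i) = ∑ i ∈ T, f i := by
    intro f hf
    rw [hre]
    refine Finset.sum_filter_of_ne fun i _ hne => lt_of_le_of_ne (hμ i) fun e => hne (hf i e.symm)
  have htot : ∀ i ∈ Finset.range (T.filter fun i => 0 < μ i).card,
      ∑ j ∈ Finset.range ((idx i).1 + 1), s⁻¹ * η ((idx i).2 j) = 1 := by
    intro i hi
    obtain ⟨h1, h2⟩ := Finset.mem_filter.1 (hidx i hi)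
    rw [← Finset.mul_sum, ← hwalk _ (hT _ h1), htight _ h1 h2, inv_mul_cancel₀ hspos.ne']
  refine ⟨⟨Finset.range (T.filter fun i => 0 < μ i).card, fun i => μ (idx i), fun i => (idx i).1,
    fun i => (idx i).2, s⁻¹, fun g => s⁻¹ * η g, fun i hi => (Finset.mem_filter.1 (hidx i hi)).2,
    (hre' μ fun _ e => e).trans hsum, inv_pos.2 hspos, fun i hi => ?_,
    fun i hi => (hT _ (Finset.mem_filter.1 (hidx i hi)).1).2.2.2, fun g => ?_, htot, hadm, ?_⟩⟩
  · obtain ⟨h1, h2⟩ := Finset.mem_filter.1 (hidx i hi)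
    have h3 := hT _ h1
    refine isCh D (ρ := fun g => s⁻¹ * η g) hadm h3.1 h3.2.1 h3.2.2.1 (fun j hj => ?_) (htot i hi)
    exact mul_pos (inv_pos.2 hspos) (h2.trans_le (hηle _ h1 _ ((hcm _ _).2 ⟨j, hj, rfl⟩)))
  · congr 1
    rw [hη, ← hre' (fun i => if g ∈ c i then μ i else 0) (fun i e => by simp [e]),
      Finset.sum_filter]
    refine Finset.sum_congr rfl fun i _ => ?_
    exact if_congr (hcm _ _) rfl rfl
  · unfold Dyn.mass
    simp only [mul_pow]
    rw [← Finset.mul_sum, ← hs]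
    field_simp

end Vale.Agent.P198
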