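import Vale.Agent.P198.A.Stm

open Set Metric Topology Filter

namespace Vale.Agent.P198

namespace AHom

theorem rect_cpt (a b c d : ℝ) : IsCompact (rect a b c d) := by
  have h : rect a b c d = (fun p : ℝ × ℝ => (p.1 : ℂ) + p.2 * Complex.I) '' (Icc a b ×ˢ Icc c d) := by
    ext w
    constructor
    · rintro ⟨h1, h2, h3, h4⟩
      exact ⟨(w.re, w.im), ⟨⟨h1, h2⟩, h3, h4⟩, Complex.re_add_im w⟩
    · rintro ⟨p, ⟨⟨h1, h2⟩, h3, h4⟩, rfl⟩
      refine ⟨?_, ?_, ?_, ?_⟩ <;> simpa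
  rw [h]
  exact (isCompact_Icc.prod isCompact_Icc).image (by fun_prop)

theorem f_cont (l : PL) : ContinuousOn l.f l.Mid := by
  have e : l.f = fun w => (l.U w : ℂ) + (l.V w : ℂ) * Complex.I := by
    funext w; apply Complex.ext <;> simp [PL.f]
  rw [e]
  exact (Complex.continuous_ofReal.comp l.U_cont).continuousOn.add
    ((Complex.continuous_ofReal.comp_continuousOn l.V_cont).mul continuousOn_const)

end AHom

open AHom in
theorem PL.homP (l : PL) (h1 : l.PropP) (h2 : l.SurjP) (h3 : l.InjP) : l.HomP := by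
  have hex : ∀ ζ : ℂ, ∃ w, 1 / 4 ≤ ζ.re → ζ.re ≤ 3 / 4 → l.f w = ζ := by
    intro ζ
    by_cases h : 1 / 4 ≤ ζ.re ∧ ζ.re ≤ 3 / 4
    · obtain ⟨w, e1, e2⟩ := h2 ζ.re ζ.im h.1 h.2
      exact ⟨w, fun _ _ => Complex.ext e1 e2⟩
    · exact ⟨0, fun a b => absurd ⟨a, b⟩ h⟩
  choose gi hgi using hex
  have hinv : ∀ w : ℂ, 3 / 8 ≤ l.U w → l.U w ≤ 5 / 8 → gi (l.f w) = w := fun w a b =>
    (h3 w _ a b (hgi (l.f w) (by show 1 / 4 ≤ l.U w; linarith)
      (by show l.U w ≤ 3 / 4; linarith)).symm).symm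
  refine ⟨gi, fun ζ hζ => ?_, fun ζ a b => hgi ζ (by linarith) (by linarith),
    fun w a b => hinv w a.le b.le⟩
  obtain ⟨H, -, hH⟩ := h1.prop (ζ.im - 1) (ζ.im + 1)
  have hsub : rect l.θ (1 - l.θ) (-H) H ⊆ l.Mid := fun w hw => ⟨hw.1, hw.2.1⟩
  have hR := rect_cpt l.θ (1 - l.θ) (-H) H
  have hc : ContinuousOn gi (rect (3 / 8) (5 / 8) (ζ.im - 1) (ζ.im + 1)) := by
    rw [continuousOn_iff_isClosed]
    intro T hT
    refine ⟨l.f '' (rect l.θ (1 - l.θ) (-H) H ∩ T), ((hR.inter_right hT).image_of_continuousOn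
      ((f_cont l).mono (inter_subset_left.trans hsub))).isClosed, ?_⟩
    ext z
    constructor
    · rintro ⟨hz, z1, z2, z3, z4⟩
      have e := hgi z (by linarith) (by linarith)
      have eU : l.U (gi z) = z.re := congrArg Complex.re e
      have eV : l.V (gi z) = z.im := congrArg Complex.im e
      have hm : gi z ∈ l.Mid := l.mem_mid (by linarith) (by linarith)
      have := abs_le.1 (show |(gi z).im| ≤ H from hH _ hm (by linarith) (by linarith))
      exact ⟨⟨gi z, ⟨⟨hm.1, hm.2, this.1, this.2⟩, hz⟩, e⟩, z1, z2, z3, z4⟩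
    · rintro ⟨⟨w, ⟨-, hw⟩, rfl⟩, hz⟩
      refine ⟨?_, hz⟩
      show gi (l.f w) ∈ T
      rw [hinv w hz.1 hz.2.1]
      exact hw
  refine (hc.continuousAt ?_).continuousWithinAt
  have c1 := Complex.continuous_re.continuousAt (x := ζ)
  have c2 := Complex.continuous_im.continuousAt (x := ζ)
  filter_upwards [c1.eventually (lt_mem_nhds hζ.1), c1.eventually (gt_mem_nhds hζ.2),
    c2.eventually (lt_mem_nhds (sub_one_lt ζ.im)), c2.eventually (gt_mem_nhds (lt_add_one ζ.im))]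
    with z a b c d using ⟨a.le, b.le, c.le, d.le⟩

end Vale.Agent.P198
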