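import Vale.Agent.P198.A.Stm

/-! Part II-a: the limit map is injective. -/

open Set Metric Topology Filter

namespace Vale.Agent.P198

variable {G Z : Type*} [Group G] [MetricSpace Z] [MulAction G Z] [CompactSpace Z] {D : Dyn G Z}
  {E : Geo Z} {R : Ring Z}

namespace AInj

theorem far_up {ζ ζ0 : ℂ} (h1 : |ζ.re - ζ0.re| ≤ ‖ζ0‖ / 4) (h2 : 0 ≤ ζ0.im)
    (h3 : ζ0.im - ‖ζ0‖ / 4 ≤ ζ.im) : ‖ζ0‖ / 2 ≤ ‖ζ‖ := by
  have h4 : ‖ζ0‖ ≤ ‖(⟨ζ0.re, max ζ.im ζ0.im⟩ : ℂ)‖ := by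
    rw [← sq_le_sq₀ (norm_nonneg _) (norm_nonneg _), Complex.sq_norm, Complex.sq_norm,
      Complex.normSq_apply, Complex.normSq_apply]
    have := le_max_right ζ.im ζ0.im
    dsimp only
    nlinarith
  have h5 := Complex.norm_le_abs_re_add_abs_im ((⟨ζ0.re, max ζ.im ζ0.im⟩ : ℂ) - ζ)
  have h6 : |max ζ.im ζ0.im - ζ.im| ≤ ‖ζ0‖ / 4 := by
    rw [abs_of_nonneg (by linarith [le_max_left ζ.im ζ0.im]), sub_le_iff_le_add, max_le_iff]
    constructor <;> linarith [norm_nonneg ζ0]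
  simp only [Complex.sub_re, Complex.sub_im] at h5
  rw [abs_sub_comm] at h1
  linarith [norm_sub_norm_le (⟨ζ0.re, max ζ.im ζ0.im⟩ : ℂ) ζ]

theorem far_down {ζ ζ0 : ℂ} (h1 : |ζ.re - ζ0.re| ≤ ‖ζ0‖ / 4) (h2 : ζ0.im ≤ 0)
    (h3 : ζ.im ≤ ζ0.im + ‖ζ0‖ / 4) : ‖ζ0‖ / 2 ≤ ‖ζ‖ := by
  have := far_up (ζ := (starRingEnd ℂ) ζ) (ζ0 := (starRingEnd ℂ) ζ0) (by simpa using h1)
    (by simpa using h2) (by simp; linarith)
  simpa using this

theorem norm_TT : ‖TT‖ = 2 * Real.pi := by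
  simp [TT, abs_of_pos Real.pi_pos]

omit [CompactSpace Z] in
theorem cross (R : Ring Z) {κ r a b : ℝ} {P : Set ℂ} {x u v : ℂ} (h : JoinedIn P u v)
    (hu : dist u x ≤ a) (hab : a ≤ b) (hv : b ≤ dist v x) (hb : b < 1)
    (h1 : ∀ w, dist w x = a → κ * dist (R.p w) (R.p x) ≤ r)
    (h2 : ∀ w, dist w x = b → κ * r ≤ dist (R.p w) (R.p x)) :
    ∃ K ⊆ P, K ⊆ ball x 1 ∧ CrK κ (R.p x) r (R.p '' K) := by
  obtain ⟨u', v', h3, h4, h5⟩ := (pathP ℂ).band P (fun w => dist w x) u v a b h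
    (by fun_prop) hu hab hv
  exact ⟨_, inter_subset_left, fun w hw => lt_of_le_of_lt hw.2.2 hb, _, _, h3.map R.cont,
    h1 u' h4, h2 v' h5⟩

end AInj

open AInj

omit [CompactSpace Z] in
theorem PL.injP (l : PL) (R : Ring Z) (h1 : l.PropP) (h2 : l.VConnP) (h3 : l.CoreP R) :
    l.InjP := by
  intro x y hx1 hx2 hxy
  by_contra hne
  obtain ⟨κ, H, δ, hκ, hH, hδ, hc⟩ := h3
  have hκ0 : 0 < κ := by linarith
  have hH0 : 0 < H := by linarith
  have hxM : x ∈ l.Mid := l.mem_mid (by linarith) (by linarith)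
  have hfc : ContinuousOn l.f l.Mid := by
    have e : l.f = fun w => (l.U w : ℂ) + (l.V w : ℂ) * Complex.I := by
      funext w
      exact Complex.mk_eq_add_mul_I _ _
    rw [e]
    exact (Complex.continuous_ofReal.comp l.U_cont).continuousOn.add
      ((Complex.continuous_ofReal.comp_continuousOn l.V_cont).mul continuousOn_const)
  have hMc : IsClosed l.Mid :=
    (isClosed_le continuous_const Complex.continuous_re).inter
      (isClosed_le Complex.continuous_re continuous_const)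
  have hF : IsClosed (l.Mid ∩ l.f ⁻¹' {l.f x}) :=
    hfc.preimage_isClosed_of_isClosed hMc isClosed_singleton
  obtain ⟨x', -, ⟨hx'M, hx'f⟩, hx'c⟩ := isPreconnected_closed_iff.1
    (strip_convex l.θ (1 - l.θ)).isPreconnected _ (closure (l.Mid \ l.f ⁻¹' {l.f x})) hF
    isClosed_closure (fun w hw => by
      by_cases h : l.f w = l.f x
      · exact Or.inl ⟨hw, h⟩
      · exact Or.inr (subset_closure ⟨hw, h⟩)) ⟨x, hxM, hxM, rfl⟩ (by
      obtain ⟨h4, h5⟩ := h1.per x hxM 1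
      refine ⟨_, h4, subset_closure ⟨h4, fun h => ?_⟩⟩
      have h6 : l.V (x + (1 : ℤ) * TT) = l.V x := congrArg Complex.im h
      rw [h5] at h6
      simp at h6)
  have hx'f' : l.f x' = l.f x := hx'f
  have hU' : l.U x' = l.U x := congrArg Complex.re hx'f'
  obtain ⟨y', hy'n, hy'f⟩ : ∃ y', y' ≠ x' ∧ l.f y' = l.f x' := by
    by_cases h : x = x'
    · exact ⟨y, fun h' => hne (h.trans h'.symm), hxy.symm.trans hx'f'.symm⟩
    · exact ⟨x, h, hx'f'.symm⟩
  have hx's : x' ∈ strip (-1) 2 :=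
    ⟨by linarith [hx'M.1, l.θ_pos], by linarith [hx'M.2, l.θ_pos]⟩
  set r1 := min (1 / 2) (dist y' x') with hr1
  have hr10 : 0 < r1 := lt_min (by norm_num) (dist_pos.2 hy'n)
  have hr12 : r1 ≤ 1 / 2 := min_le_left _ _
  obtain ⟨δ2, hδ2, hlow⟩ := R.low r1 hr10
  set r := min δ (δ2 / κ) with hr
  have hr0 : 0 < r := lt_min hδ (div_pos hδ2 hκ0)
  have hfar : ∀ w, r1 ≤ dist w x' → dist w x' ≤ 3 → κ * r ≤ dist (R.p w) (R.p x') := by
    intro w h4 h5
    have h6 : δ2 ≤ dist (R.p w) (R.p x') := le_of_not_gt fun h =>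
      absurd (hlow x' hx's w h5 h) (not_lt.2 h4)
    have h7 : r ≤ δ2 / κ := min_le_right _ _
    rw [le_div_iff₀ hκ0, mul_comm] at h7
    exact h7.trans h6
  obtain ⟨ε, hε, huc⟩ := R.uc (r / κ) (div_pos hr0 hκ0)
  have hnear : ∀ w, dist w x' < ε → κ * dist (R.p w) (R.p x') ≤ r := fun w h => by
    have := huc x' hx's w h
    rw [lt_div_iff₀ hκ0, mul_comm] at this
    exact this.le
  have hev : ∀ᶠ z in 𝓝 x', dist z x' < min ε (1 / 2) ∧ dist (l.U z) (l.U x') < 1 / 8 :=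
    Filter.Eventually.and (Metric.ball_mem_nhds x' (lt_min hε (by norm_num : (0 : ℝ) < 1 / 2)))
      (Metric.tendsto_nhds.1 l.U_cont.continuousAt _ (by norm_num))
  obtain ⟨z, ⟨hz1, hz2⟩, hzM, hzf⟩ := mem_closure_iff_nhds.1 hx'c _ hev
  have hz3 := abs_lt.1 (Real.dist_eq _ _ ▸ hz2)
  have hz4 := lt_min_iff.1 hz1
  have hs0 : 0 < ‖l.f z - l.f x'‖ := norm_pos_iff.2 (sub_ne_zero.2 fun h => hzf (h.trans hx'f'))
  set s := min (‖l.f z - l.f x'‖ / 2) (1 / 16) / H with hs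
  have hs1 : 0 < s := div_pos (lt_min (half_pos hs0) (by norm_num)) hH0
  have hs2 : H * s = min (‖l.f z - l.f x'‖ / 2) (1 / 16) := mul_div_cancel₀ _ hH0.ne'
  have hyU : l.U y' = l.U x' := congrArg Complex.re hy'f
  have hyV : l.V y' = l.V x' := congrArg Complex.im hy'f
  obtain ⟨K1, hK1, hK1b, hK1c⟩ := cross R (κ := κ) (r := r) (a := 0) (b := r1) (x := x')
    (h2 (l.U x') (l.V x') (l.V x') (s / 2) (by linarith) (by linarith) (half_pos hs1) x' y' rfl
      hyU le_rfl le_rfl hyV.ge hyV.le) (dist_self x').le hr10.le (min_le_right _ _)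
    (by linarith) (fun w h => hnear w (by rw [h]; exact hε))
    (fun w h => hfar w h.ge (by linarith))
  have hK2 : ∃ K2 ⊆ ball x' 1, CrK κ (R.p x') r (R.p '' K2) ∧
      ∀ w ∈ K2, ‖l.f z - l.f x'‖ / 2 ≤ ‖l.f w - l.f x'‖ := by
    have hd : ∀ k : ℤ, |(k : ℝ)| = 1 → 1 / 2 ≤ dist (z + k * TT) x' := by
      intro k hk
      have h4 : dist (z + k * TT) z = 2 * Real.pi := by
        rw [dist_eq_norm, add_sub_cancel_left, norm_mul, norm_TT, Complex.norm_intCast, hk,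
          one_mul]
      linarith [dist_triangle (z + k * TT) x' z, dist_comm x' z, Real.pi_gt_three]
    rcases le_total (l.V x') (l.V z) with h | h
    · have h5 := (h1.per z hzM 1).2
      obtain ⟨K, hK, hKb, hKc⟩ := cross R (κ := κ) (r := r) (a := dist z x') (b := 1 / 2)
        (x := x') (h2 (l.U z) (l.V z) (l.V z + 1) (‖l.f z - l.f x'‖ / 4) (by linarith)
          (by linarith) (by linarith) z (z + (1 : ℤ) * TT) rfl (l.U_per z 1) le_rfl (by linarith)
          (by rw [h5]; simp) (by rw [h5]; simp)) le_rfl hz4.2.le (hd 1 (by simp)) (by norm_num)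
        (fun w h => hnear w (by rw [h]; exact hz4.1))
        (fun w h => hfar w (by linarith) (by linarith))
      refine ⟨K, hKb, hKc, fun w hw => far_up ?_ ?_ ?_⟩
      · show |(l.U w - l.U x') - (l.U z - l.U x')| ≤ _
        rw [sub_sub_sub_cancel_right]
        exact (hK hw).1
      · show 0 ≤ l.V z - l.V x'
        linarith
      · show l.V z - l.V x' - _ ≤ l.V w - l.V x'
        linarith [(hK hw).2.1]
    · have h5 := (h1.per z hzM (-1)).2
      obtain ⟨K, hK, hKb, hKc⟩ := cross R (κ := κ) (r := r) (a := dist z x') (b := 1 / 2)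
        (x := x') (h2 (l.U z) (l.V z - 1) (l.V z) (‖l.f z - l.f x'‖ / 4) (by linarith)
          (by linarith) (by linarith) z (z + (-1 : ℤ) * TT) rfl (l.U_per z (-1)) (by linarith)
          le_rfl (by rw [h5]; push_cast; linarith) (by rw [h5]; push_cast; linarith)) le_rfl
        hz4.2.le (hd (-1) (by simp)) (by norm_num)
        (fun w h => hnear w (by rw [h]; exact hz4.1))
        (fun w h => hfar w (by linarith) (by linarith))
      refine ⟨K, hKb, hKc, fun w hw => far_down ?_ ?_ ?_⟩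
      · show |(l.U w - l.U x') - (l.U z - l.U x')| ≤ _
        rw [sub_sub_sub_cancel_right]
        exact (hK hw).1
      · show l.V z - l.V x' ≤ 0
        linarith
      · show l.V w - l.V x' ≤ l.V z - l.V x' + _
        linarith [(hK hw).2.2]
  obtain ⟨K2, hK2b, hK2c, hK2f⟩ := hK2
  refine hc x' (l.f x') r s K1 K2 (by linarith) (by linarith)
    (show 3 / 8 ≤ l.U x' by linarith) (show l.U x' ≤ 5 / 8 by linarith) hr0 (min_le_left _ _) hs1
    (hs2 ▸ min_le_right _ _) hK1b hK2b hK1c hK2c (fun w hw => ?_)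
    (fun w hw => hs2 ▸ (min_le_left _ _).trans (hK2f w hw))
  obtain ⟨h4, h5, h6⟩ := hK1 hw
  have h7 : |l.V w - l.V x'| ≤ s / 2 := abs_le.2 ⟨by linarith, by linarith⟩
  have h8 : ‖l.f w - l.f x'‖ ≤ |l.U w - l.U x'| + |l.V w - l.V x'| :=
    Complex.norm_le_abs_re_add_abs_im _
  linarith

end Vale.Agent.P198
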