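import Vale.Agent.P198.A.Stm

/-! The order of good curves along a level band. -/

open Set Metric Topology Filter

namespace Vale.Agent.P198

namespace AKey

theorem wt_le {ι : Type*} {S : Finset ι} {μ : ι → ℝ} (hμ : ∀ j ∈ S, 0 ≤ μ j) {X Y B : Set ι}
    (h : ∀ j ∈ S, j ∈ X → j ∉ B → j ∈ Y) : wt S μ X ≤ wt S μ Y + wt S μ B := by
  classical
  simp only [wt, Finset.sum_filter, ← Finset.sum_add_distrib]
  refine Finset.sum_le_sum fun j hj => ?_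
  have h1 := hμ j hj
  have h2 := h j hj
  by_cases hX : j ∈ X <;> by_cases hY : j ∈ Y <;> by_cases hB : j ∈ B <;> simp_all

theorem mid {l : PL} {t lam : ℝ} {Λ : Set ℂ} (hL : l.Lam t lam Λ) {w : ℂ} (hw : w ∈ l.Bd t lam) :
    w ∈ l.Mid := by
  have h1 := abs_le.1 (show |l.U w - t| ≤ lam from hw)
  have := hL.t1
  have := hL.t2
  have := hL.le
  exact l.mem_mid (by linarith) (by linarith)

theorem ends {l : PL} (h : l.PropP) {t lam : ℝ} {Λ : Set ℂ} (hL : l.Lam t lam Λ) {K : Set ℂ}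
    (hK : IsCompact K) : (∃ p ∈ Λ, ∀ z ∈ K, p.im < z.im) ∧ ∃ p ∈ Λ, ∀ z ∈ K, z.im < p.im := by
  obtain ⟨x, hx⟩ := h.lev t (by linarith [hL.t1]) (by linarith [hL.t2])
  obtain ⟨M, hM⟩ := hK.isBounded.exists_norm_le
  obtain ⟨k, hk⟩ := exists_nat_gt (M + |x.im|)
  have h1 : ∀ m : ℤ, x + m * TT ∈ Λ := fun m => hL.sup (by
    change |l.U _ - t| ≤ _
    rw [l.U_per, hx, sub_self, abs_zero]
    linarith [hL.pos])
  have h2 : ∀ m : ℤ, (x + m * TT).im = x.im + m * (2 * Real.pi) := fun m => by simp [TT]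
  have h3 : (k : ℝ) ≤ k * (2 * Real.pi) :=
    le_mul_of_one_le_right k.cast_nonneg (by linarith [Real.pi_gt_three])
  have h4 := le_abs_self x.im
  have h5 := neg_abs_le x.im
  refine ⟨⟨_, h1 (-k), fun z hz => ?_⟩, _, h1 k, fun z hz => ?_⟩ <;>
  · have := abs_le.1 ((Complex.abs_im_le_norm z).trans (hM z hz))
    rw [h2]
    push_cast
    linarith

end AKey

open AKey in
theorem PL.keyP (l : PL) (h : l.PropP) : l.KeyP := by
  intro S μ A t lam H H' β Λ hS hL j hj hG z hz q hq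
  have hΛ : Λ ⊆ strip (-1) 2 := fun w hw => by
    have h1 := mid hL (hL.sub hw)
    have := l.θ_pos
    exact ⟨by linarith [h1.1], by linarith [h1.2]⟩
  have tri : ∀ i ∈ S, ∀ i' ∈ S, ∀ N N' : Set ℂ, N ⊆ A i ∩ l.Bd t (3 * lam) → IsPathConnected N →
      A i ∩ l.Bd t lam ⊆ N → N' ⊆ A i' ∩ l.Bd t (3 * lam) → IsPathConnected N' →
      A i' ∩ l.Bd t lam ⊆ N' → (∀ w ∈ A i, w ∈ A i' → w ∉ l.Bd t (3 * lam)) →
      (N ⊆ Up (-1) 2 (A i') ∨ N' ⊆ Up (-1) 2 (A i)) ∧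
        (N' ⊆ Up (-1) 2 (A i) → Up (-1) 2 (A i') ∩ Λ ⊆ Up (-1) 2 (A i)) := by
    intro i hi i' hi' N N' a1 a2 a3 b1 b2 b3 hd
    have c := hS.crs i hi
    have c' := hS.crs i' hi'
    obtain ⟨e1, e2⟩ := ends h hL (c.cpt.union c'.cpt)
    have := upP'.tri (-1) 2 (A i) (A i') Λ N N' c c' hΛ hL.conn e1 e2
      (fun w hw => c.sub (a1 hw).1) (fun w hw => c'.sub (b1 hw).1) a2 b2
      (fun w hw => a3 ⟨hw.1, hL.sub hw.2⟩)
      (disjoint_left.2 fun w hw hw' => hd w (a1 hw).1 hw' (a1 hw).2)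
      (fun w hw => b3 ⟨hw.1, hL.sub hw.2⟩)
      (disjoint_left.2 fun w hw hw' => hd w hw' (b1 hw).1 (b1 hw).2)
    exact ⟨this.1, this.2.2⟩
  obtain ⟨N, a1, a2, a3⟩ := hS.win j hj
  have hzN := a3 hz.1
  have hV := abs_le.1 (hS.hV z ⟨mid hL hz.1.2, hz.2⟩ q ⟨mid hL (hL.sub hq.1), hq.2⟩)
  have hB := hG.1
  constructor
  · intro hqU
    have := wt_le hS.nonneg (X := {i | z ∈ Up (-1) 2 (A i)}) (Y := {i | q ∈ Up (-1) 2 (A i)})
      (B := {j' | (A j' ∩ (A j ∩ l.Bd t (3 * lam))).Nonempty}) fun i hi hX hB => by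
        obtain ⟨N', b1, b2, b3⟩ := hS.win i hi
        refine (tri i hi j hj N' N b1 b2 b3 a1 a2 a3 fun w h1 h2 h3 => hB ⟨w, h1, h2, h3⟩).2
          (fun w hw => up_join ((a2.joinedIn w hw z hzN).mono fun y hy =>
            ⟨(hS.crs j hj).sub (a1 hy).1, fun hy' => hB ⟨y, hy', a1 hy⟩⟩) hX) ⟨hqU, hq.1⟩
    linarith [hV.2]
  · intro hqU
    have := wt_le hS.nonneg (X := {i | q ∈ Up (-1) 2 (A i)}) (Y := {i | z ∈ Up (-1) 2 (A i)})
      (B := {j' | (A j' ∩ (A j ∩ l.Bd t (3 * lam))).Nonempty}) fun i hi hX hB => by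
        obtain ⟨N', b1, b2, b3⟩ := hS.win i hi
        obtain ⟨h1, h2⟩ := tri j hj i hi N N' a1 a2 a3 b1 b2 b3 fun w h1 h2 h3 => hB ⟨w, h2, h1, h3⟩
        rcases h1 with h1 | h1
        · exact h1 hzN
        · exact absurd (h2 h1 ⟨hX, hq.1⟩) hqU
    linarith [hV.1]

end Vale.Agent.P198
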