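import Vale.Agent.P198.A.Stm

/-! Lifting walks to the universal cover of the ring. -/

open Set Metric Topology Filter

namespace Vale.Agent.P198

variable {G Z : Type*} [Group G] [MetricSpace Z] [MulAction G Z] [CompactSpace Z]
  {D : Dyn G Z} {E : Geo Z} {R : Ring Z}

namespace ALf

omit [CompactSpace Z] in
theorem re_eq (R : Ring Z) {w w' : ℂ} (h : R.p w = R.p w') : w'.re = w.re := by
  obtain ⟨k, rfl⟩ := R.inj w w' h
  simp [TT]

/-- The section property at scales `ε`, `δ`. -/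
def Sec (R : Ring Z) (ε δ : ℝ) : Prop :=
  ∀ w ∈ strip (-1) 2, ∃ s : Z → ℂ,
    ContinuousOn s (ball (R.p w) δ) ∧ s (R.p w) = w ∧
      ∀ y ∈ ball (R.p w) δ, R.p (s y) = y ∧ s y ∈ ball w ε

omit [CompactSpace Z] in
theorem near {ε δ : ℝ} (hs : Sec R ε δ) {w : ℂ} (h0 : -1 ≤ w.re) (h1 : w.re ≤ 2) {y : Z}
    (hy : dist y (R.p w) < δ) : ∃ v, R.p v = y ∧ |v.re - w.re| < ε := by
  obtain ⟨s, -, -, h⟩ := hs w ⟨h0, h1⟩
  obtain ⟨h2, h3⟩ := h y hy
  refine ⟨s y, h2, ?_⟩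
  rw [← Complex.sub_re]
  exact (Complex.abs_re_le_norm _).trans_lt (by rwa [mem_ball, dist_eq_norm] at h3)

omit [CompactSpace Z] in
theorem mid (R : Ring Z) {x : Z} (h0 : x ∉ R.E0) (h1 : x ∉ R.E1) :
    ∃ w, R.p w = x ∧ 0 < w.re ∧ w.re < 1 := by
  obtain ⟨w, rfl⟩ := R.mid x h0 h1
  exact ⟨w, rfl, not_le.1 fun h => h0 ((R.mem0 w).2 h), not_le.1 fun h => h1 ((R.mem1 w).2 h)⟩

omit [CompactSpace Z] in
theorem step (E : Geo Z) {ε δ r : ℝ} (hs : Sec R ε δ) {w : ℂ} (h0 : -1 ≤ w.re) (h1 : w.re ≤ 2)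
    {y : Z} (hy : E.Λ * dist (R.p w) y < r) (hr : r ≤ δ) :
    ∃ (w' : ℂ) (L : Set ℂ), R.p w' = y ∧ IsCompact L ∧ IsPathConnected L ∧ w ∈ L ∧ w' ∈ L ∧
      L ⊆ ball w ε ∧ ∀ v ∈ L, dist (R.p v) (R.p w) < r := by
  obtain ⟨s, hc, hw, h⟩ := hs w ⟨h0, h1⟩
  obtain ⟨γ, hγ⟩ := E.llc (R.p w) y
  have hr' : ∀ z ∈ range γ, dist z (R.p w) < r := by
    rintro _ ⟨t, rfl⟩
    exact lt_of_le_of_lt (hγ t) hy
  have hsub : range γ ⊆ ball (R.p w) δ := fun z hz => (hr' z hz).trans_le hr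
  have hy' : y ∈ range γ := ⟨1, γ.target⟩
  have hpc : IsPathConnected (range γ) :=
    γ.extend_range ▸ isPathConnected_range γ.continuous_extend
  refine ⟨s y, s '' range γ, (h y (hsub hy')).1,
    (isCompact_range γ.continuous).image_of_continuousOn (hc.mono hsub),
    hpc.image' (hc.mono hsub),
    ⟨_, ⟨0, γ.source⟩, hw⟩, ⟨y, hy', rfl⟩, ?_, ?_⟩
  · rintro _ ⟨z, hz, rfl⟩
    exact (h z (hsub hz)).2
  · rintro _ ⟨z, hz, rfl⟩
    rw [(h z (hsub hz)).1]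
    exact hr' z hz

omit [CompactSpace Z] in
theorem good {ε δ : ℝ} (hε : 0 < ε) (hs : Sec R ε δ) {n k : ℕ} {d : ℕ → G}
    (h : D.IsCh R.E0 R.E1 n k d) (hδ : 4 * D.C * D.q ^ n < δ) (hd : 8 * D.C * D.q ^ n < R.d1) :
    0 < k ∧ ∀ j ≤ k, ∃ v, R.p v = D.pt (d j) ∧ -ε < v.re ∧ v.re < 1 + ε ∧
      (j = 0 → |v.re| < ε) ∧ (j = k → |v.re - 1| < ε) := by
  have hq := mul_pos D.C_pos (D.qpow_pos n)
  obtain ⟨-, x, hx, hx'⟩ := D.mem_hit.1 h.st
  obtain ⟨-, y, hy, hy'⟩ := D.mem_hit.1 h.en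
  have hxy := R.sep x hx y hy
  have hk : 2 ≤ k := by
    by_contra hk
    have : k = 0 ∨ k = 1 := by omega
    rcases this with rfl | rfl
    · linarith [dist_triangle_right x y (D.pt (d 0))]
    · have h1 := h.wk.adj 0 one_pos
      rw [zero_add] at h1
      linarith [dist_triangle_right x y (D.pt (d 1)), dist_triangle x (D.pt (d 0)) (D.pt (d 1))]
  have n0 : ∀ j, 0 < j → j ≤ k → D.pt (d j) ∉ R.E0 := fun j h1 h2 h3 =>
    h.nst j h1 h2 (D.mem_hit.2 ⟨h.wk.lev j h2, _, h3, by rw [dist_self]; linarith⟩)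
  have n1 : ∀ j, j < k → D.pt (d j) ∉ R.E1 := fun j h1 h3 =>
    h.nen j h1 (D.mem_hit.2 ⟨h.wk.lev j h1.le, _, h3, by rw [dist_self]; linarith⟩)
  refine ⟨by omega, fun j hj => ?_⟩
  rcases Nat.eq_zero_or_pos j with rfl | hj0
  · suffices H : ∃ v, R.p v = D.pt (d 0) ∧ |v.re| < ε by
      obtain ⟨v, h1, h2⟩ := H
      have h3 := abs_lt.1 h2
      exact ⟨v, h1, h3.1, by linarith [h3.2], fun _ => h2, fun h => by omega⟩
    by_cases h0 : D.pt (d 0) ∈ R.E0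
    · obtain ⟨w, hw, a, b⟩ := mid R (n0 1 one_pos (by omega)) (n1 1 (by omega))
      have h1 := h.wk.adj 0 (by omega)
      rw [zero_add] at h1
      obtain ⟨v, hv, hv'⟩ := near hs (w := w) (by linarith) (by linarith) (y := D.pt (d 0))
        (by rw [hw]; linarith)
      have h2 := (R.mem0 v).1 (hv ▸ h0)
      have h3 := abs_lt.1 hv'
      exact ⟨v, hv, abs_lt.2 ⟨by linarith [h3.1], by linarith⟩⟩
    · obtain ⟨w, hw, a, b⟩ := mid R h0 (n1 0 (by omega))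
      obtain ⟨v, hv, hv'⟩ := near hs (w := w) (by linarith) (by linarith) (y := x)
        (by rw [hw]; linarith)
      have h2 := (R.mem0 v).1 (hv ▸ hx)
      have h3 := abs_lt.1 hv'
      exact ⟨w, hw, abs_lt.2 ⟨by linarith, by linarith [h3.1]⟩⟩
  rcases hj.eq_or_lt with rfl | hjk
  · suffices H : ∃ v, R.p v = D.pt (d j) ∧ |v.re - 1| < ε by
      obtain ⟨v, h1, h2⟩ := H
      have h3 := abs_lt.1 h2
      exact ⟨v, h1, by linarith [h3.1], by linarith [h3.2], fun h => by omega, fun _ => h2⟩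
    by_cases h0 : D.pt (d j) ∈ R.E1
    · obtain ⟨w, hw, a, b⟩ := mid R (n0 (j - 1) (by omega) (by omega)) (n1 (j - 1) (by omega))
      have h1 := h.wk.adj (j - 1) (by omega)
      rw [Nat.sub_add_cancel (by omega), dist_comm] at h1
      obtain ⟨v, hv, hv'⟩ := near hs (w := w) (by linarith) (by linarith) (y := D.pt (d j))
        (by rw [hw]; linarith)
      have h2 := (R.mem1 v).1 (hv ▸ h0)
      have h3 := abs_lt.1 hv'
      exact ⟨v, hv, abs_lt.2 ⟨by linarith, by linarith [h3.2]⟩⟩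
    · obtain ⟨w, hw, a, b⟩ := mid R (n0 j hj0 le_rfl) h0
      obtain ⟨v, hv, hv'⟩ := near hs (w := w) (by linarith) (by linarith) (y := y)
        (by rw [hw]; linarith)
      have h2 := (R.mem1 v).1 (hv ▸ hy)
      have h3 := abs_lt.1 hv'
      exact ⟨w, hw, abs_lt.2 ⟨by linarith [h3.2], by linarith⟩⟩
  · obtain ⟨w, hw, a, b⟩ := mid R (n0 j hj0 hj) (n1 j hjk)
    exact ⟨w, hw, by linarith, by linarith, fun h => by omega, fun h => by omega⟩

end ALf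

open ALf in
theorem lfP (D : Dyn G Z) (E : Geo Z) (R : Ring Z) : LfP D E R := by
  intro ε hε
  have hε' : 0 < min ε (1 / 2) := lt_min hε (by norm_num)
  have e1 : min ε (1 / 2) ≤ ε := min_le_left _ _
  have e2 : min ε (1 / 2) ≤ 1 / 2 := min_le_right _ _
  obtain ⟨δ, hδ, hs⟩ := R.sec _ hε'
  filter_upwards [D.ev_small (4 * D.C * E.Λ) δ hδ, D.ev_small (8 * D.C) R.d1 R.d1_pos]
    with n h1 h2 k d h
  have hq := mul_pos D.C_pos (D.qpow_pos n)
  have hΛ := E.one_le_Λ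
  have h1' : 4 * D.C * D.q ^ n < δ := by nlinarith
  obtain ⟨hk, hg⟩ := good hε' hs h h1' h2
  have hre : ∀ j ≤ k, ∀ w, R.p w = D.pt (d j) → -min ε (1 / 2) < w.re ∧
      w.re < 1 + min ε (1 / 2) ∧ (j = 0 → |w.re| < min ε (1 / 2)) ∧
      (j = k → |w.re - 1| < min ε (1 / 2)) := fun j hj w hw => by
    obtain ⟨v, hv, hv'⟩ := hg j hj
    rw [re_eq R (hv.trans hw.symm)]
    exact hv'
  have hst : ∀ (j : ℕ) (w : ℂ), ∃ (w' : ℂ) (L : Set ℂ), j < k → R.p w = D.pt (d j) →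
      R.p w' = D.pt (d (j + 1)) ∧ IsCompact L ∧ IsPathConnected L ∧ w ∈ L ∧ w' ∈ L ∧
      L ⊆ ball w (min ε (1 / 2)) ∧
      ∀ v ∈ L, dist (R.p v) (R.p w) < 4 * D.C * E.Λ * D.q ^ n := fun j w => by
    by_cases hj : j < k ∧ R.p w = D.pt (d j)
    · obtain ⟨a, b, -⟩ := hre j hj.1.le w hj.2
      have h3 := h.wk.adj j hj.1
      obtain ⟨w', L, H⟩ := step E hs (w := w) (by linarith) (by linarith)
        (y := D.pt (d (j + 1))) (r := 4 * D.C * E.Λ * D.q ^ n) (by rw [hj.2]; nlinarith) h1.le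
      exact ⟨w', L, fun _ _ => H⟩
    · exact ⟨0, ∅, fun a b => absurd ⟨a, b⟩ hj⟩
  choose f L hf using hst
  obtain ⟨w0, hw0, -⟩ := hg 0 (Nat.zero_le _)
  let w : ℕ → ℂ := fun j => Nat.rec w0 f j
  have hw : ∀ j ≤ k, R.p (w j) = D.pt (d j) := by
    intro j
    induction j with
    | zero => exact fun _ => hw0
    | succ j ih => exact fun hj => (hf j (w j) hj (ih (by omega))).1
  have H := fun j (hj : j < k) => hf j (w j) hj (hw j hj.le)
  refine ⟨w, fun j => L j (w j), hk, hw, fun j hj => (H j hj).2.1, fun j hj => (H j hj).2.2.1,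
    fun j hj => (H j hj).2.2.2.1, fun j hj => (H j hj).2.2.2.2.1,
    fun j hj => (H j hj).2.2.2.2.2.1.trans (ball_subset_ball e1), fun j hj y hy => ?_,
    ((hre 0 (Nat.zero_le _) _ (hw 0 (Nat.zero_le _))).2.2.1 rfl).trans_le e1,
    ((hre k le_rfl _ (hw k le_rfl)).2.2.2 rfl).trans_le e1, fun j hj => ?_⟩
  · rw [← hw j hj.le]
    exact (H j hj).2.2.2.2.2.2 y hy
  · obtain ⟨a, b, -⟩ := hre j hj _ (hw j hj)
    constructor <;> linarith

end Vale.Agent.P198
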