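import Vale.Agent.P198.A.Stm

/-! Lower bound for the modulus and equicontinuity of the potentials. -/

open Set Metric Topology Filter

namespace Vale.Agent.P198

variable {G Z : Type*} [Group G] [MetricSpace Z] [MulAction G Z] [CompactSpace Z] {D : Dyn G Z}
  {E : Geo Z} {R : Ring Z}

namespace AMlo

theorem tele {f : ℕ → ℝ} {c : ℝ} (K : ℕ) (h : ∀ j < K, f (j + 1) - f j ≤ c) :
    f K - f 0 ≤ K * c := by
  induction K with
  | zero => simp
  | succ K ih =>
    have h1 := ih fun j hj => h j (by omega)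
    have h2 := h K (by omega)
    push_cast
    linarith

omit [CompactSpace Z] in
theorem chain (R : Ring Z) {r : ℝ} (hr : 0 < r) : ∃ (K : ℕ) (x : ℕ → Z), 0 < K ∧ x 0 ∈ R.E0 ∧
    x K ∈ R.E1 ∧ ∀ j < K, dist (x (j + 1)) (x j) < r := by
  obtain ⟨ε, hε, h⟩ := R.uc r hr
  obtain ⟨K, hK⟩ := exists_nat_one_div_lt hε
  have hp : (0 : ℝ) < (K : ℝ) + 1 := by positivity
  refine ⟨K + 1, fun j => R.p (((j : ℝ) / ((K : ℝ) + 1) : ℝ) : ℂ), by omega, ?_, ?_,
    fun j hj => h _ ?_ _ ?_⟩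
  · rw [R.mem0, Complex.ofReal_re]
    simp
  · rw [R.mem1, Complex.ofReal_re]
    push_cast
    rw [div_self hp.ne']
  · have h1 : (0 : ℝ) ≤ (j : ℝ) / ((K : ℝ) + 1) := by positivity
    have h2 : (j : ℝ) / ((K : ℝ) + 1) ≤ 1 := by
      rw [div_le_one hp]
      exact_mod_cast hj.le
    constructor <;> rw [Complex.ofReal_re] <;> linarith
  · rw [Complex.dist_of_im_eq (by rw [Complex.ofReal_im, Complex.ofReal_im]), Complex.ofReal_re,
      Complex.ofReal_re, Real.dist_eq]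
    have : ((j + 1 : ℕ) : ℝ) / ((K : ℝ) + 1) - (j : ℝ) / ((K : ℝ) + 1) = 1 / ((K : ℝ) + 1) := by
      push_cast
      ring
    rw [this, abs_of_pos (by positivity)]
    exact hK

end AMlo

theorem Seq.mloP (s : Seq D E R) (h1 : s.UC0P) (h2 : s.RhoP) : s.MloP := by
  obtain ⟨Cu, hCu, h1⟩ := h1
  obtain ⟨r, hr, h1⟩ := h1 1 one_pos
  obtain ⟨K, x, hK, x0, x1, hx⟩ := AMlo.chain R (half_pos hr)
  have hK' : (0 : ℝ) < K := by exact_mod_cast hK
  refine ⟨(1 / (2 * K)) ^ 2 / Cu, by positivity, ?_⟩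
  filter_upwards [h1 (1 / (4 * K)) (by positivity), h2 (1 / 4) (by norm_num),
    D.ev_small (2 * D.C) (r / 4) (by positivity)] with n a1 a2 a3
  choose g hg hd using fun j => D.exists_hit n (x j)
  have key := AMlo.tele (f := fun j => (s.P n).u (g j)) K fun j hj =>
    a1 (g j) (g (j + 1)) (hg j) (hg _) (by
      have t1 := dist_triangle4 (D.pt (g j)) (x j) (x (j + 1)) (D.pt (g (j + 1)))
      have t2 := hd j
      have t3 := hd (j + 1)
      have t4 := hx j hj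
      rw [dist_comm] at t2 t4
      linarith)
  have b0 := (s.P n).u_st (g 0) (D.mem_hit.2 ⟨hg 0, _, x0, hd 0⟩)
  have b1 := (s.P n).u_en (g K) (D.mem_hit.2 ⟨hg K, _, x1, hd K⟩)
  have b2 := a2 (g 0)
  have e1 : (K : ℝ) * (1 / (4 * K)) = 1 / 4 := by field_simp
  rw [mul_add, e1, Nat.cast_one, div_one] at key
  have b3 : 1 / (2 * (K : ℝ)) ≤ √(Cu * (s.P n).M) := by
    rw [div_le_iff₀ (by positivity)]
    linarith
  rw [Real.le_sqrt' (by positivity)] at b3
  rw [div_le_iff₀ hCu]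
  linarith

theorem Seq.ucP (s : Seq D E R) (h1 : s.UC0P) (h2 : s.MupP) : s.UCP := by
  obtain ⟨Cu, hCu, h1⟩ := h1
  obtain ⟨C', hC', h2⟩ := h2
  intro κ hκ
  obtain ⟨N, hN⟩ := exists_nat_gt (Cu * C' / (κ / 2) ^ 2)
  have hN' : (0 : ℝ) < N := lt_trans (by positivity) hN
  obtain ⟨r, hr, h1⟩ := h1 N (by exact_mod_cast hN')
  refine ⟨r, hr, ?_⟩
  filter_upwards [h1 (κ / 2) (half_pos hκ), h2] with n a1 a2 g g' hg hg' hd
  have b : √(Cu * (s.P n).M / N) ≤ κ / 2 := by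
    rw [Real.sqrt_le_left (half_pos hκ).le, div_le_iff₀ hN']
    rw [div_lt_iff₀ (by positivity)] at hN
    have := mul_le_mul_of_nonneg_left a2 hCu.le
    linarith
  have c1 := a1 g g' hg hg' hd
  have c2 := a1 g' g hg' hg (by rwa [dist_comm])
  rw [abs_le]
  constructor <;> linarith

end Vale.Agent.P198
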