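import Vale.Agent.P198.A.Stm

/-! Part II-a: upper bound for the mass of the flow. -/

open Set Metric Topology Filter

namespace Vale.Agent.P198

variable {G Z : Type*} [Group G] [MetricSpace Z] [MulAction G Z] [CompactSpace Z] {D : Dyn G Z}
  {E : Geo Z} {R : Ring Z}

namespace AMup

omit [CompactSpace Z] in
theorem big (hR : RealP D E) {n k : ℕ} {d : ℕ → G} (h : D.IsCh R.E0 R.E1 n k d)
    (hn : 8 * D.C * D.q ^ n < R.d1) :
    {y | ∃ j, 0 ≤ j ∧ j ≤ k ∧ dist y (D.pt (d j)) < 4 * D.C * E.Λ * D.q ^ n} ∈ Big Z (R.d1 / 2) := by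
  refine ⟨_, _, hR n k d h.wk 0 k (Nat.zero_le _) le_rfl, ?_⟩
  obtain ⟨-, x, hx, h1⟩ := D.mem_hit.1 h.st
  obtain ⟨-, y, hy, h2⟩ := D.mem_hit.1 h.en
  have h3 := R.sep x hx y hy
  have h4 := dist_triangle4 x (D.pt (d 0)) (D.pt (d k)) y
  rw [dist_comm (D.pt (d k)) y] at h4
  linarith

end AMup

theorem Seq.mupP (s : Seq D E R) (hR : RealP D E) (hC : CSP D) (hS : SprP D) (hB : BigP D) :
    s.MupP := by
  classical
  obtain ⟨B, hB0, hB⟩ := hB (R.d1 / 2) (half_pos R.d1_pos)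
  obtain ⟨N, hN0, hN⟩ := hS (4 * D.C * E.Λ)
  refine ⟨N * B, mul_pos hN0 hB0, ?_⟩
  filter_upwards [hB, D.ev_small (8 * D.C) R.d1 R.d1_pos] with n ⟨τ, hτ, hm, hA⟩ hn
  obtain ⟨σ, hσ, hσm, hσl⟩ := hN n τ hτ
  have h1 : ∀ i ∈ (s.P n).T, 1 ≤ ∑ j ∈ Finset.range ((s.P n).m i + 1), σ ((s.P n).c i j) := by
    intro i hi
    refine (hA _ (AMup.big hR ((s.P n).ch i hi) hn)).trans (hσl _ _ _ ?_)
    rintro y ⟨j, -, hj, hy⟩
    exact ⟨j, Finset.mem_range.2 (Nat.lt_succ_of_le hj), hy⟩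
  have h2 := hC n R.E0 R.E1 (s.P n).toFlow σ (s.P n).T (fun _ => True) hσ subset_rfl
  simp only [Finset.filter_true] at h2
  have h3 : ∑ i ∈ (s.P n).T, (s.P n).μ i *
      ∑ j ∈ Finset.range ((s.P n).m i + 1), (s.P n).ρ ((s.P n).c i j) = 1 := by
    rw [← (s.P n).μ_sum]
    exact Finset.sum_congr rfl fun i hi => by rw [(s.P n).tot i hi, mul_one]
  have h4 : 1 ≤ ∑ i ∈ (s.P n).T, (s.P n).μ i *
      ∑ j ∈ Finset.range ((s.P n).m i + 1), σ ((s.P n).c i j) := by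
    rw [← (s.P n).μ_sum]
    exact Finset.sum_le_sum fun i hi =>
      le_mul_of_one_le_right ((s.P n).μ_pos i hi).le (h1 i hi)
  rw [h3, mul_one] at h2
  have h5 := le_mul_of_one_le_left (s.P n).M_pos.le (one_le_pow₀ (n := 2) h4)
  have h6 := mul_le_mul_of_nonneg_left hm hN0.le
  linarith

end Vale.Agent.P198
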