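import Vale.Agent.P198.A.Stm

/-! The oscillation of the limit map along a path. -/

open Set Metric Topology Filter

namespace Vale.Agent.P198

variable {G Z : Type*} [Group G] [MetricSpace Z] [MulAction G Z] [CompactSpace Z] {D : Dyn G Z}
  {E : Geo Z} {R : Ring Z}

omit [CompactSpace Z] in
theorem Seq.oscP (s : Seq D E R) {l : PL} (hl : s.Is l) (h1 : s.VnP) (h2 : s.Cnt1P)
    (hM : s.MloP) : s.OscP l := by
  obtain ⟨c, hc, hM⟩ := hM
  obtain ⟨U, hU, hUe⟩ := hl.hU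
  refine ⟨1 + 1 / c, by positivity, fun κ hκ => ?_⟩
  have hκ' : 0 < κ / 3 := by positivity
  have hle : (hyperfilter ℕ : Filter ℕ) ≤ atTop := Nat.hyperfilter_le_atTop
  filter_upwards [hU.app (2 * D.C) (κ / 3) hκ', hl.hV.app (κ / 3) hκ', hle hM, hle h1.osc,
    hle (h2 l.θ l.θ_pos)] with n a1 a2 a3 a4 a5 Q w0 x y hQ hJ
  have hθ := l.θ_pos
  have hθ' := l.θ_lt
  have hρ := (s.P n).toFlow.ρ_nonneg
  obtain ⟨g, hg, dg⟩ := D.exists_hit n (R.p x)
  obtain ⟨g', hg', dg'⟩ := D.exists_hit n (R.p y)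
  have hJ' : JoinedIn (R.p '' Q) (R.p x) (R.p y) := hJ.map R.cont
  have b1 := (s.P n).plen _ _ _ g g' hJ' hg hg' dg dg'
  have b2 := (s.P n).plen _ _ _ g' g hJ'.symm hg' hg dg' dg
  have b3 : D.ln n (s.P n).ρ (R.p '' Q) ≤
      ∑ g ∈ D.near n (4 * D.C * E.Λ) (R.p '' Q), (s.P n).ρ g := by
    refine Finset.sum_le_sum_of_subset_of_nonneg (D.near_mono n ?_ subset_rfl) fun g _ _ => hρ g
    have := D.C_pos
    have := E.one_le_Λ
    nlinarith
  have b4 := abs_le.1 (a1 g _ hg dg)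
  have b5 := abs_le.1 (a1 g' _ hg' dg')
  have c1 := abs_le.1 (a2 x (hQ hJ.source_mem).1 y (hQ hJ.target_mem).1)
  have c2 := abs_le.1 (a4 Q x y w0 (fun w hw => ⟨⟨by linarith [(hQ hw).1.1],
    by linarith [(hQ hw).1.2]⟩, (hQ hw).2⟩) hJ)
  have c3 := a5 Q w0 hQ
  have c0 : 0 ≤ s.cnt n Q := by linarith [c2.1, c2.2]
  have c4 : s.cnt n Q ≤ 1 / c * ∑ g ∈ D.near n (4 * D.C * E.Λ) (R.p '' Q), (s.P n).ρ g := by
    rw [one_div, le_inv_mul_iff₀ hc]
    exact (mul_le_mul_of_nonneg_right a3 c0).trans c3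
  refine (Complex.norm_le_abs_re_add_abs_im _).trans ?_
  have d1 : |(l.f x - l.f y).re| ≤
      ∑ g ∈ D.near n (4 * D.C * E.Λ) (R.p '' Q), (s.P n).ρ g + 2 * (κ / 3) := by
    rw [Complex.sub_re, show (l.f x).re = U (R.p x) from hUe x,
      show (l.f y).re = U (R.p y) from hUe y, abs_le]
    constructor <;> linarith [b4.1, b4.2, b5.1, b5.2]
  have d2 : |(l.f x - l.f y).im| ≤ s.cnt n Q + κ / 3 := by
    rw [Complex.sub_im, show (l.f x).im = l.V x from rfl, show (l.f y).im = l.V y from rfl, abs_le]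
    constructor <;> linarith [c1.1, c1.2, c2.1, c2.2]
  linarith

end Vale.Agent.P198
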