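import Vale.Agent.P198.A.Stm

open Set Metric Topology Filter

namespace Vale.Agent.P198

variable {G Z : Type*} [Group G] [MetricSpace Z] [MulAction G Z] [CompactSpace Z] {D : Dyn G Z}
  {E : Geo Z} {R : Ring Z}

theorem Seq.plP (s : Seq D E R) (h1 : s.ULimP) (h2 : s.VLimP) : s.PLP := by
  obtain ⟨U, hU⟩ := h1
  obtain ⟨δ, hδ, hd⟩ := Metric.uniformContinuous_iff.1
    (CompactSpace.uniformContinuous_of_continuous hU.cont) (1 / 8) (by norm_num)
  obtain ⟨ε, hε, he⟩ := R.uc δ hδ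
  set θ : ℝ := min (ε / 4) (1 / 8) with hθ
  have θ0 : 0 < θ := lt_min (by linarith) (by norm_num)
  have θ1 : θ ≤ 1 / 8 := min_le_right _ _
  have θ2 : θ ≤ ε / 4 := min_le_left _ _
  obtain ⟨V, hV⟩ := h2 θ θ0 (by linarith)
  have key : ∀ (w : ℂ) (c : ℝ), 0 ≤ c → c ≤ 1 → |w.re - c| ≤ 2 * θ →
      |U (R.p w) - U (R.p ⟨c, w.im⟩)| < 1 / 8 := by
    intro w c hc0 hc1 hw
    have h3 : dist w ⟨c, w.im⟩ < ε := by
      rw [Complex.dist_of_im_eq (z := w) (w := ⟨c, w.im⟩) rfl, Real.dist_eq]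
      show |w.re - c| < ε
      linarith
    have h4 := he ⟨c, w.im⟩ ⟨by show (-1 : ℝ) ≤ c; linarith, by show c ≤ 2; linarith⟩ w h3
    have h5 := hd h4
    rwa [Real.dist_eq] at h5
  refine ⟨⟨fun w => U (R.p w), V, θ, θ0, by linarith, hU.cont.comp R.cont,
    fun w k => by rw [R.per], fun w hw => ?_, fun w hw => ?_, hV.cont, hV.per⟩,
    ⟨U, hU, fun _ => rfl⟩, hV⟩
  · rcases le_total w.re 0 with h | h
    · rw [hU.zero _ ((R.mem0 w).2 h)]
      norm_num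
    · have h3 := key w 0 le_rfl zero_le_one (by rw [sub_zero, abs_of_nonneg h]; exact hw)
      rw [hU.zero _ ((R.mem0 ⟨0, w.im⟩).2 le_rfl)] at h3
      linarith [(abs_lt.1 h3).2]
  · rcases le_total 1 w.re with h | h
    · rw [hU.one _ ((R.mem1 w).2 h)]
      norm_num
    · have h3 := key w 1 zero_le_one le_rfl (by rw [abs_le]; constructor <;> linarith)
      rw [hU.one _ ((R.mem1 ⟨1, w.im⟩).2 le_rfl)] at h3
      linarith [(abs_lt.1 h3).1]

end Vale.Agent.P198
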