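import Vale.Agent.P198.A.Stm

/-! The potential of the extremal flow. -/

open Set Metric Topology Filter

namespace Vale.Agent.P198

variable {G Z : Type*} [Group G] [MetricSpace Z] [MulAction G Z] [CompactSpace Z] {D : Dyn G Z}
  {E : Geo Z} {R : Ring Z}

namespace APot

omit [CompactSpace Z] in
theorem joined (D : Dyn G Z) (x y : Z) : JoinedIn univ x y := by
  classical
  obtain ⟨ψ0, h0, -⟩ := D.chart x
  have hinf : Infinite Z := Infinite.of_injective ψ0 h0.injective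
  obtain ⟨b, hb⟩ := Infinite.exists_notMem_finset ({x, y} : Finset Z)
  simp only [Finset.mem_insert, Finset.mem_singleton, not_or] at hb
  obtain ⟨ψ, h1, h2⟩ := D.chart b
  have hx : x ∈ range ψ := by rw [h2]; exact fun h => hb.1 (Eq.symm h)
  have hy : y ∈ range ψ := by rw [h2]; exact fun h => hb.2 (Eq.symm h)
  exact ((isPathConnected_range h1.continuous).joinedIn x hx y hy).mono (subset_univ _)

variable {n : ℕ} {E0 E1 : Set Z}

/-- The values of the walks from `E0` to `g`. -/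
def Val (F : Flow D n E0 E1) (g : G) : Set ℝ :=
  {s | ∃ (k : ℕ) (d : ℕ → G), D.Wk n k d ∧ d 0 ∈ D.hit n E0 ∧ d k = g ∧
    s = ∑ j ∈ Finset.range (k + 1), F.ρ (d j)}

/-- The potential. -/
noncomputable def pu (F : Flow D n E0 E1) (g : G) : ℝ := sInf (Val F g)

omit [CompactSpace Z] in
theorem conn (h : CTP D) {g g' : G} (hg : D.len g = n) (hg' : D.len g' = n) :
    ∃ (k : ℕ) (d : ℕ → G), D.Wk n k d ∧ d 0 = g ∧ d k = g' := by
  have hp : 0 < 2 * D.C * D.q ^ n := mul_pos (mul_pos two_pos D.C_pos) (D.qpow_pos n)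
  obtain ⟨k, d, h1, h2, h3, -⟩ := h n univ (D.pt g) (D.pt g') g g' (joined D _ _) hg hg'
    (by rwa [dist_self]) (by rwa [dist_self])
  exact ⟨k, d, h1, h2, h3⟩

omit [CompactSpace Z] in
theorem T_ne (F : Flow D n E0 E1) : F.T.Nonempty := by
  rw [Finset.nonempty_iff_ne_empty]
  intro h
  have := F.μ_sum
  rw [h, Finset.sum_empty] at this
  exact zero_ne_one this

omit [CompactSpace Z] in
theorem val_ne (h : CTP D) (F : Flow D n E0 E1) {g : G} (hg : D.len g = n) :
    (Val F g).Nonempty := by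
  obtain ⟨i, hi⟩ := T_ne F
  obtain ⟨k, d, h1, h2, h3⟩ := conn h ((F.ch i hi).wk.lev 0 (Nat.zero_le _)) hg
  exact ⟨_, k, d, h1, by rw [h2]; exact (F.ch i hi).st, h3, rfl⟩

omit [CompactSpace Z] in
theorem val_wf (F : Flow D n E0 E1) (g : G) : (Val F g).IsWF := by
  have hf : (F.ρ '' (D.lev n : Set G)).Finite := (D.lev n).finite_toSet.image _
  have hp := hf.isPWO.addSubmonoid_closure (by
    rintro x ⟨a, -, rfl⟩
    exact F.ρ_nonneg a)
  refine (hp.mono ?_).isWF
  rintro s ⟨k, d, h1, -, -, rfl⟩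
  refine AddSubmonoid.sum_mem _ fun j hj => AddSubmonoid.subset_closure ⟨d j, ?_, rfl⟩
  exact D.mem_lev.2 (h1.lev j (Nat.lt_succ_iff.1 (Finset.mem_range.1 hj)))

omit [CompactSpace Z] in
theorem pu_least (h : CTP D) (F : Flow D n E0 E1) {g : G} (hg : D.len g = n) :
    IsLeast (Val F g) (pu F g) := by
  have hl : IsLeast (Val F g) ((val_wf F g).min (val_ne h F hg)) :=
    ⟨(val_wf F g).min_mem _, fun _ ha => (val_wf F g).min_le _ ha⟩
  rw [pu, hl.csInf_eq]
  exact hl

omit [CompactSpace Z] in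
theorem wk_mono {k k' : ℕ} {d : ℕ → G} (hd : D.Wk n k d) (hk : k' ≤ k) : D.Wk n k' d :=
  ⟨fun j hj => hd.lev j (hj.trans hk), fun j hj => hd.adj j (hj.trans_le hk)⟩

omit [CompactSpace Z] in
theorem pu_le (h : CTP D) (F : Flow D n E0 E1) {k : ℕ} {d : ℕ → G} (hd : D.Wk n k d)
    (h0 : d 0 ∈ D.hit n E0) {j : ℕ} (hj : j ≤ k) :
    pu F (d j) ≤ ∑ j' ∈ Finset.range (j + 1), F.ρ (d j') :=
  (pu_least h F (hd.lev j hj)).2 ⟨j, d, wk_mono hd hj, h0, rfl, rfl⟩

omit [CompactSpace Z] in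
theorem pu_step (h : CTP D) (F : Flow D n E0 E1) {g g' : G} (hg : D.len g = n)
    (hg' : D.len g' = n) (ha : dist (D.pt g) (D.pt g') < 4 * D.C * D.q ^ n) :
    pu F g' ≤ pu F g + F.ρ g' := by
  classical
  obtain ⟨k, d, h1, h2, h3, h4⟩ := (pu_least h F hg).1
  have e1 : ∀ j ≤ k, Function.update d (k + 1) g' j = d j := fun j hj =>
    Function.update_of_ne (by omega) _ _
  have e2 : Function.update d (k + 1) g' (k + 1) = g' := Function.update_self _ _ _
  have hw : D.Wk n (k + 1) (Function.update d (k + 1) g') := by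
    refine ⟨fun j hj => ?_, fun j hj => ?_⟩
    · rcases Nat.lt_or_ge k j with hh | hh
      · obtain rfl : j = k + 1 := by omega
        rw [e2]; exact hg'
      · rw [e1 j hh]; exact h1.lev j hh
    · rcases Nat.lt_or_ge j k with hh | hh
      · rw [e1 j hh.le, e1 (j + 1) hh]; exact h1.adj j hh
      · obtain rfl : j = k := by omega
        rw [e1 j le_rfl, e2, h3]; exact ha
  have := pu_le h F hw (by rw [e1 0 (Nat.zero_le _)]; exact h2) le_rfl
  rw [Finset.sum_range_succ, e2] at this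
  rw [h4]
  refine this.trans (le_of_eq ?_)
  congr 1
  exact Finset.sum_congr rfl fun j hj => by
    rw [e1 j (Nat.lt_succ_iff.1 (Finset.mem_range.1 hj))]

omit [CompactSpace Z] in
theorem pu_walk (h : CTP D) (F : Flow D n E0 E1) {k : ℕ} {d : ℕ → G} (hd : D.Wk n k d)
    {a b : ℕ} (hab : a ≤ b) (hb : b ≤ k) :
    pu F (d b) + ∑ j ∈ Finset.range (a + 1), F.ρ (d j) ≤
      pu F (d a) + ∑ j ∈ Finset.range (b + 1), F.ρ (d j) := by
  induction b, hab using Nat.le_induction with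
  | base => exact le_rfl
  | succ b hab ih =>
    have h1 := ih (by omega)
    have h2 := pu_step h F (hd.lev b (by omega)) (hd.lev (b + 1) hb) (hd.adj b (by omega))
    rw [Finset.sum_range_succ _ (b + 1)]
    linarith

omit [CompactSpace Z] in
theorem pu_en (h : CTP D) (F : Flow D n E0 E1) {g : G} (hg : g ∈ D.hit n E1) : 1 ≤ pu F g := by
  obtain ⟨k, d, h1, h2, h3, h4⟩ := (pu_least h F (D.mem_hit.1 hg).1).1
  rw [h4]
  exact F.adm k d h1 h2 (by rw [h3]; exact hg)

omit [CompactSpace Z] in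
theorem pu_time (h : CTP D) (F : Flow D n E0 E1) {i : ℕ} (hi : i ∈ F.T) {j : ℕ}
    (hj : j ≤ F.m i) : pu F (F.c i j) = ∑ j' ∈ Finset.range (j + 1), F.ρ (F.c i j') := by
  refine le_antisymm (pu_le h F (F.ch i hi).wk (F.ch i hi).st hj) ?_
  have h1 := pu_walk h F (F.ch i hi).wk hj le_rfl
  have h2 := pu_en h F (F.ch i hi).en
  rw [F.tot i hi] at h1
  linarith

omit [CompactSpace Z] in
theorem down (h : CTP D) (F : Flow D n E0 E1) {g : G} (hg : D.len g = n) :
    ∃ (k : ℕ) (d : ℕ → G), D.Wk n k d ∧ d 0 ∈ D.hit n E0 ∧ d k = g ∧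
      ∀ j < k, pu F (d j) ≤ pu F (d (j + 1)) := by
  obtain ⟨k, d, h1, h2, h3, h4⟩ := (pu_least h F hg).1
  refine ⟨k, d, h1, h2, h3, fun j hj => ?_⟩
  have a1 := pu_le h F h1 h2 hj.le
  have a2 := pu_walk h F h1 (a := j + 1) hj le_rfl
  rw [h3, ← h4, Finset.sum_range_succ] at a2
  linarith [F.ρ_nonneg (d (j + 1))]

/-- There is a monotone walk from `g` to `E1`. -/
def Up (F : Flow D n E0 E1) (g : G) : Prop :=
  ∃ (k : ℕ) (d : ℕ → G), D.Wk n k d ∧ d 0 = g ∧ d k ∈ D.hit n E1 ∧ pu F (d k) ≤ 1 ∧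
    ∀ j < k, pu F (d j) ≤ pu F (d (j + 1))

omit [CompactSpace Z] in
theorem up_chain (h : CTP D) (F : Flow D n E0 E1) {i : ℕ} (hi : i ∈ F.T) {j : ℕ}
    (hj : j ≤ F.m i) : Up F (F.c i j) := by
  have e : j + (F.m i - j) = F.m i := by omega
  refine ⟨F.m i - j, fun l => F.c i (j + l), ⟨fun l hl => (F.ch i hi).wk.lev _ (by omega),
    fun l hl => (F.ch i hi).wk.adj (j + l) (by omega)⟩, rfl, ?_, ?_, fun l hl => ?_⟩
  · simp only [e]; exact (F.ch i hi).en
  · simp only [e]; rw [pu_time h F hi le_rfl, F.tot i hi]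
  · show pu F (F.c i (j + l)) ≤ pu F (F.c i (j + l + 1))
    rw [pu_time h F hi (by omega), pu_time h F hi (j := j + l + 1) (by omega),
      Finset.sum_range_succ _ (j + l + 1)]
    linarith [F.ρ_nonneg (F.c i (j + l + 1))]

omit [CompactSpace Z] in
theorem up_step (h : CTP D) (F : Flow D n E0 E1) {g g' : G} (hg : D.len g = n)
    (ha : dist (D.pt g) (D.pt g') < 4 * D.C * D.q ^ n) (hu : Up F g') : Up F g := by
  classical
  by_cases hc : ∃ i ∈ F.T, ∃ j ≤ F.m i, F.c i j = g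
  · obtain ⟨i, hi, j, hj, rfl⟩ := hc
    exact up_chain h F hi hj
  · have h0 : F.ρ g = 0 := by
      rw [F.ρ_def, Finset.sum_eq_zero, mul_zero]
      intro i hi
      exact absurd ⟨i, (Finset.mem_filter.1 hi).1, (Finset.mem_filter.1 hi).2⟩ hc
    obtain ⟨k, d, h1, h2, h3, h4, h5⟩ := hu
    have hg' : D.len g' = n := by rw [← h2]; exact h1.lev 0 (Nat.zero_le _)
    have h6 := pu_step h F hg' hg (by rwa [dist_comm])
    refine ⟨k + 1, fun j => Nat.casesOn j g d, ⟨fun j hj => ?_, fun j hj => ?_⟩, rfl, h3, h4,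
      fun j hj => ?_⟩
    · cases j with
      | zero => exact hg
      | succ j => exact h1.lev j (by omega)
    · cases j with
      | zero => show dist (D.pt g) (D.pt (d 0)) < _; rw [h2]; exact ha
      | succ j => exact h1.adj j (by omega)
    · cases j with
      | zero => show pu F g ≤ pu F (d 0); rw [h2]; linarith
      | succ j => exact h5 j (by omega)

omit [CompactSpace Z] in
theorem up_all (h : CTP D) (F : Flow D n E0 E1) {g : G} (hg : D.len g = n) : Up F g := by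
  obtain ⟨i, hi⟩ := T_ne F
  obtain ⟨k, d, h1, h2, h3⟩ := conn h hg ((F.ch i hi).wk.lev 0 (Nat.zero_le _))
  have key : ∀ l ≤ k, Up F (d (k - l)) := by
    intro l
    induction l with
    | zero => intro _; rw [Nat.sub_zero, h3]; exact up_chain h F hi (Nat.zero_le _)
    | succ l ih =>
      intro hl
      have e : k - l = k - (l + 1) + 1 := by omega
      have := ih (by omega)
      rw [e] at this
      exact up_step h F (h1.lev _ (by omega)) (h1.adj _ (by omega)) this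
  have := key k le_rfl
  rwa [Nat.sub_self, h2] at this

omit [CompactSpace Z] in
theorem pu_le_one (h : CTP D) (F : Flow D n E0 E1) {g : G} (hg : D.len g = n) : pu F g ≤ 1 := by
  obtain ⟨k, d, -, h2, -, h4, h5⟩ := up_all h F hg
  have key : ∀ l ≤ k, pu F (d 0) ≤ pu F (d l) := by
    intro l
    induction l with
    | zero => intro _; exact le_rfl
    | succ l ih => intro hl; exact (ih (by omega)).trans (h5 l (by omega))
  rw [← h2]
  exact (key k le_rfl).trans h4

omit [CompactSpace Z] in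
theorem thru (h : CTP D) (F : Flow D n E0 E1) {g : G} (hg : D.len g = n) :
    ∃ (k : ℕ) (d : ℕ → G) (j0 : ℕ), D.Wk n k d ∧ d 0 ∈ D.hit n E0 ∧
      d k ∈ D.hit n E1 ∧ j0 ≤ k ∧ d j0 = g ∧ ∀ j < k, pu F (d j) ≤ pu F (d (j + 1)) := by
  obtain ⟨k1, d1, a1, a2, a3, a4⟩ := down h F hg
  obtain ⟨k2, d2, b1, b2, b3, -, b5⟩ := up_all h F hg
  obtain ⟨d, e1, e2⟩ : ∃ d : ℕ → G, (∀ j ≤ k1, d j = d1 j) ∧ ∀ j, d (k1 + j) = d2 j := by
    refine ⟨fun j => if j ≤ k1 then d1 j else d2 (j - k1), fun j hj => if_pos hj, fun j => ?_⟩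
    rcases Nat.eq_zero_or_pos j with rfl | hj
    · simp [a3, b2]
    · simp only
      rw [if_neg (by omega), Nat.add_sub_cancel_left]
  refine ⟨k1 + k2, d, k1, ⟨fun j hj => ?_, fun j hj => ?_⟩, ?_, ?_, by omega, ?_, fun j hj => ?_⟩
  · rcases Nat.lt_or_ge j k1 with hh | hh
    · rw [e1 j hh.le]; exact a1.lev j hh.le
    · obtain ⟨l, rfl⟩ := Nat.exists_eq_add_of_le hh
      rw [e2]; exact b1.lev l (by omega)
  · rcases Nat.lt_or_ge j k1 with hh | hh
    · rw [e1 j hh.le, e1 (j + 1) hh]; exact a1.adj j hh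
    · obtain ⟨l, rfl⟩ := Nat.exists_eq_add_of_le hh
      rw [e2, Nat.add_assoc, e2]; exact b1.adj l (by omega)
  · rw [e1 0 (Nat.zero_le _)]; exact a2
  · rw [e2]; exact b3
  · rw [e1 k1 le_rfl]; exact a3
  · rcases Nat.lt_or_ge j k1 with hh | hh
    · rw [e1 j hh.le, e1 (j + 1) hh]; exact a4 j hh
    · obtain ⟨l, rfl⟩ := Nat.exists_eq_add_of_le hh
      rw [e2, Nat.add_assoc, e2]; exact b5 l (by omega)

omit [CompactSpace Z] in
theorem plen (h : CTP D) (F : Flow D n E0 E1) (P : Set Z) (x y : Z) (g g' : G)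
    (hP : JoinedIn P x y) (hg : D.len g = n) (hg' : D.len g' = n)
    (hx : dist x (D.pt g) < 2 * D.C * D.q ^ n) (hy : dist y (D.pt g') < 2 * D.C * D.q ^ n) :
    pu F g' ≤ pu F g + D.ln n F.ρ P := by
  classical
  obtain ⟨k, d, h1, h2, h3, h4, h5⟩ := h n P x y g g' hP hg hg' hx hy
  have a1 := pu_walk h F h1 (Nat.zero_le k) le_rfl
  rw [h2, h3] at a1
  have a2 : 0 ≤ ∑ j ∈ Finset.range (0 + 1), F.ρ (d j) :=
    Finset.sum_nonneg fun j _ => F.ρ_nonneg _
  have a3 : ∑ j ∈ Finset.range (k + 1), F.ρ (d j) ≤ D.ln n F.ρ P := by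
    rw [← Finset.sum_image (f := F.ρ) (g := d) fun j hj j' hj' e =>
      h5 j (Nat.lt_succ_iff.1 (Finset.mem_range.1 hj)) j'
        (Nat.lt_succ_iff.1 (Finset.mem_range.1 hj')) e]
    refine Finset.sum_le_sum_of_subset_of_nonneg (fun a ha => ?_) fun a _ _ => F.ρ_nonneg a
    obtain ⟨j, hj, rfl⟩ := Finset.mem_image.1 ha
    exact h4 j (Nat.lt_succ_iff.1 (Finset.mem_range.1 hj))
  linarith

end APot

theorem potEx (D : Dyn G Z) (h : CTP D) : PotEx D := by
  rintro n E0 E1 ⟨F⟩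
  refine ⟨{ F with
    u := APot.pu F
    time := fun i hi j hj => APot.pu_time h F hi hj
    u_nonneg := fun g hg => ?_
    u_le := fun g hg => APot.pu_le_one h F hg
    u_st := fun g hg => ?_
    u_en := fun g hg => APot.pu_en h F hg
    plen := APot.plen h F
    thru := fun g hg => APot.thru h F hg }⟩
  · obtain ⟨k, d, -, -, -, h4⟩ := (APot.pu_least h F hg).1
    rw [h4]
    exact Finset.sum_nonneg fun j _ => F.ρ_nonneg _
  · have hw : D.Wk n 0 fun _ => g :=
      ⟨fun _ _ => (D.mem_hit.1 hg).1, fun j hj => absurd hj (Nat.not_lt_zero j)⟩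
    simpa using APot.pu_le h F hw hg le_rfl

end Vale.Agent.P198
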