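import Vale.Agent.P198.A.Stm

open Set Metric Topology Filter

namespace Vale.Agent.P198

namespace AProp

theorem rect_cpt (a b c d : ℝ) : IsCompact (rect a b c d) := by
  have h : rect a b c d = (fun p : ℝ × ℝ => (p.1 : ℂ) + p.2 * Complex.I) '' (Icc a b ×ˢ Icc c d) := by
    ext w
    constructor
    · rintro ⟨h1, h2, h3, h4⟩
      exact ⟨(w.re, w.im), ⟨⟨h1, h2⟩, h3, h4⟩, Complex.re_add_im w⟩
    · rintro ⟨p, ⟨⟨h1, h2⟩, h3, h4⟩, rfl⟩
      refine ⟨?_, ?_, ?_, ?_⟩ <;> simpa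
  rw [h]
  exact (isCompact_Icc.prod isCompact_Icc).image (by fun_prop)

theorem re_sh (w : ℂ) (k : ℤ) : (w + k * TT).re = w.re := by simp [TT]

theorem im_sh (w : ℂ) (k : ℤ) : (w + k * TT).im = w.im + k * (2 * Real.pi) := by simp [TT]

theorem mid_sh (l : PL) {w : ℂ} (hw : w ∈ l.Mid) (k : ℤ) : w + k * TT ∈ l.Mid := by
  unfold PL.Mid strip at *
  simpa only [mem_ofPred_eq, re_sh] using hw

theorem per (l : PL) {w : ℂ} (hw : w ∈ l.Mid) (k : ℤ) : l.V (w + k * TT) = l.V w + k := by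
  induction k using Int.induction_on with
  | zero => simp
  | succ i ih =>
    have h := l.V_per _ (mid_sh l hw i)
    have e : w + ((i + 1 : ℤ) : ℂ) * TT = w + ((i : ℤ) : ℂ) * TT + TT := by push_cast; ring
    rw [e, h, ih]; push_cast; ring
  | pred i ih =>
    have h := l.V_per _ (mid_sh l hw (-(i : ℤ) - 1))
    have e : w + ((-(i : ℤ) - 1 : ℤ) : ℂ) * TT + TT = w + ((-(i : ℤ) : ℤ) : ℂ) * TT := by
      push_cast; ring
    rw [e, ih] at h
    push_cast at h ⊢
    linarith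

theorem red (w : ℂ) : ∃ k : ℤ, 0 ≤ (w + k * TT).im ∧ (w + k * TT).im ≤ 2 * Real.pi := by
  have hp : 0 < 2 * Real.pi := by positivity
  refine ⟨-⌊w.im / (2 * Real.pi)⌋, ?_, ?_⟩
  · have := Int.floor_le (w.im / (2 * Real.pi))
    rw [le_div_iff₀ hp] at this
    rw [im_sh]; push_cast; linarith
  · have := Int.lt_floor_add_one (w.im / (2 * Real.pi))
    rw [div_lt_iff₀ hp] at this
    rw [im_sh]; push_cast; linarith

theorem f_cont (l : PL) : ContinuousOn l.f l.Mid := by
  have e : l.f = fun w => (l.U w : ℂ) + (l.V w : ℂ) * Complex.I := by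
    funext w; apply Complex.ext <;> simp [PL.f]
  rw [e]
  exact (Complex.continuous_ofReal.comp l.U_cont).continuousOn.add
    ((Complex.continuous_ofReal.comp_continuousOn l.V_cont).mul continuousOn_const)

end AProp

open AProp in
theorem PL.propP (l : PL) : l.PropP := by
  have hsub : ∀ c d, rect l.θ (1 - l.θ) c d ⊆ l.Mid := fun c d w hw => ⟨hw.1, hw.2.1⟩
  have hp := Real.pi_pos
  refine ⟨fun w hw k => ⟨mid_sh l hw k, per l hw k⟩, fun a b => ?_, fun κ hκ => ?_,
    fun t h1 h2 => ?_⟩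
  · obtain ⟨M, hM⟩ := (rect_cpt l.θ (1 - l.θ) 0 (2 * Real.pi)).exists_bound_of_continuousOn
      (l.V_cont.mono (hsub _ _))
    refine ⟨(|a| + |b| + |M| + 1) * (2 * Real.pi), by positivity, fun w hw ha hb => ?_⟩
    obtain ⟨k, k1, k2⟩ := red w
    have h1 := hM _ ⟨(mid_sh l hw k).1, (mid_sh l hw k).2, k1, k2⟩
    rw [per l hw k, Real.norm_eq_abs, abs_le] at h1
    rw [im_sh] at k1 k2
    have h2 : (k : ℝ) ≤ |a| + |b| + |M| := by
      linarith [le_abs_self M, neg_abs_le a, abs_nonneg b]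
    have h3 : -(|a| + |b| + |M|) ≤ (k : ℝ) := by
      linarith [le_abs_self M, le_abs_self b, abs_nonneg a]
    show |w.im| ≤ _
    rw [abs_le]
    constructor <;> nlinarith
  · have hu := (rect_cpt l.θ (1 - l.θ) (-1) (2 * Real.pi + 1)).uniformContinuousOn_of_continuous
      ((f_cont l).mono (hsub _ _))
    obtain ⟨δ, hδ, hu⟩ := Metric.uniformContinuousOn_iff.1 hu κ hκ
    refine ⟨min δ 1, lt_min hδ one_pos, fun w hw w' hw' hd => ?_⟩
    obtain ⟨k, k1, k2⟩ := red w
    have h1 : |w.im - w'.im| < 1 := by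
      rw [← Complex.sub_im]
      exact (Complex.abs_im_le_norm _).trans_lt
        (by rw [← dist_eq_norm]; exact hd.trans_le (min_le_right _ _))
    rw [abs_lt] at h1
    have h2 := hu (w + k * TT) ⟨(mid_sh l hw k).1, (mid_sh l hw k).2, by linarith, by linarith⟩
      (w' + k * TT) ⟨(mid_sh l hw' k).1, (mid_sh l hw' k).2,
        by rw [im_sh] at *; linarith, by rw [im_sh] at *; linarith⟩
      (by rw [dist_add_right]; exact hd.trans_le (min_le_left _ _))
    have e : l.f (w + k * TT) - l.f (w' + k * TT) = l.f w - l.f w' := by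
      apply Complex.ext <;> simp [PL.f, l.U_per, per l hw k, per l hw' k]
    rw [dist_eq_norm, e] at h2
    exact h2.le
  · have hc : Continuous fun x : ℝ => l.U x := l.U_cont.comp Complex.continuous_ofReal
    have a0 := l.lo ((0 : ℝ) : ℂ) (by simp; linarith [l.θ_pos])
    have a1 := l.hi ((1 : ℝ) : ℂ) (by simp; linarith [l.θ_pos])
    obtain ⟨x, -, hx⟩ := intermediate_value_Icc zero_le_one hc.continuousOn
      (show t ∈ Icc (l.U ((0 : ℝ) : ℂ)) (l.U ((1 : ℝ) : ℂ)) from ⟨a0.trans h1, h2.trans a1⟩)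
    exact ⟨x, hx⟩

end Vale.Agent.P198
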