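import Vale.Agent.P198.A.Stm

open Set Metric Topology Filter

namespace Vale.Agent.P198

variable {G Z : Type*} [Group G] [MetricSpace Z] [MulAction G Z] [CompactSpace Z] {D : Dyn G Z}
  {E : Geo Z} {R : Ring Z}

namespace ARatio

omit [CompactSpace Z] in
theorem key (c : ChartK Z) {x z u u' : Z} {τ : ℝ} (hx : x ∈ ball c.x0 c.r0)
    (hz : z ∈ ball c.x0 c.r0) (hu : u ∈ ball c.x0 c.r0) (hu' : u' ∈ ball c.x0 c.r0)
    (hτ : c.κ * (c.κ + 1) * τ = dist z x) (hd : dist u' u ≤ τ) :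
    ‖c.f u' - c.f x‖ ≤ c.H * ‖c.f z - c.f x‖ ∨
      ‖c.f u' - c.f x‖ ≤ (1 + c.H) * ‖c.f u - c.f x‖ := by
  by_cases h : c.κ * dist u' x ≤ dist z x
  · exact Or.inl (c.qb x hx u' hu' z hz h)
  · right
    have hκ := c.one_le_κ
    have h1 := dist_triangle u' u x
    have h0 : (c.κ + 1) * τ < dist u' x := by
      refine lt_of_mul_lt_mul_left (a := c.κ) ?_ (by linarith)
      rw [← mul_assoc, hτ]
      exact not_le.1 h
    have h4 := mul_le_mul_of_nonneg_left hd (show 0 ≤ c.κ by linarith)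
    have h2 := c.qb u hu u' hu' x hx (by rw [dist_comm x u]; linarith)
    rw [norm_sub_rev (c.f x)] at h2
    have h3 := norm_sub_le_norm_sub_add_norm_sub (c.f u') (c.f u) (c.f x)
    linarith

omit [CompactSpace Z] in
theorem ivt (c : ChartK Z) {x y : Z} {S : Set Z} (hS : S ⊆ ball c.x0 c.r0) (h : JoinedIn S x y)
    {v : ℝ} (h0 : 0 ≤ v) (h1 : v ≤ ‖c.f y - c.f x‖) : ∃ u ∈ S, ‖c.f u - c.f x‖ = v := by
  obtain ⟨γ, hγ⟩ := h
  have hc : Continuous fun s => ‖c.f (γ s) - c.f x‖ :=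
    ((c.cont.comp_continuous γ.continuous fun s => hS (hγ s)).sub continuous_const).norm
  obtain ⟨s, hs⟩ := intermediate_value_univ 0 1 hc (show v ∈ Icc _ _ from ⟨by simpa, by simpa⟩)
  exact ⟨γ s, hγ s, hs⟩

omit [CompactSpace Z] in
theorem main (E : Geo Z) (c : ChartK Z) {r : ℝ} (hrp : 0 < r) (hr1 : r * (2 * E.Λ + 1) = c.r0) :
    ∃ K, 1 ≤ K ∧ ∀ x ∈ ball c.x0 r, ∀ y ∈ ball c.x0 r, ∀ z ∈ ball c.x0 r,
      4 * dist y x ≤ dist z x → ‖c.f y - c.f x‖ ≤ K * ‖c.f z - c.f x‖ := by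
  classical
  have hΛ := E.one_le_Λ
  have hH := c.one_le_H
  have hκ := c.one_le_κ
  have hl : 0 < c.κ * (c.κ + 1) := by positivity
  obtain ⟨N, hN⟩ := E.pack (E.Λ * (c.κ * (c.κ + 1)))
  have hq : 1 ≤ 2 + 2 * c.H := by linarith
  refine ⟨(2 + 2 * c.H) ^ (N + 1) * c.H, one_le_mul_of_one_le_of_one_le (one_le_pow₀ hq) hH,
    fun x hx y hy z hz hd => ?_⟩
  have hsub : ball c.x0 r ⊆ ball c.x0 c.r0 := ball_subset_ball (by nlinarith)
  by_cases hzx : z = x
  · subst hzx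
    rw [dist_self] at hd
    have h0 : dist y z ≤ 0 := by linarith
    rw [dist_le_zero.1 h0, sub_self, norm_zero, mul_zero]
  have ht : 0 < dist z x := dist_pos.2 hzx
  obtain ⟨τ, hτ0, hτ⟩ : ∃ τ, 0 < τ ∧ c.κ * (c.κ + 1) * τ = dist z x :=
    ⟨dist z x / (c.κ * (c.κ + 1)), by positivity, by field_simp⟩
  have hI : 0 < ‖c.f z - c.f x‖ :=
    norm_pos_iff.2 (sub_ne_zero.2 fun h => hzx (c.inj (hsub hz) (hsub hx) h))
  have hS : closedBall x (E.Λ * dist x y) ⊆ ball c.x0 c.r0 := by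
    intro u hu
    have h1 := mem_closedBall.1 hu
    have h2 := mem_ball.1 hx
    have h3 := mem_ball.1 hy
    have h4 := dist_triangle_right x y c.x0
    have h5 := dist_triangle u x c.x0
    have h6 : E.Λ * dist x y ≤ E.Λ * (2 * r) := mul_le_mul_of_nonneg_left (by linarith) (by linarith)
    rw [mem_ball]
    nlinarith
  by_contra hcon
  have hcon := (not_le.1 hcon).le
  have hex : ∀ j : Fin (N + 1), ∃ u ∈ closedBall x (E.Λ * dist x y),
      ‖c.f u - c.f x‖ = (2 + 2 * c.H) ^ ((j : ℕ) + 1) * c.H * ‖c.f z - c.f x‖ := fun j =>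
    ivt c hS (E.llc x y) (by positivity) (le_trans (by gcongr; omega) hcon)
  choose u hu hm using hex
  have hsep : ∀ i j : Fin (N + 1), i < j → τ < dist (u j) (u i) := by
    intro i j hij
    by_contra h
    have h1 : (2 + 2 * c.H) ^ ((i : ℕ) + 1) * (2 + 2 * c.H) ≤ (2 + 2 * c.H) ^ ((j : ℕ) + 1) := by
      rw [← pow_succ]
      exact pow_le_pow_right₀ hq (by have := Fin.lt_def.1 hij; omega)
    have h2 : 1 ≤ (2 + 2 * c.H) ^ ((i : ℕ) + 1) := one_le_pow₀ hq
    have h3 : 0 < c.H * ‖c.f z - c.f x‖ := by positivity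
    have h4 := key c (hsub hx) (hsub hz) (hS (hu i)) (hS (hu j)) hτ (not_lt.1 h)
    rw [hm, hm, mul_assoc, mul_assoc, ← mul_assoc (1 + c.H)] at h4
    rcases h4 with h4 | h4
    · have := le_of_mul_le_mul_right (h4.trans (one_mul _).ge) h3
      nlinarith
    · have := le_of_mul_le_mul_right h4 h3
      nlinarith
  have hsep' : ∀ i j : Fin (N + 1), i ≠ j → τ < dist (u j) (u i) := by
    intro i j hij
    rcases lt_or_gt_of_ne hij with h | h
    · exact hsep i j h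
    · rw [dist_comm (u j)]
      exact hsep j i h
  have hinj : Function.Injective u := by
    intro i j h
    by_contra hij
    have := hsep' i j hij
    rw [h, dist_self] at this
    linarith
  have h1 := hN x τ (Finset.univ.image u) hτ0 (by
    intro v hv
    obtain ⟨j, -, rfl⟩ := Finset.mem_image.1 hv
    have h1 := mem_closedBall.1 (hu j)
    have h2 : dist x y ≤ dist z x := by
      rw [dist_comm]
      linarith [dist_nonneg (x := y) (y := x)]
    have h3 := mul_le_mul_of_nonneg_left h2 (show 0 ≤ E.Λ by linarith)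
    rw [mul_assoc, hτ]
    linarith) (by
    intro v hv w hw hvw
    obtain ⟨j, -, rfl⟩ := Finset.mem_image.1 hv
    obtain ⟨i, -, rfl⟩ := Finset.mem_image.1 hw
    exact (hsep' i j fun h => hvw (by rw [h])).le)
  rw [Finset.card_image_of_injective _ hinj, Finset.card_univ, Fintype.card_fin] at h1
  omega

end ARatio

theorem ratioP (E : Geo Z) (h : Nonempty (ChartK Z)) : Nonempty (Chart Z) := by
  obtain ⟨c⟩ := h
  have hΛ := E.one_le_Λ
  have hr0 := c.r0_pos
  obtain ⟨r, hrp, hr1⟩ : ∃ r, 0 < r ∧ r * (2 * E.Λ + 1) = c.r0 :=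
    ⟨c.r0 / (2 * E.Λ + 1), by positivity, by field_simp⟩
  have hsub : ball c.x0 r ⊆ ball c.x0 c.r0 := ball_subset_ball (by nlinarith)
  obtain ⟨K, hK, h⟩ := ARatio.main E c hrp hr1
  exact ⟨⟨c.x0, r, c.f, K, hrp, hK, c.cont.mono hsub, c.inj.mono hsub,
    fun U hU hs => c.opn U hU (hs.trans hsub), h⟩⟩

end Vale.Agent.P198
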