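import Vale.Agent.P198.A.Stm

open Set Metric Topology Filter

namespace Vale.Agent.P198

variable {G Z : Type*} [Group G] [MetricSpace Z] [MulAction G Z]

theorem realP (D : Dyn G Z) (E : Geo Z) : RealP D E := by
  intro n k d hw a b hab hbk
  have hΛ : 0 < E.Λ := lt_of_lt_of_le one_pos E.one_le_Λ
  have hpos : 0 < 4 * D.C * E.Λ * D.q ^ n := by
    have := D.C_pos
    have := D.qpow_pos n
    positivity
  induction b, hab using Nat.le_induction with
  | base =>
    refine JoinedIn.refl ⟨a, le_rfl, le_rfl, ?_⟩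
    rw [dist_self]
    exact hpos
  | succ b hab ih =>
    refine ((ih (by omega)).mono ?_).trans ((E.llc (D.pt (d b)) (D.pt (d (b + 1)))).mono ?_)
    · rintro y ⟨j, h1, h2, h3⟩
      exact ⟨j, h1, by omega, h3⟩
    · intro y hy
      refine ⟨b, hab, by omega, (mem_closedBall.1 hy).trans_lt ?_⟩
      have := mul_lt_mul_of_pos_left (hw.adj b (by omega)) hΛ
      linarith

end Vale.Agent.P198
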