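import Vale.Agent.P198.A.Stm

open Set Metric Topology Filter

namespace Vale.Agent.P198

variable {G Z : Type*} [Group G] [MetricSpace Z] [MulAction G Z] [CompactSpace Z] {D : Dyn G Z}
  {E : Geo Z} {R : Ring Z}

namespace ARho

theorem le_wt {ι : Type*} (T : Finset ι) (μ : ι → ℝ) (A : Set ι) (S : Finset ι)
    (hμ : ∀ i ∈ T, 0 ≤ μ i) (h : ∀ i ∈ S, i ∈ T ∧ i ∈ A) : ∑ i ∈ S, μ i ≤ wt T μ A := by
  classical
  unfold wt
  exact Finset.sum_le_sum_of_subset_of_nonneg (fun i hi => Finset.mem_filter.2 (h i hi))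
    fun i hi _ => hμ i (Finset.mem_filter.1 hi).1

end ARho

theorem Seq.rhoP (s : Seq D E R) (h1 : s.MupP) (h2 : s.SmP) : s.RhoP := by
  classical
  intro κ hκ
  obtain ⟨C', hC, h1⟩ := h1
  obtain ⟨r, hr, h2⟩ := h2 (κ ^ 2 / C') (by positivity)
  filter_upwards [h1, h2] with n a b g
  have b1 := b (D.pt g)
  set W := wt (s.P n).T (s.P n).μ
    {i | ∃ j ≤ (s.P n).m i, dist (D.pt ((s.P n).c i j)) (D.pt g) < r} with hW
  have hM := (s.P n).M_pos
  have h3 : (s.P n).ρ g ≤ (s.P n).M * W := by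
    rw [(s.P n).ρ_def, hW]
    refine mul_le_mul_of_nonneg_left ?_ hM.le
    refine ARho.le_wt _ _ _ _ (fun i hi => ((s.P n).μ_pos i hi).le) fun i hi => ?_
    obtain ⟨i1, j, hj, e⟩ := Finset.mem_filter.1 hi
    exact ⟨i1, j, hj, by rw [e, dist_self]; exact hr⟩
  have h4 : ((s.P n).M * W) ^ 2 ≤ κ ^ 2 := by
    calc ((s.P n).M * W) ^ 2 = (s.P n).M * (W ^ 2 * (s.P n).M) := by ring
      _ ≤ C' * (κ ^ 2 / C') := mul_le_mul a b1 (by positivity) hC.le
      _ = κ ^ 2 := by field_simp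
  exact h3.trans (abs_le_of_sq_le_sq' h4 hκ.le).2

end Vale.Agent.P198
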