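import Vale.Agent.P198.A.Stm

/-! Part II-a: the data at all levels exist. -/

open Set Metric Topology Filter

namespace Vale.Agent.P198

variable {G Z : Type*} [Group G] [MetricSpace Z] [MulAction G Z] [CompactSpace Z] {D : Dyn G Z}
  {E : Geo Z} {R : Ring Z}

namespace ASeq

theorem diag (Q : ℝ → ℕ → Prop) (h : ∀ ε : ℝ, 0 < ε → ∀ᶠ n in atTop, Q ε n) :
    ∃ ε : ℕ → ℝ, Tendsto ε atTop (𝓝 0) ∧ ∀ᶠ n in atTop, Q (ε n) n := by
  have h1 : ∀ m : ℕ, ∃ N : ℕ, ∀ n, N ≤ n → Q (1 / ((m : ℝ) + 1)) n := fun m =>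
    eventually_atTop.1 (h _ Nat.one_div_pos_of_nat)
  choose N hN using h1
  refine ⟨fun n => 1 / ((Nat.findGreatest (fun m => N m ≤ n) n : ℝ) + 1), ?_, ?_⟩
  · have h2 : Tendsto (fun n => Nat.findGreatest (fun m => N m ≤ n) n) atTop atTop := by
      refine tendsto_atTop_atTop.2 fun m => ⟨max m (N m), fun n hn => ?_⟩
      exact Nat.le_findGreatest (P := fun m => N m ≤ n) ((le_max_left _ _).trans hn)
        ((le_max_right _ _).trans hn)
    exact tendsto_one_div_add_atTop_nhds_zero_nat.comp h2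
  · filter_upwards [eventually_ge_atTop (N 0)] with n hn
    exact hN _ n (Nat.findGreatest_spec (P := fun m => N m ≤ n) (Nat.zero_le n) hn)

end ASeq

theorem seqP (D : Dyn G Z) (E : Geo Z) (R : Ring Z) (h1 : FlowEx D) (h2 : PotEx D)
    (h3 : LfP D E R) : SeqP D E R := by
  classical
  have hP : ∀ n, Nonempty (Pot D n R.E0 R.E1) := fun n =>
    h2 n _ _ (h1 n _ _ R.conn0.nonempty R.conn1.nonempty)
  obtain ⟨ε, h4, h5⟩ := ASeq.diag (fun ε n => ∀ (k : ℕ) (d : ℕ → G), D.IsCh R.E0 R.E1 n k d →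
    ∃ w Lk, IsLf D E R n ε k d w Lk) h3
  have h6 : ∀ n i : ℕ, ∃ (w : ℕ → ℂ) (Lk : ℕ → Set ℂ),
      (∃ w Lk, IsLf D E R n (ε n) ((hP n).some.m i) ((hP n).some.c i) w Lk) →
        IsLf D E R n (ε n) ((hP n).some.m i) ((hP n).some.c i) w Lk := fun n i => by
    by_cases h : ∃ w Lk, IsLf D E R n (ε n) ((hP n).some.m i) ((hP n).some.c i) w Lk
    · obtain ⟨w, Lk, h⟩ := h
      exact ⟨w, Lk, fun _ => h⟩
    · exact ⟨fun _ => 0, fun _ => ∅, fun h' => absurd h' h⟩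
  choose w Lk h7 using h6
  refine ⟨⟨fun n => (hP n).some, ε, w, Lk, h4, ?_⟩⟩
  filter_upwards [h5] with n hn i hi
  exact h7 n i (hn _ _ ((hP n).some.ch i hi))

end Vale.Agent.P198
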