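import Vale.Agent.P198.A.Stm

open Set Metric Topology Filter

namespace Vale.Agent.P198

theorem shellP (G : Type*) : ShellP G := by
  classical
  intro V ρ φ ok s Ca C0 N hρ hs hC hV
  set T : ℕ → G → ℝ := fun j g =>
    if ok g ∧ 2 ^ j * s < φ g ∧ φ g ≤ 2 ^ (j + 1) * s then ρ g / (2 ^ j * s) else 0 with hT
  have hT0 : ∀ j g, 0 ≤ T j g := fun j g => by
    simp only [hT]
    split_ifs
    · exact div_nonneg (hρ g) (by positivity)
    · exact le_rfl
  have hlt : ∀ i j g, i < j → T i g * T j g = 0 := fun i j g hij => by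
    simp only [hT]
    split_ifs with h1 h2
    · have : (2 : ℝ) ^ (i + 1) ≤ 2 ^ j := pow_le_pow_right₀ one_le_two hij
      nlinarith [h1.2.2, h2.2.1]
    all_goals simp
  have hsq : ∀ g, (∑ j ∈ Finset.range N, T j g) ^ 2 = ∑ j ∈ Finset.range N, T j g ^ 2 := by
    intro g
    rw [sq, Finset.sum_mul_sum]
    refine Finset.sum_congr rfl fun i hi => ?_
    rw [Finset.sum_eq_single i (fun j _ hj => ?_) (fun h => absurd hi h), sq]
    rcases lt_or_gt_of_ne hj with h | h
    · rw [mul_comm]; exact hlt j i g h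
    · exact hlt i j g h
  refine ⟨fun g => ∑ j ∈ Finset.range N, T j g, fun g => Finset.sum_nonneg fun j _ => hT0 j g,
    ?_, fun V' Y hY => ?_⟩
  · simp only [hsq]
    rw [Finset.sum_comm]
    refine (Finset.sum_le_card_nsmul _ _ (4 * Ca) fun j hj => ?_).trans
      (by rw [Finset.card_range, nsmul_eq_mul, mul_comm])
    have hp : (0 : ℝ) < 2 ^ j * s := by positivity
    have h1 := hV j (Finset.mem_range.1 hj)
    have h2 : ∑ g ∈ V, T j g ^ 2 ≤ (∑ g ∈ V.filter fun g => ok g ∧ φ g ≤ 2 ^ (j + 1) * s,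
        ρ g ^ 2) / (2 ^ j * s) ^ 2 := by
      rw [Finset.sum_div, Finset.sum_filter]
      refine Finset.sum_le_sum fun g _ => ?_
      simp only [hT]
      split_ifs with a b b
      · rw [div_pow]
      · exact absurd ⟨a.1, a.2.2⟩ b
      · rw [zero_pow two_ne_zero]; positivity
      · simp
    refine h2.trans ?_
    rw [div_le_iff₀ (by positivity)]
    refine le_trans (by convert h1) (le_of_eq ?_)
    ring
  · rw [Finset.sum_comm]
    refine le_trans (le_of_eq ?_) (Finset.card_nsmul_le_sum _ _ (1 / (4 * C0)) fun j hj => ?_)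
    · rw [Finset.card_range, nsmul_eq_mul, mul_one_div]
    obtain ⟨h1, h2, h3⟩ := hY j (Finset.mem_range.1 hj)
    have hp : (0 : ℝ) < 2 ^ j * s := by positivity
    refine le_trans ?_ (Finset.sum_le_sum_of_subset_of_nonneg h1 fun g _ _ => hT0 j g)
    have e : ∑ g ∈ Y j, T j g = (∑ g ∈ Y j, ρ g) / (2 ^ j * s) := by
      rw [Finset.sum_div]
      exact Finset.sum_congr rfl fun g hg => if_pos (h2 g hg)
    rw [e, div_le_div_iff₀ (by positivity) hp]
    linarith

end Vale.Agent.P198
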