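import Vale.Agent.P198.A.Stm

/-! The weighted family of lifts represents the conjugate function near each level. -/

open Set Metric Topology Filter

namespace Vale.Agent.P198

variable {G Z : Type*} [Group G] [MetricSpace Z] [MulAction G Z] [CompactSpace Z] {D : Dyn G Z}
  {E : Geo Z} {R : Ring Z}

namespace ASlab

open Classical in
theorem wt_fib (T : Finset ℕ) (μ : ℕ → ℝ) (S : Finset (ℕ × ℤ)) (F : ℕ → Finset ℤ)
    (hS : ∀ i k, (i, k) ∈ S ↔ i ∈ T ∧ k ∈ F i) (X : Set (ℕ × ℤ)) :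
    wt S (fun j => μ j.1) X = ∑ i ∈ T, μ i * (((F i).filter fun k => (i, k) ∈ X).card : ℝ) := by
  unfold wt
  rw [Finset.sum_finset_product (S.filter fun j => j ∈ X) T
    (fun i => (F i).filter fun k => (i, k) ∈ X)]
  · refine Finset.sum_congr rfl fun i _ => ?_
    dsimp only
    rw [Finset.sum_const, nsmul_eq_mul, mul_comm]
  · rintro ⟨i, k⟩
    simp only [Finset.mem_filter, hS, and_assoc]

/-- The weight of a subfamily is at most the weighted count of any finite supersets. -/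
theorem wt_le (T : Finset ℕ) (μ : ℕ → ℝ) (S : Finset (ℕ × ℤ)) (F : ℕ → Finset ℤ)
    (hS : ∀ i k, (i, k) ∈ S ↔ i ∈ T ∧ k ∈ F i) (X : Set (ℕ × ℤ)) (hμ : ∀ i ∈ T, 0 ≤ μ i)
    (Y : ℕ → Set ℤ) (hY : ∀ i ∈ T, (Y i).Finite) (hXY : ∀ i ∈ T, ∀ k, (i, k) ∈ X → k ∈ Y i) :
    wt S (fun j => μ j.1) X ≤ ∑ i ∈ T, μ i * ((Y i).ncard : ℝ) := by
  classical
  rw [wt_fib T μ S F hS X]
  refine Finset.sum_le_sum fun i hi => mul_le_mul_of_nonneg_left ?_ (hμ i hi)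
  rw [← Set.ncard_coe_finset]
  refine Nat.cast_le.2 (Set.ncard_le_ncard (fun k hk => ?_) (hY i hi))
  exact hXY i hi k (Finset.mem_filter.1 (Finset.mem_coe.1 hk)).2

theorem sh_inter_bd (l : PL) (k : ℤ) (A : Set ℂ) (t e : ℝ) :
    sh k A ∩ l.Bd t e = sh k (A ∩ l.Bd t e) := by
  ext w
  constructor
  · rintro ⟨⟨a, ha, rfl⟩, hw⟩
    refine ⟨a, ⟨ha, ?_⟩, rfl⟩
    have : |l.U (a + k * TT) - t| ≤ e := hw
    rwa [l.U_per] at this
  · rintro ⟨a, ⟨ha, hb⟩, rfl⟩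
    refine ⟨⟨a, ha, rfl⟩, ?_⟩
    show |l.U (a + k * TT) - t| ≤ e
    rw [l.U_per]
    exact hb

theorem sh_mono (k : ℤ) {A B : Set ℂ} (h : A ⊆ B) : sh k A ⊆ sh k B := image_mono h

theorem mid_sub (l : PL) : l.Mid ⊆ strip (-1) 2 := fun w hw => by
  have h1 := l.θ_pos
  obtain ⟨h2, h3⟩ := hw
  constructor <;> linarith

theorem bd_mid (l : PL) {t e : ℝ} (ht1 : 1 / 4 ≤ t) (ht2 : t ≤ 3 / 4) (he : e ≤ 3 / 64) :
    l.Bd t e ⊆ l.Mid := fun w hw => by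
  have h : |l.U w - t| ≤ e := hw
  rw [abs_le] at h
  exact l.mem_mid (by linarith [h.1]) (by linarith [h.2])

theorem ball_sub_hb (y : ℂ) (r : ℝ) : ball y r ⊆ Hb (|y.im| + r) := fun w hw => by
  have h1 : |(w - y).im| ≤ ‖w - y‖ := Complex.abs_im_le_norm _
  have h2 : ‖w - y‖ < r := by rwa [mem_ball, dist_eq_norm] at hw
  rw [Complex.sub_im] at h1
  show |w.im| ≤ |y.im| + r
  have h3 : |w.im| ≤ |y.im| + |w.im - y.im| := by
    have := abs_add_le y.im (w.im - y.im)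
    rwa [add_sub_cancel] at this
  linarith

theorem wn_mono (s : Seq D E R) (n i : ℕ) (t : ℝ) {a b : ℝ} (h : a ≤ b) :
    s.Wn n i t a ⊆ s.Wn n i t b :=
  biUnion_subset_biUnion_left fun _ hj => ⟨hj.1, hj.2.trans h⟩

theorem abs_V_le (l : PL) (y y' : ℂ) : |l.V y - l.V y'| ≤ ‖l.f y - l.f y'‖ := by
  have := Complex.abs_im_le_norm (l.f y - l.f y')
  rwa [Complex.sub_im] at this

/-- The representation of the conjugate function. -/
theorem vn_eq (s : Seq D E R) (hW : WindP) (n : ℕ) (H' : ℝ) (S : Finset (ℕ × ℤ))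
    (F : ℕ → Finset ℤ) (hS : ∀ i k, (i, k) ∈ S ↔ i ∈ (s.P n).T ∧ k ∈ F i)
    (hF : ∀ i ∈ (s.P n).T, ∀ k, k ∈ F i ↔ (sh k (s.A n i) ∩ Hb H').Nonempty)
    (hA : ∀ i ∈ (s.P n).T, Crs (-1) 2 (s.A n i)) {x y : ℂ} (hx : x ∈ strip (-1) 2 ∩ Hb H')
    (hy : y ∈ strip (-1) 2 ∩ Hb H') :
    s.Vn n x - s.Vn n y =
      wt S (fun j => (s.P n).μ j.1) {j | x ∈ Up (-1) 2 (sh j.2 (s.A n j.1))} -
        wt S (fun j => (s.P n).μ j.1) {j | y ∈ Up (-1) 2 (sh j.2 (s.A n j.1))} := by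
  rw [wt_fib _ _ S F hS, wt_fib _ _ S F hS, Seq.Vn, Seq.Vn, ← Finset.sum_sub_distrib,
    ← Finset.sum_sub_distrib]
  refine Finset.sum_congr rfl fun i hi => ?_
  rw [← mul_sub, ← mul_sub]
  congr 1
  have h := hW.diff (-1) 2 H' (s.A n i) x y (F i) (hA i hi) hx hy fun k hk => (hF i hi k).2 hk
  have h' := congrArg (fun z : ℤ => (z : ℝ)) h
  push_cast at h'
  exact h'

/-- A curve whose window is small is good. -/
theorem gd_of (s : Seq D E R) (l : PL) (hW : WindP) (n : ℕ) (S : Finset (ℕ × ℤ))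
    (F : ℕ → Finset ℤ) (hS : ∀ i k, (i, k) ∈ S ↔ i ∈ (s.P n).T ∧ k ∈ F i)
    (hA : ∀ i ∈ (s.P n).T, Crs (-1) 2 (s.A n i)) {t lam β δ r : ℝ} (ht1 : 1 / 4 ≤ t)
    (ht2 : t ≤ 3 / 4) (hlam : lam ≤ 1 / 64) (hδ : δ ≤ r)
    (huc : ∀ w ∈ l.Mid, ∀ w' ∈ l.Mid, dist w w' < δ → ‖l.f w - l.f w'‖ ≤ β)
    (hcnt : ∀ w0 : ℂ, s.cnt n (strip l.θ (1 - l.θ) ∩ ball w0 r) ≤ β) (i : ℕ) (k : ℤ)
    (hd : ∀ y ∈ s.A n i ∩ l.Bd t (3 * lam), ∀ y' ∈ s.A n i ∩ l.Bd t (3 * lam), dist y y' < δ) :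
    l.Gd S (fun j => (s.P n).μ j.1) (fun j => sh j.2 (s.A n j.1)) t lam β (i, k) := by
  have hm : l.Bd t (3 * lam) ⊆ l.Mid := bd_mid l ht1 ht2 (by linarith)
  have hd' : ∀ y ∈ sh k (s.A n i) ∩ l.Bd t (3 * lam), ∀ y' ∈ sh k (s.A n i) ∩ l.Bd t (3 * lam),
      dist y y' < δ := by
    rw [sh_inter_bd]
    rintro _ ⟨a, ha, rfl⟩ _ ⟨b, hb, rfl⟩
    rw [dist_add_right]
    exact hd a ha b hb
  refine ⟨?_, fun y hy y' hy' =>
    (abs_V_le l y y').trans (huc y (hm hy.2) y' (hm hy'.2) (hd' y hy y' hy'))⟩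
  obtain ⟨w0, hw0⟩ : ∃ w0 : ℂ, sh k (s.A n i) ∩ l.Bd t (3 * lam) ⊆
      strip l.θ (1 - l.θ) ∩ ball w0 r := by
    rcases (sh k (s.A n i) ∩ l.Bd t (3 * lam)).eq_empty_or_nonempty with h | ⟨w0, h⟩
    · exact ⟨0, h ▸ empty_subset _⟩
    · exact ⟨w0, fun y hy => ⟨hm hy.2, (hd' y hy w0 h).trans_le hδ⟩⟩
  refine le_trans (wt_le _ _ S F hS _ (fun j hj => ((s.P n).μ_pos j hj).le)
    (fun j => {k' : ℤ | (sh k' (s.A n j) ∩ (strip l.θ (1 - l.θ) ∩ ball w0 r)).Nonempty})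
    (fun j hj => ?_) (fun j _ k' hk' => ?_)) (hcnt w0)
  · refine (hW.fin (-1) 2 (|w0.im| + r) _ (hA j hj)).subset fun k' hk' => ?_
    exact Set.Nonempty.mono (inter_subset_inter_right _
      (inter_subset_right.trans (ball_sub_hb w0 r))) hk'
  · exact Set.Nonempty.mono (inter_subset_inter_right _ hw0) hk'

/-- The mass of the bad curves. -/
theorem bad_le (s : Seq D E R) (hW : WindP) (n : ℕ) (S : Finset (ℕ × ℤ))
    (F : ℕ → Finset ℤ) (hS : ∀ i k, (i, k) ∈ S ↔ i ∈ (s.P n).T ∧ k ∈ F i)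
    (hA : ∀ i ∈ (s.P n).T, Crs (-1) 2 (s.A n i)) {H C κ : ℝ} (hC : 0 ≤ C) (B : Set ℕ)
    (hB : wt (s.P n).T (s.P n).μ B ≤ κ)
    (hext : ∀ S' ⊆ (s.P n).T,
      ∑ i ∈ S', (s.P n).μ i * ({k : ℤ | (sh k (s.A n i) ∩ Hb H).Nonempty}.ncard : ℝ) ≤
        C * √(∑ i ∈ S', (s.P n).μ i))
    (X : Set (ℕ × ℤ))
    (hX : ∀ i ∈ (s.P n).T, ∀ k, (i, k) ∈ X → i ∈ B ∧ (sh k (s.A n i) ∩ Hb H).Nonempty) :
    wt S (fun j => (s.P n).μ j.1) X ≤ C * √κ := by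
  classical
  refine le_trans (wt_le _ _ S F hS _ (fun j hj => ((s.P n).μ_pos j hj).le)
    (fun j => {k : ℤ | j ∈ B ∧ (sh k (s.A n j) ∩ Hb H).Nonempty})
    (fun j hj => (hW.fin (-1) 2 H _ (hA j hj)).subset fun k hk => hk.2) hX) ?_
  have h1 := hext ((s.P n).T.filter fun i => i ∈ B) (Finset.filter_subset _ _)
  have h2 : C * √(∑ i ∈ (s.P n).T.filter fun i => i ∈ B, (s.P n).μ i) ≤ C * √κ := by
    refine mul_le_mul_of_nonneg_left (Real.sqrt_le_sqrt ?_) hC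
    convert hB using 1
    unfold wt
    congr
  refine le_trans (le_of_eq ?_) (h1.trans h2)
  rw [Finset.sum_filter]
  refine Finset.sum_congr rfl fun i _ => ?_
  by_cases hi : i ∈ B
  · simp only [hi, true_and, if_true]
  · simp only [hi, false_and, if_false, Set.ofPred_false, ncard_empty, Nat.cast_zero, mul_zero]

end ASlab

open ASlab in
theorem Seq.slabP (s : Seq D E R) {l : PL} (hl : s.Is l) (hC : CrvP D E R) (hW : WindP)
    (hP : l.PropP) (h1 : s.WinP) (h2 : s.Win2P l) (h3 : s.BadWP) (h4 : s.Cnt2P) (h5 : s.ExtP) :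
    s.SlabP l := by
  classical
  intro H β hβ
  obtain ⟨δ0, hδ0, huc⟩ := hP.uc β hβ
  obtain ⟨r, hr, hcnt⟩ := h4 l.θ β l.θ_pos hβ
  obtain ⟨C, hC0, hext⟩ := h5 H
  obtain ⟨lam1, hlam1, hbad⟩ := h3 (min δ0 r) ((β / C) ^ 2) (lt_min hδ0 hr) (by positivity)
  refine ⟨min (lam1 / 4) (1 / 64), lt_min (by positivity) (by norm_num), fun lam hlam hle H' => ?_⟩
  have hle1 : 4 * lam ≤ lam1 := by linarith [hle.trans (min_le_left _ _)]
  have hle2 : lam ≤ 1 / 64 := hle.trans (min_le_right _ _)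
  have hε : ∀ᶠ n in atTop, s.ε n ≤ 1 / 2 :=
    s.ε_lim.eventually (eventually_le_nhds (by norm_num))
  have hat := (hcnt.and (hext.and (hbad.and (hε.and (s.lf.and h1))))).filter_mono
    Nat.hyperfilter_le_atTop
  filter_upwards [hat, h2 lam hlam hle2, hl.hV.app β hβ] with n hn hw2 happ
  obtain ⟨hcnt, hext, hbad, hε, hlf, hw1⟩ := hn
  have hA : ∀ i ∈ (s.P n).T, Crs (-1) 2 (s.A n i) := fun i hi =>
    hC.crs n _ _ _ _ _ hε (hlf i hi)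
  obtain ⟨F, hF⟩ : ∃ F : ℕ → Finset ℤ, ∀ i ∈ (s.P n).T, ∀ k,
      k ∈ F i ↔ (sh k (s.A n i) ∩ Hb H').Nonempty := by
    refine ⟨fun i => if h : i ∈ (s.P n).T then (hW.fin (-1) 2 H' _ (hA i h)).toFinset else ∅,
      fun i hi k => ?_⟩
    simp only [hi, dif_pos, Set.Finite.mem_toFinset, Set.mem_ofPred_eq]
  obtain ⟨S, hS⟩ : ∃ S : Finset (ℕ × ℤ), ∀ i k, (i, k) ∈ S ↔ i ∈ (s.P n).T ∧ k ∈ F i := by
    refine ⟨(s.P n).T.biUnion fun i => {i} ×ˢ F i, fun i k => ?_⟩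
    simp only [Finset.mem_biUnion, Finset.mem_product, Finset.mem_singleton]
    constructor
    · rintro ⟨a, ha, rfl, hk⟩
      exact ⟨ha, hk⟩
    · rintro ⟨ha, hk⟩
      exact ⟨i, ha, rfl, hk⟩
  refine ⟨S, fun i k => ?_, fun t ht1 ht2 => ⟨?_, ?_, ?_, ?_, ?_⟩⟩
  · rw [hS]
    exact and_congr_right fun hi => hF i hi k
  · rintro ⟨i, k⟩ hj
    exact ((s.P n).μ_pos i ((hS i k).1 hj).1).le
  · rintro ⟨i, k⟩ hj
    exact hW.crs _ _ _ k (hA i ((hS i k).1 hj).1)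
  · intro x hx y hy
    rw [← vn_eq s hW n H' S F hS hF hA ⟨mid_sub l hx.1, hx.2⟩ ⟨mid_sub l hy.1, hy.2⟩]
    exact happ x hx.1 y hy.1
  · rintro ⟨i, k⟩ hj
    have hi := ((hS i k).1 hj).1
    obtain ⟨a1, a2, a3, -⟩ := hw2 i hi t ht1 ht2
    obtain ⟨b1, b2⟩ := hw1 i hi t (2 * lam)
    refine ⟨sh k (s.Wn n i t (2 * lam)), ?_, (b2 a1).image (by fun_prop), ?_⟩
    · show _ ⊆ sh k (s.A n i) ∩ l.Bd t (3 * lam)
      rw [sh_inter_bd]
      exact sh_mono k (subset_inter b1 a3)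
    · show sh k (s.A n i) ∩ l.Bd t lam ⊆ _
      rw [sh_inter_bd]
      exact sh_mono k a2
  · refine le_trans (bad_le s hW n S F hS hA hC0.le _ (hbad t) hext _ fun i hi k hk => ⟨?_, hk.1⟩)
      (le_of_eq ?_)
    · by_contra hb
      refine hk.2 (gd_of s l hW n S F hS hA ht1 ht2 hle2 (min_le_right δ0 r)
        (fun w hw w' hw' h => huc w hw w' hw' (h.trans_le (min_le_left _ _))) hcnt i k
        fun y hy y' hy' => ?_)
      have a4 := (hw2 i hi t ht1 ht2).2.2.2.trans (wn_mono s n i t hle1)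
      by_contra hd
      exact hb ⟨y, a4 hy, y', a4 hy', not_lt.1 hd⟩
    · rw [Real.sqrt_sq (by positivity)]
      field_simp

theorem Seq.slabE (s : Seq D E R) {l : PL} (h : s.SlabP l) : l.SlabE := by
  intro H β hβ
  obtain ⟨lam0, h0, h⟩ := h H β hβ
  refine ⟨lam0, h0, fun lam hlam hle H' t ht1 ht2 => ?_⟩
  obtain ⟨n, S, -, hS⟩ := (h lam hlam hle H').exists
  exact ⟨S, _, _, hS t ht1 ht2⟩

end Vale.Agent.P198
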