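import Vale.Agent.P198.A.Stm

/-! Part II-a: the weight of the curves meeting a slice. -/

open Set Metric Topology Filter

namespace Vale.Agent.P198

variable {G Z : Type*} [Group G] [MetricSpace Z] [MulAction G Z] [CompactSpace Z] {D : Dyn G Z}
  {E : Geo Z} {R : Ring Z}

namespace ASlice

open Classical in
theorem wt_eq {ι : Type*} (S : Finset ι) (μ : ι → ℝ) (A : Set ι) :
    wt S μ A = ∑ i ∈ S, if i ∈ A then μ i else 0 := by
  unfold wt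
  rw [Finset.sum_filter]

theorem wt_le {ι : Type*} (S : Finset ι) (μ : ι → ℝ) (h0 : ∀ j ∈ S, 0 ≤ μ j) (X P M B : Set ι)
    (h1 : ∀ j ∈ S, j ∈ X → j ∉ B → j ∈ P ∧ j ∉ M) (h2 : ∀ j ∈ S, j ∈ M → j ∉ P → j ∈ B) :
    wt S μ X ≤ wt S μ P - wt S μ M + 2 * wt S μ B := by
  classical
  simp only [wt_eq]
  rw [← Finset.sum_sub_distrib, Finset.mul_sum, ← Finset.sum_add_distrib]
  refine Finset.sum_le_sum fun j hj => ?_
  have a0 := h0 j hj
  have a1 := h1 j hj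
  have a2 := h2 j hj
  by_cases x : j ∈ X <;> by_cases p : j ∈ P <;> by_cases m : j ∈ M <;> by_cases b : j ∈ B <;>
    simp only [x, p, m, b, if_true, if_false] <;> first | linarith | simp_all

theorem hb_convex (H : ℝ) : Convex ℝ (Hb H) := by
  have : Hb H = {w : ℂ | -H ≤ w.im} ∩ {w : ℂ | w.im ≤ H} := by
    ext w
    exact (abs_le : |w.im| ≤ H ↔ _)
  rw [this]
  exact (convex_halfSpace_im_ge _).inter (convex_halfSpace_im_le _)

theorem hb_mono {H H' : ℝ} (h : H ≤ H') : Hb H ⊆ Hb H' := fun _ hw => le_trans hw h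

theorem mid_sub (l : PL) : l.Mid ⊆ strip (-1) 2 := fun w hw => by
  have := l.θ_pos
  exact ⟨by linarith [hw.1], by linarith [hw.2]⟩

theorem bd_mid (l : PL) {t e : ℝ} (t1 : 1 / 4 ≤ t) (t2 : t ≤ 3 / 4) (he : e ≤ 1 / 32) :
    l.Bd t e ⊆ l.Mid := fun w hw => by
  have := abs_le.1 (show |l.U w - t| ≤ e from hw)
  exact l.mem_mid (by linarith [this.1]) (by linarith [this.2])

theorem meet {a b : ℝ} {A K : Set ℂ} {x y : ℂ} (hK : K ⊆ strip a b) (h : JoinedIn K x y)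
    (hx : x ∈ Up a b A) (hy : y ∉ Up a b A) : (A ∩ K).Nonempty := by
  by_contra hh
  refine hy (up_join (h.symm.mono fun w hw => ⟨hK hw, fun hA => hh ⟨w, hA, hw⟩⟩) hx)

end ASlice

open ASlice in
theorem PL.sliceP (l : PL) (h1 : l.PropP) (h2 : l.SurjP) (h3 : l.LamP) (h4 : l.KeyP) : l.SliceP := by
  intro a b β hab hβ
  obtain ⟨H, -, hH⟩ := h1.prop (a - 3 * β) (b + 3 * β)
  refine ⟨H, fun t lam t1 t2 l0 l1 => ?_⟩
  obtain ⟨Λ, hΛ⟩ := h3 t lam t1 t2 l0 l1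
  obtain ⟨qm, m1, m2⟩ := h2 t (a - 3 * β) t1 t2
  obtain ⟨qp, p1, p2⟩ := h2 t (b + 3 * β) t1 t2
  have mΛ : qm ∈ Λ := hΛ.sup (show |l.U qm - t| ≤ lam / 2 by rw [m1, sub_self, abs_zero]; linarith)
  have pΛ : qp ∈ Λ := hΛ.sup (show |l.U qp - t| ≤ lam / 2 by rw [p1, sub_self, abs_zero]; linarith)
  have bm := bd_mid l t1 t2 l1
  have mM : qm ∈ l.Mid := bm (hΛ.sub mΛ)
  have pM : qp ∈ l.Mid := bm (hΛ.sub pΛ)
  have mH : qm ∈ Hb H := hH qm mM (by linarith) (by linarith)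
  have pH : qp ∈ Hb H := hH qp pM (by linarith) (by linarith)
  obtain ⟨Q, Q1, Q2, Q3, Q4, Q5⟩ := (pathP ℂ).cpt Λ qm qp (hΛ.conn.joinedIn qm mΛ qp pΛ)
  obtain ⟨B, hB⟩ := Q2.isBounded.exists_norm_le
  refine ⟨max H B, le_max_left _ _, fun w hw w1 w2 => hH w hw (by linarith) (by linarith),
    fun H' hH' S μ A sl => ?_⟩
  have HH : Hb H ⊆ Hb H' := hb_mono ((le_max_left _ _).trans hH')
  have QH : Q ⊆ Hb H' := fun w hw =>
    le_trans (Complex.abs_im_le_norm w) ((hB w hw).trans ((le_max_right _ _).trans hH'))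
  have key := h4 S μ A t lam H H' β Λ sl hΛ
  have e1 := wt_le S μ sl.nonneg {j | ∃ y ∈ A j ∩ l.Bd t lam, a ≤ l.V y ∧ l.V y ≤ b}
    {j | qp ∈ Up (-1) 2 (A j)} {j | qm ∈ Up (-1) 2 (A j)}
    {j | (A j ∩ Hb H).Nonempty ∧ ¬ l.Gd S μ A t lam β j} ?_ ?_
  · have e2 := (abs_le.1 (sl.hV qp ⟨pM, HH pH⟩ qm ⟨mM, HH mH⟩)).1
    have e3 := sl.bad
    rw [p2, m2] at e2
    linarith
  · rintro j hj ⟨y, ⟨y1, y2⟩, y3, y4⟩ hb
    have yH : y ∈ Hb H := hH y (bm y2) (by linarith) (by linarith)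
    have g : l.Gd S μ A t lam β j := by
      by_contra hg
      exact hb ⟨⟨y, y1, yH⟩, hg⟩
    have k1 := (key j hj g y ⟨⟨y1, y2⟩, HH yH⟩ qp ⟨pΛ, HH pH⟩).2
    have k2 := (key j hj g y ⟨⟨y1, y2⟩, HH yH⟩ qm ⟨mΛ, HH mH⟩).1
    refine ⟨by_contra fun h => ?_, fun h => ?_⟩
    · have := k1 h
      linarith
    · have := k2 h
      linarith
  · intro j hj hm hp
    refine ⟨?_, fun g => ?_⟩
    · have c : IsPathConnected (strip (-1) 2 ∩ Hb H) :=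
        ((strip_convex _ _).inter (hb_convex H)).isPathConnected ⟨qm, mid_sub l mM, mH⟩
      obtain ⟨z, z1, z2⟩ := meet inter_subset_left
        (c.joinedIn qm ⟨mid_sub l mM, mH⟩ qp ⟨mid_sub l pM, pH⟩) hm hp
      exact ⟨z, z1, z2.2⟩
    · obtain ⟨z, z1, z2⟩ := meet (fun w hw => mid_sub l (bm (hΛ.sub (Q1 hw))))
        (Q3.joinedIn qm Q4 qp Q5) hm hp
      have k1 := (key j hj g z ⟨⟨z1, hΛ.sub (Q1 z2)⟩, QH z2⟩ qp ⟨pΛ, HH pH⟩).2 hp
      have k2 := (key j hj g z ⟨⟨z1, hΛ.sub (Q1 z2)⟩, QH z2⟩ qm ⟨mΛ, HH mH⟩).1 hm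
      linarith

end Vale.Agent.P198
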