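import Vale.Agent.P198.A.Stm

/-! Spreading a weight over neighbouring nodes. -/

open Set Metric Topology Filter

namespace Vale.Agent.P198

variable {G Z : Type*} [Group G] [MetricSpace Z] [MulAction G Z] [CompactSpace Z]

omit [CompactSpace Z] in
theorem sprP (D : Dyn G Z) : SprP D := by
  classical
  intro L
  obtain ⟨N, hN⟩ := D.loc' (L + 2 * D.C)
  refine ⟨N * N + 1, by positivity, fun n τ hτ => ⟨D.spread n (L + 2 * D.C) τ, ?_, ?_, ?_⟩⟩
  · intro g
    exact Finset.sum_nonneg fun h _ => hτ h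
  · have hm : 0 ≤ D.mass n τ := Finset.sum_nonneg fun g _ => sq_nonneg _
    have h := (sumP G G).bip (D.lev n) (D.lev n)
      (fun h g => dist (D.pt g) (D.pt h) < (L + 2 * D.C) * D.q ^ n) τ N N
      (fun i _ => hN (D.pt i) n _ fun g hg =>
        ⟨D.mem_lev.1 (Finset.mem_filter.1 hg).1, (Finset.mem_filter.1 hg).2.le⟩)
      (fun k _ => hN (D.pt k) n _ fun g hg =>
        ⟨D.mem_lev.1 (Finset.mem_filter.1 hg).1, by
          rw [dist_comm]; exact (Finset.mem_filter.1 hg).2.le⟩)
    have h2 : D.mass n (D.spread n (L + 2 * D.C) τ) ≤ N * N * D.mass n τ := by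
      unfold Dyn.mass Dyn.spread
      convert h
    nlinarith
  · intro P J d hP
    have h1 : ∑ j ∈ J, D.spread n (L + 2 * D.C) τ (d j) = ∑ g ∈ D.lev n, ∑ j ∈ J,
        if dist (D.pt g) (D.pt (d j)) < (L + 2 * D.C) * D.q ^ n then τ g else 0 := by
      rw [Finset.sum_comm]
      refine Finset.sum_congr rfl fun j _ => ?_
      unfold Dyn.spread
      rw [Finset.sum_filter]
    rw [h1]
    have h0 : ∀ g j, 0 ≤ if dist (D.pt g) (D.pt (d j)) < (L + 2 * D.C) * D.q ^ n then τ g
        else 0 := by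
      intro g j
      split_ifs
      · exact hτ g
      · exact le_rfl
    refine le_trans (Finset.sum_le_sum fun g hg => ?_)
      (Finset.sum_le_sum_of_subset_of_nonneg (D.hit_subset n P) fun g _ _ =>
        Finset.sum_nonneg fun j _ => h0 g j)
    obtain ⟨-, x, hx, h2⟩ := D.mem_hit.1 hg
    obtain ⟨j, hj, h3⟩ := hP x hx
    have h4 : dist (D.pt g) (D.pt (d j)) < (L + 2 * D.C) * D.q ^ n := by
      have := dist_triangle_left (D.pt g) (D.pt (d j)) x
      linarith
    refine le_trans ?_ (Finset.single_le_sum (fun j _ => h0 g j) hj)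
    rw [if_pos h4]

end Vale.Agent.P198
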