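import Vale.Agent.P198.A.Stm

open Set Metric Topology Filter

namespace Vale.Agent.P198

namespace ASurg

open PathPAux in
theorem half {P A N B : Set ℂ} {x z : ℂ} (hA : IsClosed A) (h : JoinedIn P x z) (hz : z ∈ A)
    (hN : P ∩ A ⊆ N) (hB : ∀ w w', w ∈ B → JoinedIn (P \ A) w w' → w' ∈ B) (hx : x ∈ B) :
    ∃ y ∈ N, JoinedIn (((P ∩ B) \ A) ∪ N) x y := by
  obtain ⟨f, hf, rfl, rfl, hP⟩ := exists_curve h
  obtain ⟨t, ⟨ht, htF⟩, hmin⟩ := (isCompact_Icc.inter_right (hA.preimage hf)).exists_isLeast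
    ⟨(1 : ℝ), right_mem_Icc.2 zero_le_one, hz⟩
  have hlt : ∀ u, 0 ≤ u → u < t → f u ∉ A := fun u u0 ut hu =>
    absurd (hmin ⟨⟨u0, ut.le.trans ht.2⟩, hu⟩) (not_le.2 ut)
  refine ⟨f t, hN ⟨hP t, htF⟩, joined_of_Icc hf ht.1 fun u hu => ?_⟩
  rcases hu.2.eq_or_lt with e | e
  · right; rw [e]; exact hN ⟨hP t, htF⟩
  · exact Or.inl ⟨⟨hP u, hB _ _ hx (joined_of_Icc hf hu.1 fun v hv =>
      ⟨hP v, hlt v hv.1 (hv.2.trans_lt e)⟩)⟩, hlt u hu.1 e⟩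

end ASurg

open PathPAux in
theorem surgP : SurgP := by
  intro P A N B x y hA h hN hPA hB hx hy _ _
  obtain ⟨f, hf, rfl, rfl, hP⟩ := exists_curve h
  by_cases hc : ∃ t ∈ Icc (0 : ℝ) 1, f t ∈ A
  · obtain ⟨t, ht, htA⟩ := hc
    obtain ⟨a, ha, h1⟩ := ASurg.half hA (joined_of_Icc hf ht.1 fun u _ => hP u) htA hPA hB hx
    obtain ⟨b, hb, h2⟩ := ASurg.half hA (joined_of_Icc hf ht.2 fun u _ => hP u).symm htA hPA hB hy
    exact (h1.trans ((hN.joinedIn a ha b hb).mono subset_union_right)).trans h2.symm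
  · push Not at hc
    exact joined_of_Icc hf zero_le_one fun u hu => Or.inl ⟨⟨hP u, hB _ _ hx
      (joined_of_Icc hf hu.1 fun v hv => ⟨hP v, hc v ⟨hv.1, hv.2.trans hu.2⟩⟩)⟩, hc u hu⟩

end Vale.Agent.P198
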