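import Vale.Agent.P198.A.Stm

open Set Metric Topology Filter

namespace Vale.Agent.P198

namespace ASurj

theorem rect_cpt (a b c d : ℝ) : IsCompact (rect a b c d) := by
  have h : rect a b c d = (fun p : ℝ × ℝ => (p.1 : ℂ) + p.2 * Complex.I) '' (Icc a b ×ˢ Icc c d) := by
    ext w
    constructor
    · rintro ⟨h1, h2, h3, h4⟩
      exact ⟨(w.re, w.im), ⟨⟨h1, h2⟩, h3, h4⟩, Complex.re_add_im w⟩
    · rintro ⟨p, ⟨⟨h1, h2⟩, h3, h4⟩, rfl⟩
      refine ⟨?_, ?_, ?_, ?_⟩ <;> simpa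
  rw [h]
  exact (isCompact_Icc.prod isCompact_Icc).image (by fun_prop)

theorem approx (l : PL) (h1 : l.PropP) (h2 : l.BandP) {t v e : ℝ} (t1 : 1 / 4 ≤ t) (t2 : t ≤ 3 / 4)
    (he : 0 < e) (he2 : e ≤ 1 / 32) : ∃ w ∈ l.Mid, l.V w = v ∧ |l.U w - t| ≤ 2 * e := by
  obtain ⟨x, hx⟩ := h1.lev t (by linarith) (by linarith)
  have hxm : x ∈ l.Mid := l.mem_mid (by linarith) (by linarith)
  obtain ⟨k, hk⟩ := exists_int_gt |v - l.V x|
  have hb : ∀ j : ℤ, x + j * TT ∈ l.Bd t e := fun j => by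
    show |l.U _ - t| ≤ e
    rw [l.U_per, hx, sub_self, abs_zero]; exact he.le
  have hs : l.Bd t (2 * e) ⊆ l.Mid := fun w hw => by
    have := abs_le.1 (show |l.U w - t| ≤ 2 * e from hw)
    exact l.mem_mid (by linarith) (by linarith)
  have hk' := abs_lt.1 hk
  obtain ⟨x', y', hj, e1, -⟩ := (pathP ℂ).band _ l.V _ _ v v
    (h2 t e t1 t2 he he2 _ (hb (-k)) _ (hb k)) (l.V_cont.mono hs)
    (by rw [(h1.per x hxm _).2]; push_cast; linarith) le_rfl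
    (by rw [(h1.per x hxm _).2]; linarith)
  exact ⟨x', hs hj.source_mem.1, e1, hj.source_mem.1⟩

end ASurj

open ASurj in
theorem PL.surjP (l : PL) (h1 : l.PropP) (h2 : l.BandP) : l.SurjP := by
  intro t v t1 t2
  obtain ⟨H, -, hH⟩ := h1.prop v v
  have hsub : rect l.θ (1 - l.θ) (-H) H ⊆ l.Mid := fun w hw => ⟨hw.1, hw.2.1⟩
  have hR := rect_cpt l.θ (1 - l.θ) (-H) H
  have hK : IsCompact (rect l.θ (1 - l.θ) (-H) H ∩ l.V ⁻¹' {v}) :=
    hR.of_isClosed_subset ((l.V_cont.mono hsub).preimage_isClosed_of_isClosed hR.isClosed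
      isClosed_singleton) inter_subset_left
  have hm : ∀ w ∈ l.Mid, l.V w = v → w ∈ rect l.θ (1 - l.θ) (-H) H ∩ l.V ⁻¹' {v} := by
    intro w hw hv
    have := abs_le.1 (show |w.im| ≤ H from hH w hw hv.ge hv.le)
    exact ⟨⟨hw.1, hw.2, this.1, this.2⟩, hv⟩
  obtain ⟨w0, hw0, hv0, -⟩ := approx l h1 h2 (v := v) t1 t2 (by norm_num : (0 : ℝ) < 1 / 32) le_rfl
  have hc : Continuous fun w => |l.U w - t| := (l.U_cont.sub continuous_const).abs
  obtain ⟨w, hw, hmin⟩ := hK.exists_isMinOn ⟨w0, hm w0 hw0 hv0⟩ hc.continuousOn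
  refine ⟨w, ?_, hw.2⟩
  by_contra hne
  have hp : 0 < |l.U w - t| := abs_pos.2 (sub_ne_zero.2 hne)
  obtain ⟨w1, hw1, hv1, hle⟩ := approx l h1 h2 (v := v) (e := min (|l.U w - t| / 4) (1 / 32)) t1 t2
    (lt_min (by positivity) (by norm_num)) (min_le_right _ _)
  have h3 : |l.U w - t| ≤ |l.U w1 - t| := hmin (hm w1 hw1 hv1)
  linarith [min_le_left (|l.U w - t| / 4) (1 / 32)]

end Vale.Agent.P198
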