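import Vale.Agent.P198.A.Stm

/-! Through every point there is a crossing along which the potential is nearly monotone. -/

open Set Metric Topology Filter

namespace Vale.Agent.P198

variable {G Z : Type*} [Group G] [MetricSpace Z] [MulAction G Z] [CompactSpace Z] {D : Dyn G Z}
  {E : Geo Z} {R : Ring Z}

namespace AThru

theorem mono_of {u : ℕ → ℝ} {k : ℕ} (h : ∀ j < k, u j ≤ u (j + 1)) {a b : ℕ} (hab : a ≤ b)
    (hb : b ≤ k) : u a ≤ u b := by
  induction b, hab using Nat.le_induction with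
  | base => exact le_rfl
  | succ b hab ih => exact (ih (by omega)).trans (h b (by omega))

omit [CompactSpace Z] in
/-- Cutting a monotone walk to a chain. -/
theorem cut {n : ℕ} {E0 E1 : Set Z} (F : Pot D n E0 E1) {g : G} (hg : D.len g = n)
    (h0 : ∀ g', F.ρ g' < F.u g) (h1 : F.u g < 1) :
    ∃ (k : ℕ) (d : ℕ → G) (j0 : ℕ), D.IsCh E0 E1 n k d ∧ j0 < k ∧ d j0 = g ∧
      ∀ j < k, F.u (d j) ≤ F.u (d (j + 1)) := by
  classical
  obtain ⟨k, d, j0, hW, hs, he, hj0, hd, hm⟩ := F.thru g hg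
  have hmono : ∀ a b, a ≤ b → b ≤ k → F.u (d a) ≤ F.u (d b) := fun a b hab hb =>
    mono_of (u := fun j => F.u (d j)) hm hab hb
  set a := Nat.findGreatest (fun j => d j ∈ D.hit n E0) j0 with ha
  have ha1 : a ≤ j0 := Nat.findGreatest_le j0
  have ha2 : d a ∈ D.hit n E0 := Nat.findGreatest_spec (P := fun j => d j ∈ D.hit n E0)
    (Nat.zero_le j0) hs
  have ha3 : ∀ j, a < j → j ≤ j0 → d j ∉ D.hit n E0 := fun j h1 h2 =>
    Nat.findGreatest_is_greatest (P := fun j => d j ∈ D.hit n E0) h1 h2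
  have hex : ∃ j, j0 ≤ j ∧ d j ∈ D.hit n E1 := ⟨k, hj0, he⟩
  set b := Nat.find hex with hb
  have hb1 : j0 ≤ b ∧ d b ∈ D.hit n E1 := Nat.find_spec hex
  have hb2 : b ≤ k := Nat.find_min' hex ⟨hj0, he⟩
  have hb3 : ∀ j, j0 ≤ j → j < b → d j ∉ D.hit n E1 := fun j h1 h2 h3 =>
    Nat.find_min hex h2 ⟨h1, h3⟩
  have hb4 : j0 < b := by
    refine lt_of_le_of_ne hb1.1 fun h => ?_
    have := F.u_en _ hb1.2
    rw [← h, hd] at this
    linarith
  refine ⟨b - a, fun j => d (a + j), j0 - a, ⟨⟨fun j hj => hW.lev _ (by omega),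
    fun j hj => hW.adj (a + j) (by omega)⟩, ha2, ?_, fun j h1 h2 h3 => ?_, fun j h2 h3 => ?_⟩,
    by omega, ?_, fun j hj => hm (a + j) (by omega)⟩
  · have : a + (b - a) = b := by omega
    simp only [this]
    exact hb1.2
  · rcases le_total (a + j) j0 with h | h
    · exact ha3 _ (by omega) h h3
    · have e1 := hmono j0 (a + j) h (by omega)
      have e2 := F.u_st _ h3
      rw [hd] at e1
      linarith [h0 (d (a + j))]
  · rcases le_total (a + j) j0 with h | h
    · have e1 := hmono (a + j) j0 h hj0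
      have e2 := F.u_en _ h3
      rw [hd] at e1
      linarith
    · exact hb3 _ h (by omega) h3
  · have : a + (j0 - a) = j0 := by omega
    simp only [this]
    exact hd

end AThru

theorem Seq.thruP (s : Seq D E R) {l : PL} (hl : s.Is l) (hL : LfP D E R) (hC : CrvP D E R)
    (hR : s.RhoP) : l.ThruP := by
  intro t e ht1 ht2 he he2 x hx
  obtain ⟨U, hU, hlU⟩ := hl.hU
  have hx' : |l.U x - t| ≤ e := hx
  obtain ⟨hx1, hx2⟩ := abs_le.1 hx'
  have hθ := l.θ_pos
  have hθ2 := l.θ_lt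
  have hre := l.re_mem (w := x) (by linarith) (by linarith)
  obtain ⟨r, hr, hcont⟩ := Metric.continuousAt_iff.1 (l.U_cont.continuousAt (x := x)) e he
  obtain ⟨δ, hδ, hsec⟩ := R.sec r hr
  obtain ⟨σ, -, -, hσ⟩ := hsec x ⟨by linarith [hre.1], by linarith [hre.2]⟩
  have hC0 := D.C_pos
  have hΛ := E.one_le_Λ
  have e1 := hU.app (4 * D.C * E.Λ) (e / 4) (by linarith)
  have hle : (hyperfilter ℕ : Filter ℕ) ≤ atTop := by
    rw [← Nat.cofinite_eq_atTop]
    exact hyperfilter_le_cofinite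
  have e2 := (hR (1 / 16) (by norm_num)).filter_mono hle
  have e3 := (hL l.θ hθ).filter_mono hle
  have e4 := (D.ev_small (2 * D.C) δ hδ).filter_mono hle
  obtain ⟨n, happ, hρ, hlf, hsm⟩ := (e1.and (e2.and (e3.and e4))).exists
  obtain ⟨g, hg, hgx⟩ := D.exists_hit n (R.p x)
  have hq := D.qpow_pos n
  have hL2 : 2 * D.C * D.q ^ n ≤ 4 * D.C * E.Λ * D.q ^ n := by
    refine mul_le_mul_of_nonneg_right ?_ hq.le
    nlinarith
  have hug := happ g (R.p x) hg (hgx.trans_le hL2)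
  rw [← hlU] at hug
  obtain ⟨hug1, hug2⟩ := abs_le.1 hug
  obtain ⟨k, d, j0, hch, hj0, hd, hm⟩ := AThru.cut (s.P n) hg
    (fun g' => by linarith [hρ g']) (by linarith)
  have hmono : ∀ a b, a ≤ b → b ≤ k → (s.P n).u (d a) ≤ (s.P n).u (d b) := fun a b hab hb =>
    AThru.mono_of (u := fun j => (s.P n).u (d j)) hm hab hb
  obtain ⟨w, Lk, hlift⟩ := hlf k d hch
  have hgb : D.pt g ∈ ball (R.p x) δ := by
    rw [mem_ball, dist_comm]
    exact hgx.trans hsm
  obtain ⟨hs1, hs2⟩ := hσ _ hgb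
  obtain ⟨m, hm'⟩ := R.inj (w j0) (σ (D.pt g)) (by rw [hs1, hlift.pw j0 hj0.le, hd])
  have hl2 := hC.shift _ _ _ _ _ _ m hlift
  set w' : ℕ → ℂ := fun j => w j + m * TT with hw'
  set Lk' : ℕ → Set ℂ := fun j => sh m (Lk j) with hLk'
  have hwj : w' j0 ∈ ball x r := by
    have : w' j0 = σ (D.pt g) := hm'.symm
    rw [this]
    exact hs2
  have hball : ball x r ⊆ l.Bd t (2 * e) := by
    intro y hy
    have h1 := hcont (mem_ball.1 hy)
    rw [Real.dist_eq] at h1
    obtain ⟨h2, h3⟩ := abs_lt.1 h1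
    show |l.U y - t| ≤ 2 * e
    exact abs_le.2 ⟨by linarith, by linarith⟩
  have hJ1 : JoinedIn (l.Bd t (2 * e)) x (w' j0) :=
    (((convex_ball x r).isPathConnected ⟨x, mem_ball_self hr⟩).joinedIn x (mem_ball_self hr) _
      hwj).mono hball
  have hlink : ∀ j < k, ∀ y ∈ Lk' j, |(s.P n).u (d j) - l.U y| ≤ e / 4 := by
    intro j hj y hy
    rw [hlU]
    exact happ _ _ (hch.wk.lev j hj.le) (hl2.nr j hj y hy)
  refine ⟨crv k w' Lk', hC.crs _ _ _ _ _ _ (by linarith) hl2, fun y hy => ?_⟩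
  obtain ⟨hyA, hyB⟩ := hy
  have hyB' : |l.U y - t| ≤ e := hyB
  obtain ⟨hy1, hy2⟩ := abs_le.1 hyB'
  rcases hyA with (hyA | hyA) | hyA
  · have h1 := (abs_lt.1 hl2.re0).2
    have h2 := l.lo y (by linarith [hyA.2.2])
    linarith
  · simp only [mem_iUnion] at hyA
    obtain ⟨j1, hj1, hyL⟩ := hyA
    obtain ⟨hu1, hu2⟩ := abs_le.1 (hlink j1 hj1 y hyL)
    have hpc := hC.link _ _ _ _ _ _ hl2 (min j0 j1) (max j0 j1 + 1) (by omega) (by omega)
    have hsub : (⋃ j ∈ Ico (min j0 j1) (max j0 j1 + 1), Lk' j) ⊆ l.Bd t (2 * e) := by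
      intro z hz
      simp only [mem_iUnion] at hz
      obtain ⟨j, ⟨hja, hjb⟩, hz⟩ := hz
      obtain ⟨h1, h2⟩ := abs_le.1 (hlink j (by omega) z hz)
      have h3 := hmono _ _ hja (by omega)
      have h4 := hmono j (max j0 j1) (by omega) (by omega)
      have h5 : t - e - e / 4 ≤ (s.P n).u (d (min j0 j1)) := by
        rcases le_total j0 j1 with h | h
        · rw [min_eq_left h, hd]
          linarith
        · rw [min_eq_right h]
          linarith
      have h6 : (s.P n).u (d (max j0 j1)) ≤ t + e + e / 4 := by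
        rcases le_total j0 j1 with h | h
        · rw [max_eq_right h]
          linarith
        · rw [max_eq_left h, hd]
          linarith
      show |l.U z - t| ≤ 2 * e
      exact abs_le.2 ⟨by linarith, by linarith⟩
    refine hJ1.trans ((hpc.joinedIn _ ?_ _ ?_).mono hsub)
    · exact mem_biUnion (show j0 ∈ Ico (min j0 j1) (max j0 j1 + 1) from ⟨by omega, by omega⟩)
        (hl2.ml j0 hj0)
    · exact mem_biUnion (show j1 ∈ Ico (min j0 j1) (max j0 j1 + 1) from ⟨by omega, by omega⟩) hyL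
  · have h1 := (abs_lt.1 hl2.re1).1
    have h2 := l.hi y (by linarith [hyA.2.1])
    linarith

end Vale.Agent.P198
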