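import Vale.Agent.P198.A.Stm

/-! Part II-a: time spent in a window. -/

open Set Metric Topology Filter

namespace Vale.Agent.P198

variable {G Z : Type*} [Group G] [MetricSpace Z] [MulAction G Z]

theorem timeP (D : Dyn G Z) : TimeP D := by
  classical
  intro n E0 E1 F r t lam hr hl i hi
  refine ⟨fun j j' h1 h2 => ?_, ?_⟩
  · rw [F.time i hi j (h1.trans h2), F.time i hi j' h2]
    exact Finset.sum_le_sum_of_subset_of_nonneg (Finset.range_mono (by omega))
      fun k _ _ => F.ρ_nonneg _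
  · obtain ⟨S, hS⟩ : ∃ S, S = (Finset.range (F.m i + 1)).filter
        fun j => |F.u (F.c i j) - t| ≤ lam := ⟨_, rfl⟩
    rw [← hS]
    rcases S.eq_empty_or_nonempty with h0 | h0
    · have := (F.ρ_nonneg 1).trans (hr 1)
      rw [h0, Finset.sum_empty]
      linarith
    have hm : ∀ j ∈ S, j ≤ F.m i ∧ |F.u (F.c i j) - t| ≤ lam := fun j hj => by
      rw [hS, Finset.mem_filter, Finset.mem_range] at hj
      exact ⟨by omega, hj.2⟩
    obtain ⟨a1, a2⟩ := hm _ (S.min'_mem h0)
    obtain ⟨b1, b2⟩ := hm _ (S.max'_mem h0)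
    have h1 : ∑ j ∈ S, F.ρ (F.c i j) ≤
        ∑ j ∈ Finset.Ico (S.min' h0) (S.max' h0 + 1), F.ρ (F.c i j) :=
      Finset.sum_le_sum_of_subset_of_nonneg
        (fun j hj => Finset.mem_Ico.2 ⟨S.min'_le j hj, Nat.lt_succ_of_le (S.le_max' j hj)⟩)
        fun k _ _ => F.ρ_nonneg _
    rw [Finset.sum_Ico_eq_sub _ (Nat.le_succ_of_le (S.min'_le_max' h0)), ← F.time i hi _ b1] at h1
    have h2 := F.time i hi _ a1
    rw [Finset.sum_range_succ] at h2
    have h3 := hr (F.c i (S.min' h0))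
    have h4 := abs_le.1 a2
    have h5 := abs_le.1 b2
    linarith [h4.1, h5.2]

end Vale.Agent.P198
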