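import Vale.Agent.P198.A.Stm

/-! Part II-a: the potential oscillates little on small balls. -/

open Set Metric Topology Filter

namespace Vale.Agent.P198

variable {G Z : Type*} [Group G] [MetricSpace Z] [MulAction G Z] [CompactSpace Z] {D : Dyn G Z}
  {E : Geo Z} {R : Ring Z}

namespace AUC0

omit [CompactSpace Z] in
theorem nearU (D : Dyn G Z) (E : Geo Z) : ∃ N1 : ℕ, ∀ (n : ℕ) (E0 E1 : Set Z)
    (F : Pot D n E0 E1) (e : ℝ), (∀ g, F.ρ g ≤ e) → ∀ (h h' : G) (x : Z), D.len h = n →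
    D.len h' = n → dist x (D.pt h) < 4 * D.C * E.Λ * D.q ^ n →
    dist x (D.pt h') < 2 * D.C * D.q ^ n → F.u h' ≤ F.u h + N1 * e ∧ F.u h ≤ F.u h' + N1 * e := by
  obtain ⟨N1, hN⟩ := D.loc' (2 * D.C + E.Λ * (4 * D.C * E.Λ))
  refine ⟨N1, fun n E0 E1 F e he h h' x hh hh' h1 h2 => ?_⟩
  have hq := D.qpow_pos n
  have hC := D.C_pos
  have hΛ : 0 ≤ E.Λ := zero_le_one.trans E.one_le_Λ
  have he0 : 0 ≤ e := (F.toFlow.ρ_nonneg h).trans (he h)
  have hl : D.ln n F.ρ (closedBall (D.pt h) (E.Λ * dist (D.pt h) x)) ≤ N1 * e := by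
    refine (Finset.sum_le_card_nsmul _ _ e fun g _ => he g).trans ?_
    rw [nsmul_eq_mul]
    refine mul_le_mul_of_nonneg_right ?_ he0
    refine Nat.cast_le.2 (hN (D.pt h) n _ fun g hg => ?_)
    obtain ⟨g1, y, hy, g2⟩ := D.mem_hit.1 hg
    refine ⟨g1, ?_⟩
    rw [mem_closedBall, dist_comm (D.pt h) x] at hy
    have a1 := dist_triangle_left (D.pt g) (D.pt h) y
    have a2 := mul_le_mul_of_nonneg_left h1.le hΛ
    linarith
  have h0 : dist (D.pt h) (D.pt h) < 2 * D.C * D.q ^ n := by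
    rw [dist_self]
    positivity
  have hj := E.llc (D.pt h) x
  constructor
  · exact (F.plen _ _ _ h h' hj hh hh' h0 h2).trans (add_le_add_right hl _)
  · exact (F.plen _ _ _ h' h hj.symm hh' hh h2 h0).trans (add_le_add_right hl _)

omit [CompactSpace Z] in
theorem wid (D : Dyn G Z) (E : Geo Z) (n : ℕ) :
    2 * D.C * D.q ^ n ≤ 4 * D.C * E.Λ * D.q ^ n := by
  refine mul_le_mul_of_nonneg_right ?_ (D.qpow_pos n).le
  have := mul_le_mul_of_nonneg_left E.one_le_Λ D.C_pos.le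
  have := D.C_pos
  linarith

omit [CompactSpace Z] in
theorem joinB (D : Dyn G Z) (E : Geo Z) {n : ℕ} {h : G} {x : Z}
    (hx : dist x (D.pt h) < 2 * D.C * D.q ^ n) :
    JoinedIn {y | dist y (D.pt h) < 4 * D.C * E.Λ * D.q ^ n} (D.pt h) x := by
  refine (E.llc (D.pt h) x).mono fun y hy => ?_
  rw [mem_closedBall, dist_comm (D.pt h) x] at hy
  have hΛ : 0 < E.Λ := one_pos.trans_le E.one_le_Λ
  have a1 := mul_lt_mul_of_pos_left hx hΛ
  have a2 : 0 < D.C * E.Λ * D.q ^ n := mul_pos (mul_pos D.C_pos hΛ) (D.qpow_pos n)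
  show dist y (D.pt h) < _
  linarith

theorem mono {u : ℕ → ℝ} {k : ℕ} (h : ∀ j < k, u j ≤ u (j + 1)) {a b : ℕ} (hab : a ≤ b)
    (hb : b ≤ k) : u a ≤ u b := by
  induction b, hab using Nat.le_induction with
  | base => exact le_rfl
  | succ b _ ih => exact (ih (by omega)).trans (h b (by omega))

omit [CompactSpace Z] in
theorem low (hR : RealP D E) {n : ℕ} {E0 E1 : Set Z} (F : Pot D n E0 E1) {e : ℝ}
    (he : ∀ g, F.ρ g ≤ e) (h0 : IsPathConnected E0) {g : G} (hg : D.len g = n) {b : Z}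
    (hb : b ∈ E0) : JoinedIn {y | ∃ h, D.len h = n ∧ dist y (D.pt h) < 4 * D.C * E.Λ * D.q ^ n ∧
      F.u h ≤ F.u g + e} (D.pt g) b := by
  obtain ⟨k, d, j0, hw, hs, -, hj, rfl, hm⟩ := F.thru g hg
  have he0 : 0 ≤ e := (F.toFlow.ρ_nonneg 1).trans (he 1)
  have hu : ∀ j ≤ j0, F.u (d j) ≤ F.u (d j0) + e := fun j hj' =>
    (mono (u := fun j => F.u (d j)) hm hj' hj).trans (le_add_of_nonneg_right he0)
  obtain ⟨-, x, hx, hx'⟩ := D.mem_hit.1 hs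
  refine ((hR n k d hw 0 j0 (Nat.zero_le _) hj).symm.mono ?_).trans
    (((joinB D E hx').mono ?_).trans ((h0.joinedIn x hx b hb).mono ?_))
  · rintro y ⟨j, -, j1, j2⟩
    exact ⟨d j, hw.lev j (j1.trans hj), j2, hu j j1⟩
  · exact fun y hy => ⟨d 0, hw.lev 0 (Nat.zero_le _), hy, hu 0 (Nat.zero_le _)⟩
  · intro y hy
    obtain ⟨h, h1, h2⟩ := D.exists_hit n y
    refine ⟨h, h1, h2.trans_le (wid D E n), ?_⟩
    have a1 := F.u_st h (D.mem_hit.2 ⟨h1, y, hy, h2⟩)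
    have a2 := F.u_nonneg _ hg
    linarith [he h]

omit [CompactSpace Z] in
theorem high (hR : RealP D E) {n : ℕ} {E0 E1 : Set Z} (F : Pot D n E0 E1)
    (h0 : IsPathConnected E1) {g : G} (hg : D.len g = n) {b : Z}
    (hb : b ∈ E1) : JoinedIn {y | ∃ h, D.len h = n ∧ dist y (D.pt h) < 4 * D.C * E.Λ * D.q ^ n ∧
      F.u g ≤ F.u h} (D.pt g) b := by
  obtain ⟨k, d, j0, hw, -, hs, hj, rfl, hm⟩ := F.thru g hg
  have hu : ∀ j, j0 ≤ j → j ≤ k → F.u (d j0) ≤ F.u (d j) := fun j j1 j2 =>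
    mono (u := fun j => F.u (d j)) hm j1 j2
  obtain ⟨-, x, hx, hx'⟩ := D.mem_hit.1 hs
  refine ((hR n k d hw j0 k hj le_rfl).mono ?_).trans
    (((joinB D E hx').mono ?_).trans ((h0.joinedIn x hx b hb).mono ?_))
  · rintro y ⟨j, j0, j1, j2⟩
    exact ⟨d j, hw.lev j j1, j2, hu j j0 j1⟩
  · exact fun y hy => ⟨d k, hw.lev k le_rfl, hy, hu k hj le_rfl⟩
  · intro y hy
    obtain ⟨h, h1, h2⟩ := D.exists_hit n y
    exact ⟨h, h1, h2.trans_le (wid D E n),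
      (F.u_le _ hg).trans (F.u_en h (D.mem_hit.2 ⟨h1, y, hy, h2⟩))⟩

omit [CompactSpace Z] in
theorem pick (D : Dyn G Z) (n N : ℕ) (hN : 0 < N) (ρ : G → ℝ) (z : Z) (L a : ℝ)
    (hL : L * D.q ^ n < a) (ha : 0 < a) :
    ∃ i < N, ∑ g ∈ D.near n L (ann z (a * 4 ^ i)), ρ g ^ 2 ≤ D.mass n ρ / N := by
  classical
  have hd : ∀ i j : ℕ, i < j →
      Disjoint (D.near n L (ann z (a * 4 ^ i))) (D.near n L (ann z (a * 4 ^ j))) := by
    intro i j hij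
    refine Finset.disjoint_left.2 fun g h1 h2 => ?_
    obtain ⟨-, x, ⟨-, x1⟩, x2⟩ := D.mem_near.1 h1
    obtain ⟨-, y, ⟨y1, -⟩, y2⟩ := D.mem_near.1 h2
    have a1 : (4 : ℝ) ^ (i + 1) ≤ 4 ^ j := pow_le_pow_right₀ (by norm_num) hij
    have a2 : (1 : ℝ) ≤ 4 ^ i := one_le_pow₀ (by norm_num)
    rw [pow_succ] at a1
    have a3 := mul_le_mul_of_nonneg_left a1 ha.le
    have a4 := mul_le_mul_of_nonneg_left a2 ha.le
    have a5 := dist_triangle y x z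
    have a6 := dist_triangle_right y x (D.pt g)
    linarith
  have hs : ∑ i ∈ Finset.range N, ∑ g ∈ D.near n L (ann z (a * 4 ^ i)), ρ g ^ 2 ≤
      ∑ _i ∈ Finset.range N, D.mass n ρ / N := by
    rw [← Finset.sum_biUnion, Finset.sum_const, Finset.card_range, nsmul_eq_mul,
      mul_div_cancel₀ _ (by positivity)]
    · refine Finset.sum_le_sum_of_subset_of_nonneg (fun g hg => ?_) fun g _ _ => sq_nonneg _
      obtain ⟨i, -, hi⟩ := Finset.mem_biUnion.1 hg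
      exact D.near_subset _ _ _ hi
    · intro i _ j _ hij
      rcases lt_or_gt_of_ne hij with h | h
      · exact hd i j h
      · exact (hd j i h).symm
  obtain ⟨i, hi, h⟩ := Finset.exists_le_of_sum_le ⟨0, Finset.mem_range.2 hN⟩ hs
  exact ⟨i, Finset.mem_range.1 hi, h⟩

end AUC0

theorem Seq.uc0P (s : Seq D E R) (hR : RealP D E) (hD : DualP D) (h : s.RhoP) : s.UC0P := by
  obtain ⟨κ0, hκ0, hD⟩ := hD
  have hC := D.one_le_C
  obtain ⟨Cd, hCd, hD⟩ := hD (2 * D.C) (by linarith)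
  obtain ⟨N1, hN1⟩ := AUC0.nearU D E
  have hk : 0 < κ0 := by linarith
  have hd := R.d1_pos
  refine ⟨Cd, hCd, fun N hN => ⟨R.d1 / (κ0 ^ 2 * 4 ^ N), by positivity, fun κ hκ => ?_⟩⟩
  have hr1 : κ0 ^ 2 * 4 ^ N * (R.d1 / (κ0 ^ 2 * 4 ^ N)) = R.d1 := mul_div_cancel₀ _ (by positivity)
  have hr0 : 0 < R.d1 / (κ0 ^ 2 * 4 ^ N) := by positivity
  generalize R.d1 / (κ0 ^ 2 * 4 ^ N) = r at hr0 hr1 ⊢
  have he1 : (2 * N1 + 1) * (κ / (2 * N1 + 1)) = κ := mul_div_cancel₀ _ (by positivity)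
  filter_upwards [h (κ / (2 * N1 + 1)) (by positivity), D.ev_small (2 * D.C + 1) r hr0]
    with n he hn g g' hg hg' hgg
  generalize κ / (2 * N1 + 1) = e at he he1
  have hq := D.qpow_pos n
  have hrk : r ≤ κ0 * r := le_mul_of_one_le_left hr0.le hκ0
  obtain ⟨i, hi, hm⟩ := AUC0.pick D n N hN (s.P n).ρ (D.pt g) (2 * D.C + 1) (κ0 * r)
    (hn.trans_le hrk) (by positivity)
  have a1 : κ0 * r ≤ κ0 * r * 4 ^ i :=
    le_mul_of_one_le_right (by positivity) (one_le_pow₀ (by norm_num))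
  have a2 : κ0 * (κ0 * r * 4 ^ i) ≤ R.d1 := by
    have b1 : (4 : ℝ) ^ i ≤ 4 ^ N := pow_le_pow_right₀ (by norm_num) hi.le
    have b2 := mul_le_mul_of_nonneg_left b1 (show 0 ≤ κ0 ^ 2 * r by positivity)
    linarith
  obtain ⟨b0, hb0, hb0'⟩ := R.big0 (D.pt g)
  obtain ⟨b1, hb1, hb1'⟩ := R.big1 (D.pt g)
  have a3 := mul_le_mul_of_nonneg_right hC hq.le
  obtain ⟨W, x1, ⟨h1, p1, p2, p3⟩, x2, ⟨h2, q1, q2, q3⟩, hW, -, hl⟩ := hD n (D.pt g)
    (κ0 * r * 4 ^ i) (s.P n).ρ _ _ (by linarith) (s.P n).toFlow.ρ_nonneg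
    ⟨_, _, AUC0.low hR (s.P n) he R.conn0 hg hb0, by rw [dist_self, mul_zero]; positivity,
      a2.trans hb0'⟩
    ⟨_, _, AUC0.high hR (s.P n) R.conn1 hg' hb1, by
      rw [dist_comm]
      exact (mul_le_mul_of_nonneg_left hgg.le hk.le).trans a1, a2.trans hb1'⟩
  obtain ⟨k1, r1, r2⟩ := D.exists_hit n x1
  obtain ⟨k2, t1, t2⟩ := D.exists_hit n x2
  have c1 := (hN1 n _ _ (s.P n) e he h1 k1 x1 p1 r1 p2 r2).1
  have c2 := (hN1 n _ _ (s.P n) e he h2 k2 x2 q1 t1 q2 t2).2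
  have c3 := (s.P n).plen W x1 x2 k1 k2 hW r1 t1 r2 t2
  have c4 : D.ln n (s.P n).ρ W ≤ √(Cd * (s.P n).M / N) := by
    refine Real.le_sqrt_of_sq_le (hl.trans ?_)
    rw [mul_div_assoc, ← (s.P n).mass]
    exact mul_le_mul_of_nonneg_left hm hCd.le
  linarith

end Vale.Agent.P198
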