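import Vale.Agent.P198.A.Stm

/-! The limit potential. -/

open Set Metric Topology Filter

namespace Vale.Agent.P198

variable {G Z : Type*} [Group G] [MetricSpace Z] [MulAction G Z] [CompactSpace Z] {D : Dyn G Z}
  {E : Geo Z} {R : Ring Z}

theorem Seq.uLimP (s : Seq D E R) (h1 : s.UCP) (h2 : s.RhoP) : s.ULimP := by
  choose nd hl hd using D.exists_hit
  have hle : (hyperfilter ℕ : Filter ℕ) ≤ atTop := Nat.hyperfilter_le_atTop
  have hb : ∀ x n, (s.P n).u (nd n x) ∈ Icc (0 : ℝ) 1 := fun x n =>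
    ⟨(s.P n).u_nonneg _ (hl n x), (s.P n).u_le _ (hl n x)⟩
  have hex : ∀ x : Z, ∃ a : ℝ,
      Tendsto (fun n => (s.P n).u (nd n x)) (hyperfilter ℕ : Filter ℕ) (𝓝 a) := by
    intro x
    obtain ⟨a, -, ha⟩ := isCompact_Icc.ultrafilter_le_nhds
      ((hyperfilter ℕ).map fun n => (s.P n).u (nd n x))
      (by
        rw [Ultrafilter.coe_map, le_principal_iff, mem_map]
        exact univ_mem' (hb x))
    exact ⟨a, ha⟩
  choose U hU using hex
  have K : ∀ κ : ℝ, 0 < κ → ∃ r : ℝ, 0 < r ∧ (∀ᶠ n in atTop, ∀ g x, D.len g = n →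
      dist x (D.pt g) < 2 * r → |(s.P n).u g - (s.P n).u (nd n x)| ≤ κ) ∧
      ∀ x y, dist x y < r → |U y - U x| ≤ κ := by
    intro κ hκ
    obtain ⟨r, hr, h⟩ := h1 κ hκ
    have A : ∀ᶠ n in atTop, ∀ g x, D.len g = n →
        dist x (D.pt g) < 2 * (r / 4) → |(s.P n).u g - (s.P n).u (nd n x)| ≤ κ := by
      filter_upwards [h, D.ev_small (2 * D.C) (r / 2) (by positivity)] with n hn hn' g x hg hx
      refine hn _ _ (hl n x) hg ?_
      linarith [dist_triangle_left (D.pt (nd n x)) (D.pt g) x, hd n x]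
    refine ⟨r / 4, by positivity, A, fun x y hxy => ?_⟩
    refine le_of_tendsto ((hU y).sub (hU x)).abs (hle ?_)
    filter_upwards [A, D.ev_small (2 * D.C) (r / 4) (by positivity)] with n hn hn'
    refine hn _ _ (hl n y) ?_
    linarith [dist_triangle x y (D.pt (nd n y)), hd n y]
  refine ⟨U, ?_, fun x hx => ?_, fun x hx => ?_, fun L κ hκ => ?_⟩
  · refine Metric.continuous_iff.2 fun x ε hε => ?_
    obtain ⟨r, hr, -, h⟩ := K (ε / 2) (by positivity)
    refine ⟨r, hr, fun y hy => ?_⟩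
    rw [Real.dist_eq]
    exact (h x y (by rwa [dist_comm])).trans_lt (by linarith)
  · refine le_antisymm (le_of_forall_pos_le_add fun κ hκ => ?_)
      (ge_of_tendsto' (hU x) fun n => (hb x n).1)
    refine le_of_tendsto (hU x) (hle ?_)
    filter_upwards [h2 κ hκ] with n hn
    have := (s.P n).u_st (nd n x) (D.mem_hit.2 ⟨hl n x, x, hx, hd n x⟩)
    linarith [hn (nd n x)]
  · exact le_antisymm (le_of_tendsto' (hU x) fun n => (hb x n).2)
      (ge_of_tendsto' (hU x) fun n => (s.P n).u_en (nd n x) (D.mem_hit.2 ⟨hl n x, x, hx, hd n x⟩))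
  · obtain ⟨r, hr, hA, hB⟩ := K (κ / 3) (by positivity)
    obtain ⟨t, -, ht, hc⟩ := finite_cover_balls_of_compact (isCompact_univ (X := Z)) hr
    have hC : ∀ᶠ n in (hyperfilter ℕ : Filter ℕ), ∀ x ∈ t, |(s.P n).u (nd n x) - U x| ≤ κ / 3 := by
      refine (eventually_all_finite ht).2 fun x _ => ?_
      filter_upwards [(hU x).eventually (closedBall_mem_nhds (U x) (by positivity : 0 < κ / 3))]
        with n hn
      rwa [Real.dist_eq] at hn
    filter_upwards [hC, hle hA, hle (D.ev_small L r hr)] with n hn hn1 hn2 g y hg hy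
    obtain ⟨x, hx, hyx⟩ := mem_iUnion₂.1 (hc (mem_univ y))
    have hyx : dist y x < r := hyx
    have hn2 : L * D.q ^ n < r := hn2
    have a1 := hn1 g x hg (by linarith [dist_triangle_left x (D.pt g) y])
    have a2 := hn x hx
    have a3 := hB y x hyx
    rw [abs_le] at a1 a2 a3 ⊢
    constructor <;> linarith [a1.1, a1.2, a2.1, a2.2, a3.1, a3.2]

end Vale.Agent.P198
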