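import Vale.Agent.P198.A.Stm

/-! Level sets of the plane map are connected between two values of the conjugate function. -/

open Set Metric Topology Filter

namespace Vale.Agent.P198

namespace AVConn

theorem bd_mono (l : PL) (t : ℝ) {e e' : ℝ} (h : e ≤ e') : l.Bd t e ⊆ l.Bd t e' :=
  fun _ hw => le_trans hw h

theorem bd_strip (l : PL) {t e : ℝ} (h1 : 1 / 4 ≤ t) (h2 : t ≤ 3 / 4) (he : e ≤ 1 / 32) :
    l.Bd t e ⊆ strip (-1) 2 := by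
  intro w hw
  have hw' := abs_le.1 (show |l.U w - t| ≤ e from hw)
  have := l.re_mem (w := w) (by linarith [hw'.1]) (by linarith [hw'.2])
  have := l.θ_pos
  constructor <;> linarith [this]

theorem exists_hb {Q : Set ℂ} (hQ : IsCompact Q) : ∃ H : ℝ, Q ⊆ Hb H := by
  obtain ⟨H, hH⟩ := hQ.isBounded.exists_norm_le
  exact ⟨H, fun w hw => (Complex.abs_im_le_norm w).trans (hH w hw)⟩

theorem hb_mono {H H' : ℝ} (h : H ≤ H') : Hb H ⊆ Hb H' := fun _ hw => le_trans hw h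

end AVConn

open AVConn in
theorem PL.vConnP (l : PL) (h1 : l.PropP) (h2 : l.SurjP) (h3 : l.LamP) (h4 : l.KeyP)
    (h5 : l.DensP) (h6 : SurgP) (h7 : l.SlabE) : l.VConnP := by
  intro t a b e ht1 ht2 he x y hx hy hxa hxb hya hyb
  have hab : a ≤ b := hxa.trans hxb
  obtain ⟨β, hβe⟩ : ∃ β : ℝ, e = 20 * β := ⟨e / 20, by ring⟩
  have hβ : 0 < β := by linarith
  obtain ⟨q1, hq1U, hq1V⟩ := h2 t (b + 5 * β) ht1 ht2
  obtain ⟨q2, hq2U, hq2V⟩ := h2 t (b + 8 * β) ht1 ht2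
  obtain ⟨q3, hq3U, hq3V⟩ := h2 t (a - 8 * β) ht1 ht2
  obtain ⟨q4, hq4U, hq4V⟩ := h2 t (a - 5 * β) ht1 ht2
  obtain ⟨H, -, hH⟩ := h1.prop (a - 8 * β) (b + 8 * β)
  have hmid : ∀ w, l.U w = t → w ∈ l.Mid := fun w hw =>
    l.mem_mid (by rw [hw]; linarith) (by rw [hw]; linarith)
  have hq1H : q1 ∈ Hb H := hH q1 (hmid q1 hq1U) (by linarith) (by linarith)
  have hq2H : q2 ∈ Hb H := hH q2 (hmid q2 hq2U) (by linarith) (by linarith)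
  have hq3H : q3 ∈ Hb H := hH q3 (hmid q3 hq3U) (by linarith) (by linarith)
  have hq4H : q4 ∈ Hb H := hH q4 (hmid q4 hq4U) (by linarith) (by linarith)
  obtain ⟨lam0, hlam0, hS⟩ := h7 H β hβ
  obtain ⟨lam, hl0, hl1, hl2, hl3⟩ : ∃ lam : ℝ, 0 < lam ∧ lam ≤ lam0 ∧ 3 * lam ≤ e ∧
      lam ≤ 1 / 32 := by
    refine ⟨min lam0 (min (e / 3) (1 / 32)), lt_min hlam0 (lt_min (by linarith) (by norm_num)),
      min_le_left _ _, ?_, (min_le_right _ _).trans (min_le_right _ _)⟩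
    have := (min_le_right lam0 (min (e / 3) (1 / 32))).trans (min_le_left _ _)
    linarith
  obtain ⟨Λ, hΛ⟩ := h3 t lam ht1 ht2 hl0 hl3
  have hin : ∀ w, l.U w = t → w ∈ Λ := fun w hw => hΛ.sup (by
    show |l.U w - t| ≤ lam / 2
    rw [hw, sub_self, abs_zero]; linarith)
  obtain ⟨Q, hQΛ, hQc, hQp, hxQ, hyQ⟩ :=
    (pathP ℂ).cpt Λ x y (hΛ.conn.joinedIn x (hin x hx) y (hin y hy))
  obtain ⟨Q1, hQ1Λ, hQ1c, hQ1p, h1Q, h2Q⟩ :=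
    (pathP ℂ).cpt Λ q1 q2 (hΛ.conn.joinedIn q1 (hin q1 hq1U) q2 (hin q2 hq2U))
  obtain ⟨Q2, hQ2Λ, hQ2c, hQ2p, h3Q, h4Q⟩ :=
    (pathP ℂ).cpt Λ q3 q4 (hΛ.conn.joinedIn q3 (hin q3 hq3U) q4 (hin q4 hq4U))
  obtain ⟨H', hH'⟩ := exists_hb ((hQc.union hQ1c).union hQ2c)
  have hQH : Q ⊆ Λ ∩ Hb H' := fun w hw => ⟨hQΛ hw, hH' (Or.inl (Or.inl hw))⟩
  have hQ1H : Q1 ⊆ Λ ∩ Hb H' := fun w hw => ⟨hQ1Λ hw, hH' (Or.inl (Or.inr hw))⟩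
  have hQ2H : Q2 ⊆ Λ ∩ Hb H' := fun w hw => ⟨hQ2Λ hw, hH' (Or.inr hw)⟩
  obtain ⟨S, μ, A, hA⟩ := hS lam hl0 hl1 H' t ht1 ht2
  obtain ⟨j, hj, hjg, z, ⟨⟨hzA, hzΛ⟩, hzH⟩, hz1, hz2⟩ := h5 S μ A t lam H H' β Λ hA hΛ q1 hq1H q2
    hq2H ((hQ1p.joinedIn q1 h1Q q2 h2Q).mono hQ1H) (by linarith)
  obtain ⟨i, hi, hig, v, ⟨⟨hvA, hvΛ⟩, hvH⟩, hv1, hv2⟩ := h5 S μ A t lam H H' β Λ hA hΛ q3 hq3H q4
    hq4H ((hQ2p.joinedIn q3 h3Q q4 h4Q).mono hQ2H) (by linarith)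
  obtain ⟨N, hN, hNp, hN'⟩ := hA.win j hj
  obtain ⟨M, hM, hMp, hM'⟩ := hA.win i hi
  have h13 : l.Bd t lam ⊆ l.Bd t (3 * lam) := bd_mono l t (by linarith)
  have hAj : ∀ w ∈ A j ∩ l.Bd t (3 * lam), b + 2 * β ≤ l.V w ∧ l.V w ≤ b + 11 * β := by
    intro w hw
    have := abs_le.1 (hjg.2 w hw z ⟨hzA, h13 (hΛ.sub hzΛ)⟩)
    constructor <;> linarith [this.1, this.2]
  have hAi : ∀ w ∈ A i ∩ l.Bd t (3 * lam), a - 11 * β ≤ l.V w ∧ l.V w ≤ a - 2 * β := by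
    intro w hw
    have := abs_le.1 (hig.2 w hw v ⟨hvA, h13 (hΛ.sub hvΛ)⟩)
    constructor <;> linarith [this.1, this.2]
  have hKj := h4 S μ A t lam H H' β Λ hA hΛ j hj hjg z ⟨⟨hzA, hΛ.sub hzΛ⟩, hzH⟩
  have hKi := h4 S μ A t lam H H' β Λ hA hΛ i hi hig v ⟨⟨hvA, hΛ.sub hvΛ⟩, hvH⟩
  have hQs : Q ⊆ strip (-1) 2 := fun w hw => bd_strip l ht1 ht2 hl3 (hΛ.sub (hQΛ hw))
  have hQ3 : Q ⊆ l.Bd t (3 * lam) := fun w hw => h13 (hΛ.sub (hQΛ hw))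
  have hnU : ∀ w ∈ Q, l.V w ≤ b → w ∈ (Up (-1) 2 (A j))ᶜ := fun w hw hb hU => by
    have := (hKj w (hQH hw)).1 hU
    linarith
  have hnA : ∀ w ∈ Q, l.V w ≤ b → w ∉ A j := fun w hw hb hU => by
    have := (hAj w ⟨hU, hQ3 hw⟩).1
    linarith
  have hyU : ∀ w ∈ Q, a ≤ l.V w → w ∈ Up (-1) 2 (A i) := fun w hw ha => by
    by_contra hU
    have := (hKi w (hQH hw)).2 hU
    linarith
  have hnI : ∀ w ∈ Q, a ≤ l.V w → w ∉ A i := fun w hw ha hU => by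
    have := (hAi w ⟨hU, hQ3 hw⟩).2
    linarith
  have s1 := h6 Q (A j) N (Up (-1) 2 (A j))ᶜ x y (hA.crs j hj).cpt.isClosed
    (hQp.joinedIn x hxQ y hyQ) hNp (fun w hw => hN' ⟨hw.2, hΛ.sub (hQΛ hw.1)⟩)
    (fun w w' hw hJ hw' => hw (up_join (hJ.mono (sdiff_subset_sdiff_left hQs)) hw'))
    (hnU x hxQ hxb) (hnU y hyQ hyb) (hnA x hxQ hxb) (hnA y hyQ hyb)
  have hP1 : ((Q ∩ (Up (-1) 2 (A j))ᶜ) \ A j) ∪ N ⊆ strip (-1) 2 := by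
    rintro w (hw | hw)
    · exact hQs hw.1.1
    · exact (hA.crs j hj).sub (hN hw).1
  have s2 := h6 _ (A i) M (Up (-1) 2 (A i)) x y (hA.crs i hi).cpt.isClosed s1 hMp
    (by
      rintro w ⟨hw | hw, hwi⟩
      · exact hM' ⟨hwi, hΛ.sub (hQΛ hw.1.1)⟩
      · have e1 := (hAj w (hN hw)).1
        have e2 := (hAi w ⟨hwi, (hN hw).2⟩).2
        linarith)
    (fun w w' hw hJ => up_join (hJ.symm.mono (sdiff_subset_sdiff_left hP1)) hw)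
    (hyU x hxQ hxa) (hyU y hyQ hya) (hnI x hxQ hxa) (hnI y hyQ hya)
  refine s2.mono ?_
  rintro w (⟨⟨hw | hw, hwU⟩, -⟩ | hw)
  · have e1 := (hKj w (hQH hw.1.1)).2 hw.1.2
    have e2 := (hKi w (hQH hw.1.1)).1 hwU
    exact ⟨le_trans (hQ3 hw.1.1) hl2, by linarith, by linarith⟩
  · have e1 := hAj w (hN hw)
    exact ⟨le_trans (hN hw).2 hl2, by linarith [e1.1], by linarith [e1.2]⟩
  · have e1 := hAi w (hM hw)
    exact ⟨le_trans (hM hw).2 hl2, by linarith [e1.1], by linarith [e1.2]⟩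

end Vale.Agent.P198
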