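import Vale.Agent.P198.A.Stm

/-! The limit conjugate function. -/

open Set Metric Topology Filter

namespace Vale.Agent.P198

namespace AVLim

theorem mem_sh {a b : ℝ} {w : ℂ} (h : w ∈ strip a b) (k : ℤ) : w + k * TT ∈ strip a b := by
  have : (w + k * TT).re = w.re := by simp [TT]
  exact ⟨this ▸ h.1, this ▸ h.2⟩

theorem mem_sh1 {a b : ℝ} {w : ℂ} (h : w ∈ strip a b) : w + TT ∈ strip a b := by
  simpa using mem_sh h 1

theorem per_int {a b : ℝ} {g : ℂ → ℝ} (h : ∀ w ∈ strip a b, g (w + TT) = g w) {w : ℂ}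
    (hw : w ∈ strip a b) (k : ℤ) : g (w + k * TT) = g w := by
  induction k using Int.induction_on with
  | zero => simp
  | succ k ih =>
    rw [← ih, ← h _ (mem_sh hw k)]
    congr 1
    push_cast
    ring
  | pred k ih =>
    rw [← ih, ← h _ (mem_sh hw (-(k : ℤ) - 1))]
    congr 1
    push_cast
    ring

theorem red {a b : ℝ} {w : ℂ} (hw : w ∈ strip a b) :
    ∃ k : ℤ, w + k * TT ∈ Icc a b ×ℂ Icc 0 (2 * Real.pi) := by
  have hp : 0 < 2 * Real.pi := Real.two_pi_pos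
  refine ⟨-⌊w.im / (2 * Real.pi)⌋, mem_sh hw _, ?_⟩
  have e : (w + ((-⌊w.im / (2 * Real.pi)⌋ : ℤ) : ℂ) * TT).im =
      w.im - ⌊w.im / (2 * Real.pi)⌋ * (2 * Real.pi) := by
    simp [TT]
    ring
  show (w + _ * TT).im ∈ Icc 0 (2 * Real.pi)
  rw [e]
  exact ⟨Int.sub_floor_div_mul_nonneg _ hp, (Int.sub_floor_div_mul_lt _ hp).le⟩

theorem lim {a b : ℝ} (hab : a ≤ b) (𝒰 : Ultrafilter ℕ) (f : ℕ → ℂ → ℝ)
    (heq : ∀ κ : ℝ, 0 < κ → ∃ r : ℝ, 0 < r ∧ ∀ᶠ n in (𝒰 : Filter ℕ), ∀ x ∈ strip a b,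
      ∀ y ∈ strip a b, dist y x < r → |f n x - f n y| ≤ κ)
    (hper : ∀ᶠ n in (𝒰 : Filter ℕ), ∀ w ∈ strip a b, f n (w + TT) = f n w + 1) :
    ∃ V : ℂ → ℝ, ContinuousOn V (strip a b) ∧ (∀ w ∈ strip a b, V (w + TT) = V w + 1) ∧
      ∀ κ : ℝ, 0 < κ → ∀ᶠ n in (𝒰 : Filter ℕ), ∀ x ∈ strip a b, ∀ y ∈ strip a b,
        |V x - V y - (f n x - f n y)| ≤ κ := by
  have h0 : (a : ℂ) ∈ strip a b := ⟨le_rfl, hab⟩
  have hb : ∀ x ∈ strip a b, ∃ M : ℝ, ∀ᶠ n in (𝒰 : Filter ℕ), |f n x - f n a| ≤ M := fun x hx => by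
    obtain ⟨r, hr, h⟩ := heq 1 one_pos
    refine (strip_convex a b).isPreconnected.induction₂'
      (fun x y => ∃ M : ℝ, ∀ᶠ n in (𝒰 : Filter ℕ), |f n x - f n y| ≤ M) (fun x hx => ?_)
      (fun x y z _ _ _ ⟨M, hM⟩ ⟨M', hM'⟩ => ⟨M + M', ?_⟩) hx h0
    · filter_upwards [self_mem_nhdsWithin, mem_nhdsWithin_of_mem_nhds (ball_mem_nhds x hr)]
        with y hy hxy
      exact ⟨⟨1, h.mono fun n hn => hn x hx y hy hxy⟩,
        ⟨1, h.mono fun n hn => abs_sub_comm (f n x) _ ▸ hn x hx y hy hxy⟩⟩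
    · filter_upwards [hM, hM'] with n h1 h2
      exact (abs_sub_le _ _ _).trans (add_le_add h1 h2)
  have hl : ∀ x ∈ strip a b, ∃ v : ℝ, Tendsto (fun n => f n x - f n a) 𝒰 (𝓝 v) := fun x hx => by
    obtain ⟨M, hM⟩ := hb x hx
    obtain ⟨v, -, hv⟩ := (isCompact_Icc (a := -M) (b := M)).ultrafilter_le_nhds'
      (𝒰.map fun n => f n x - f n a) (hM.mono fun n hn => abs_le.1 hn)
    exact ⟨v, hv⟩
  choose! V hV using hl
  have hc : ∀ κ r : ℝ, (∀ᶠ n in (𝒰 : Filter ℕ), ∀ x ∈ strip a b,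
      ∀ y ∈ strip a b, dist y x < r → |f n x - f n y| ≤ κ) → ∀ x ∈ strip a b,
      ∀ y ∈ strip a b, dist y x < r → |V x - V y| ≤ κ := fun κ r h x hx y hy hxy =>
    le_of_tendsto ((hV x hx).sub (hV y hy)).abs (h.mono fun n hn => by
      rw [sub_sub_sub_cancel_right]
      exact hn x hx y hy hxy)
  have hp : ∀ w ∈ strip a b, V (w + TT) = V w + 1 := fun w hw =>
    tendsto_nhds_unique (hV _ (mem_sh1 hw)) (((hV w hw).add_const 1).congr'
      (hper.mono fun n hn => by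
        simp only [hn w hw]
        ring))
  refine ⟨V, Metric.continuousOn_iff.2 fun x hx κ hκ => ?_, hp, fun κ hκ => ?_⟩
  · obtain ⟨r, hr, h⟩ := heq (κ / 2) (half_pos hκ)
    refine ⟨r, hr, fun y hy hxy => ?_⟩
    rw [Real.dist_eq, abs_sub_comm]
    exact (hc _ r h x hx y hy hxy).trans_lt (half_lt_self hκ)
  · obtain ⟨r, hr, h⟩ := heq (κ / 6) (by positivity)
    obtain ⟨t, ht, hf, hcov⟩ := finite_cover_balls_of_compact
      ((isCompact_Icc (a := a) (b := b)).reProdIm (isCompact_Icc (a := 0) (b := 2 * Real.pi))) hr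
    have h1 : ∀ᶠ n in (𝒰 : Filter ℕ), ∀ z ∈ t, dist (f n z - f n a) (V z) < κ / 6 :=
      (eventually_all_finite hf).2 fun z hz =>
        Metric.tendsto_nhds.1 (hV z (ht hz).1) _ (by positivity)
    filter_upwards [h, h1, hper] with n a1 a2 a3
    have key : ∀ x ∈ strip a b, |V x - f n x + f n a| ≤ κ / 2 := fun x hx => by
      obtain ⟨k, hk⟩ := red hx
      have e := per_int (g := fun w => V w - f n w) (fun w hw => by
        simp only [hp w hw, a3 w hw]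
        ring) hx k
      obtain ⟨z, hz, hxz⟩ := mem_iUnion₂.1 (hcov hk)
      have b1 := abs_le.1 (a1 z (ht hz).1 _ hk.1 hxz)
      have b2 := abs_le.1 (hc _ r h z (ht hz).1 _ hk.1 hxz)
      have b3 := abs_lt.1 (a2 z hz)
      rw [abs_le]
      constructor <;> linarith [b1.1, b1.2, b2.1, b2.2, b3.1, b3.2]
    intro x hx y hy
    have b1 := abs_le.1 (key x hx)
    have b2 := abs_le.1 (key y hy)
    rw [abs_le]
    constructor <;> linarith [b1.1, b1.2, b2.1, b2.2]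

theorem fin {A Q : Set ℂ} (hA : Bornology.IsBounded A) (hQ : Bornology.IsBounded Q) :
    {k : ℤ | (sh k A ∩ Q).Nonempty}.Finite := by
  obtain ⟨M, hM⟩ := hA.exists_norm_le
  obtain ⟨M', hM'⟩ := hQ.exists_norm_le
  refine (finite_Icc (-⌈M' + M⌉) ⌈M' + M⌉).subset ?_
  rintro k ⟨_, ⟨y, hy, rfl⟩, hq⟩
  have h1 := (norm_sub_le (y + k * TT) y).trans (add_le_add (hM' _ hq) (hM y hy))
  have h2 : ‖y + k * TT - y‖ = |(k : ℝ)| * (2 * Real.pi) := by
    simp [TT, abs_of_pos Real.pi_pos]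
  have h3 : |(k : ℝ)| ≤ (⌈M' + M⌉ : ℤ) := by
    nlinarith [Real.pi_gt_three, abs_nonneg (k : ℝ), Int.le_ceil (M' + M)]
  exact abs_le.1 (by exact_mod_cast h3)

theorem seg (c a b : ℝ) : Bornology.IsBounded {y : ℂ | y.im = c ∧ a ≤ y.re ∧ y.re ≤ b} :=
  ((isCompact_Icc (a := a) (b := b)).reProdIm (isCompact_singleton (x := c))).isBounded.subset
    fun _ hy => ⟨hy.2, hy.1⟩

end AVLim

variable {G Z : Type*} [Group G] [MetricSpace Z] [MulAction G Z] [CompactSpace Z] {D : Dyn G Z}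
  {E : Geo Z} {R : Ring Z}

theorem Seq.vLimP (s : Seq D E R) (h1 : s.VnP) (h2 : s.Cnt2P) : s.VLimP := by
  intro θ hθ hθ'
  have hle : (hyperfilter ℕ : Filter ℕ) ≤ atTop := Nat.hyperfilter_le_atTop
  have hs : strip θ (1 - θ) ⊆ strip (-1) 2 := fun w hw => ⟨by linarith [hw.1], by linarith [hw.2]⟩
  obtain ⟨V, a1, a2, a3⟩ := AVLim.lim (a := θ) (b := 1 - θ) (by linarith) (hyperfilter ℕ) s.Vn
    (fun κ hκ => by
      obtain ⟨r, hr, h⟩ := h2 θ κ hθ hκ
      have hr' : 0 < min r 1 := lt_min hr one_pos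
      refine ⟨min r 1, hr', Eventually.filter_mono hle ?_⟩
      filter_upwards [h, h1.osc, s.lf] with n b1 b2 b3 x hx y hy hxy
      have hc := (strip_convex θ (1 - θ)).inter (convex_ball x (min r 1))
      have hx' : x ∈ strip θ (1 - θ) ∩ ball x (min r 1) := ⟨hx, mem_ball_self hr'⟩
      refine (b2 _ x y x (inter_subset_inter hs (ball_subset_ball (min_le_right _ _)))
        ((hc.isPathConnected ⟨x, hx'⟩).joinedIn x hx' y ⟨hy, hxy⟩)).trans (le_trans ?_ (b1 x))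
      refine Finset.sum_le_sum fun i hi => mul_le_mul_of_nonneg_left (Nat.cast_le.2
        (Set.ncard_le_ncard (fun k hk => hk.mono (inter_subset_inter_right _
          (inter_subset_inter_right _ (ball_subset_ball (min_le_left _ _))))) ?_))
        ((s.P n).μ_pos i hi).le
      exact AVLim.fin (((AVLim.seg _ _ _).union ((Bornology.isBounded_biUnion (finite_lt_nat _)).2
        fun j hj => ((b3 i hi).cpt j hj).isBounded)).union (AVLim.seg _ _ _))
        (isBounded_ball.subset inter_subset_right))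
    ((h1.per.filter_mono hle).mono fun n hn w hw => hn w (hs hw))
  exact ⟨V, a1, a2, a3⟩

end Vale.Agent.P198
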