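import Vale.Agent.P198.A.Stm

/-! Part II-a: the conjugate function at level `n`. -/

open Set Metric Topology Filter

namespace Vale.Agent.P198

variable {G Z : Type*} [Group G] [MetricSpace Z] [MulAction G Z] [CompactSpace Z] {D : Dyn G Z}
  {E : Geo Z} {R : Ring Z}

namespace AVn

omit [CompactSpace Z] in
theorem crs (s : Seq D E R) (hC : CrvP D E R) :
    ∀ᶠ n in atTop, ∀ i ∈ (s.P n).T, Crs (-1) 2 (s.A n i) := by
  filter_upwards [s.lf, s.ε_lim.eventually (ge_mem_nhds (show (0 : ℝ) < 1 / 2 by norm_num))]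
    with n h1 h2 i hi
  exact hC.crs _ _ _ _ _ _ h2 (h1 i hi)

end AVn

theorem Seq.vnP (s : Seq D E R) (hC : CrvP D E R) (hW : WindP) : s.VnP := by
  refine ⟨?_, ?_⟩
  · filter_upwards [AVn.crs s hC] with n h w hw
    unfold Seq.Vn
    refine Eq.trans ?_ (congrArg _ (s.P n).μ_sum)
    rw [← Finset.sum_add_distrib]
    refine Finset.sum_congr rfl fun i hi => ?_
    rw [hW.per _ _ _ _ (h i hi) hw]
    push_cast
    ring
  · filter_upwards [AVn.crs s hC] with n h Q x y w0 hQ hxy
    unfold Seq.Vn Seq.cnt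
    rw [← Finset.sum_sub_distrib]
    refine (Finset.abs_sum_le_sum_abs _ _).trans (Finset.sum_le_sum fun i hi => ?_)
    have hμ := ((s.P n).μ_pos i hi).le
    rw [← mul_sub, abs_mul, abs_of_nonneg hμ]
    refine mul_le_mul_of_nonneg_left ?_ hμ
    have h1 := hW.osc _ _ (|w0.im| + 1) _ Q x y (h i hi) (fun z hz => ⟨(hQ hz).1, by
      have h2 : ‖z - w0‖ < 1 := by
        rw [← dist_eq_norm]
        exact (hQ hz).2
      have h3 := Complex.abs_im_le_norm (z - w0)
      rw [Complex.sub_im] at h3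
      have h4 := abs_sub_abs_le_abs_sub z.im w0.im
      change |z.im| ≤ |w0.im| + 1
      linarith⟩) hxy
    exact_mod_cast h1

end Vale.Agent.P198
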