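import Vale.Agent.P198.A.Stm

/-! Windows are connected parts of the curves. -/

open Set Metric Topology Filter

namespace Vale.Agent.P198

variable {G Z : Type*} [Group G] [MetricSpace Z] [MulAction G Z] [CompactSpace Z] {D : Dyn G Z}
  {E : Geo Z} {R : Ring Z}

namespace AWin

theorem rho_le {G Z : Type*} [Group G] [MetricSpace Z] [MulAction G Z] {D : Dyn G Z} {n : ℕ}
    {E0 E1 : Set Z} (F : Flow D n E0 E1) (g : G) : F.ρ g ≤ F.M := by
  classical
  rw [F.ρ_def]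
  have h : ∑ i ∈ F.T.filter fun i => ∃ j ≤ F.m i, F.c i j = g, F.μ i ≤ 1 := by
    rw [← F.μ_sum]
    exact Finset.sum_le_sum_of_subset_of_nonneg (Finset.filter_subset _ _)
      fun i hi _ => (F.μ_pos i hi).le
  have := mul_le_mul_of_nonneg_left h F.M_pos.le
  simpa using this

theorem interval (S : Set ℕ) (m : ℕ) (hm : ∀ j ∈ S, j < m) (hne : S.Nonempty)
    (hc : ∀ a ∈ S, ∀ b ∈ S, ∀ j, a ≤ j → j ≤ b → j ∈ S) :
    ∃ a b, a < b ∧ b ≤ m ∧ S = Ico a b := by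
  have hfin : S.Finite := (Set.finite_lt_nat m).subset hm
  obtain ⟨a, ha, hamin⟩ := Set.exists_min_image S id hfin hne
  obtain ⟨b, hb, hbmax⟩ := Set.exists_max_image S id hfin hne
  refine ⟨a, b + 1, Nat.lt_succ_of_le (hamin b hb), hm b hb, ?_⟩
  ext j
  constructor
  · intro hj
    exact ⟨hamin j hj, Nat.lt_succ_of_le (hbmax j hj)⟩
  · rintro ⟨h1, h2⟩
    exact hc a ha b hb j h1 (Nat.lt_succ_iff.1 h2)

end AWin

theorem Seq.winP (s : Seq D E R) (hC : CrvP D E R) (hT : TimeP D) : s.WinP := by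
  filter_upwards [s.lf] with n hn i hi t lam
  have hL := hn i hi
  refine ⟨?_, fun hne => ?_⟩
  · intro y hy
    simp only [Seq.Wn, mem_iUnion, mem_setOf_eq] at hy
    obtain ⟨j, ⟨hj, -⟩, hy⟩ := hy
    exact Or.inl (Or.inr (mem_iUnion₂.2 ⟨j, hj, hy⟩))
  · have hmono := (hT n R.E0 R.E1 (s.P n) (s.P n).M 0 0 (AWin.rho_le (s.P n).toFlow) le_rfl i hi).1
    have hS : {j | j < (s.P n).m i ∧ |(s.P n).u ((s.P n).c i j) - t| ≤ lam}.Nonempty := by
      obtain ⟨y, hy⟩ := hne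
      simp only [Seq.Wn, mem_iUnion] at hy
      obtain ⟨j, hj, -⟩ := hy
      exact ⟨j, hj⟩
    obtain ⟨a, b, hab, hb, e⟩ := AWin.interval _ ((s.P n).m i) (fun j hj => hj.1) hS (by
      rintro a ⟨ha1, ha2⟩ b ⟨hb1, hb2⟩ j h1 h2
      have e1 := hmono a j h1 (by omega)
      have e2 := hmono j b h2 hb1.le
      rw [abs_le] at ha2 hb2
      refine ⟨by omega, abs_le.2 ⟨by linarith [ha2.1], by linarith [hb2.2]⟩⟩)
    unfold Seq.Wn
    rw [e]
    exact hC.link n _ _ _ _ _ hL a b hab hb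

end Vale.Agent.P198
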