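import Vale.Agent.P198.A.Stm

/-! Part II-a: the winding count. -/

open Set Metric Topology Filter

namespace Vale.Agent.P198

namespace AWind

theorem re_T (k : ℤ) : ((k : ℂ) * TT).re = 0 := by simp [TT]

theorem im_T (k : ℤ) : ((k : ℂ) * TT).im = 2 * Real.pi * k := by
  simp [TT]
  ring

theorem sh_sh (k l : ℤ) (A : Set ℂ) : sh k (sh l A) = sh (l + k) A := by
  rw [sh, sh, sh, image_image]
  refine image_congr fun w _ => ?_
  push_cast
  ring

theorem sh_zero (A : Set ℂ) : sh 0 A = A := by simp [sh]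

theorem strip_add {a b : ℝ} {w : ℂ} (k : ℤ) (h : w ∈ strip a b) : w + k * TT ∈ strip a b := by
  simpa only [strip, mem_ofPred_eq, Complex.add_re, re_T, add_zero] using h

theorem up_sh {a b : ℝ} {A : Set ℂ} {w : ℂ} (k : ℤ) (h : w ∈ Up a b A) :
    w + k * TT ∈ Up a b (sh k A) := by
  obtain ⟨y, h1, h2⟩ := h
  refine ⟨y + k * TT, (h1.map (f := fun w => w + k * TT) (by fun_prop)).mono ?_, ?_⟩
  · rintro _ ⟨z, hz, rfl⟩
    refine ⟨strip_add k hz.1, ?_⟩
    rintro ⟨z', hz', e⟩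
    exact hz.2 (add_right_cancel e ▸ hz')
  · rintro _ ⟨z, hz, rfl⟩
    simp only [Complex.add_im]
    linarith [h2 z hz]

theorem up_succ {a b : ℝ} {A : Set ℂ} {w : ℂ} (k : ℤ) :
    w + TT ∈ Up a b (sh k A) ↔ w ∈ Up a b (sh (k - 1) A) := by
  constructor
  · intro h
    have := up_sh (-1) h
    rw [sh_sh] at this
    simpa [sub_eq_add_neg] using this
  · intro h
    have := up_sh 1 h
    rw [sh_sh] at this
    simpa using this

theorem crs {a b : ℝ} {A : Set ℂ} (k : ℤ) (h : Crs a b A) : Crs a b (sh k A) := by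
  have hc : Continuous fun w : ℂ => w + k * TT := by fun_prop
  refine ⟨h.cpt.image hc, h.conn.image hc, ?_, ?_, ?_⟩
  · rintro _ ⟨z, hz, rfl⟩
    exact strip_add k (h.sub hz)
  · obtain ⟨x, hx, e⟩ := h.left
    exact ⟨_, ⟨x, hx, rfl⟩, by simp only [Complex.add_re, re_T, add_zero, e]⟩
  · obtain ⟨x, hx, e⟩ := h.right
    exact ⟨_, ⟨x, hx, rfl⟩, by simp only [Complex.add_re, re_T, add_zero, e]⟩

theorem cover (p : ℤ → Prop) (n : ℕ) (h : ∀ a b, p a → p b → b - a ≤ n) :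
    ∃ F : Finset ℤ, F.card ≤ n + 1 ∧ ∀ a, a ∈ F ↔ p a := by
  classical
  by_cases hp : ∃ a, p a
  · obtain ⟨a, ha⟩ := hp
    obtain ⟨lb, h1, h2⟩ := Int.exists_least_of_bdd (P := p)
      ⟨a - n, fun z hz => by linarith [h z a hz ha]⟩ ⟨a, ha⟩
    refine ⟨(Finset.Icc lb (lb + n)).filter p, (Finset.card_filter_le _ _).trans ?_, fun z =>
      ⟨fun hz => (Finset.mem_filter.1 hz).2, fun hz => Finset.mem_filter.2
        ⟨Finset.mem_Icc.2 ⟨h2 z hz, by linarith [h lb z h1 hz]⟩, hz⟩⟩⟩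
    rw [Int.card_Icc]
    omega
  · exact ⟨∅, by simp, fun a => ⟨fun ha => absurd ha (Finset.notMem_empty a),
      fun ha => absurd ⟨a, ha⟩ hp⟩⟩

theorem band {H X : ℝ} {A : Set ℂ} (hH : 0 ≤ H) (hX : ∀ y ∈ A, ∀ y' ∈ A, y.im - y'.im ≤ X) :
    ∃ F : Finset ℤ, (F.card : ℝ) ≤ H + |X| + 1 ∧
      (F : Set ℤ) = {k : ℤ | (sh k A ∩ Hb H).Nonempty} := by
  have h0 : 0 ≤ H + |X| := by positivity
  obtain ⟨F, h1, h2⟩ := cover (fun k => (sh k A ∩ Hb H).Nonempty) ⌊H + |X|⌋₊ (by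
    rintro k k' ⟨_, ⟨y, hy, rfl⟩, h⟩ ⟨_, ⟨y', hy', rfl⟩, h'⟩
    simp only [Hb, mem_ofPred_eq, Complex.add_im, im_T, abs_le] at h h'
    have h3 := hX y hy y' hy'
    have h4 : ((k' - k : ℤ) : ℝ) ≤ H + |X| := by
      push_cast
      by_contra hn
      nlinarith [Real.pi_gt_three, le_abs_self X, abs_nonneg X]
    rw [Int.natCast_floor_eq_floor h0]
    exact Int.le_floor.2 h4)
  refine ⟨F, ?_, Set.ext h2⟩
  have h3 : (F.card : ℝ) ≤ (⌊H + |X|⌋₊ : ℝ) + 1 := by exact_mod_cast h1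
  linarith [Nat.floor_le h0]

theorem im_bd {a b : ℝ} {A : Set ℂ} (h : Crs a b A) : ∃ M : ℝ, ∀ y ∈ A, |y.im| ≤ M := by
  obtain ⟨M, hM⟩ := h.cpt.isBounded.exists_norm_le
  exact ⟨M, fun y hy => (Complex.abs_im_le_norm y).trans (hM y hy)⟩

theorem fin {a b : ℝ} (H : ℝ) {A : Set ℂ} (h : Crs a b A) :
    {k : ℤ | (sh k A ∩ Hb H).Nonempty}.Finite := by
  obtain ⟨M, hM⟩ := im_bd h
  obtain ⟨F, -, h2⟩ := band (A := A) (X := 2 * M) (abs_nonneg H) fun y hy y' hy' => by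
    linarith [abs_le.1 (hM y hy), abs_le.1 (hM y' hy')]
  refine (F.finite_toSet).subset fun k ⟨z, hz, hz'⟩ => ?_
  rw [h2]
  exact ⟨z, hz, le_trans hz' (le_abs_self H)⟩

theorem far {a b : ℝ} {A : Set ℂ} (h : Crs a b A) (H : ℝ) : ∃ N : ℕ, ∀ w ∈ strip a b ∩ Hb H,
    (∀ k : ℤ, (N : ℤ) ≤ k → w ∉ Up a b (sh k A)) ∧ ∀ k : ℤ, k < -N → w ∈ Up a b (sh k A) := by
  obtain ⟨M, hM⟩ := im_bd h
  obtain ⟨N, hN⟩ := exists_nat_gt (M + H)
  have h0 : (0 : ℝ) ≤ N := Nat.cast_nonneg N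
  refine ⟨N, fun w hw => ⟨fun k hk => upP'.bot a b _ w (crs k h) ?_, fun k hk => up_top hw.1 ?_⟩⟩
  · rintro _ ⟨z, hz, rfl⟩
    have h1 : (N : ℝ) ≤ k := by exact_mod_cast hk
    have h2 := abs_le.1 (hM z hz)
    have h3 := abs_le.1 (show |w.im| ≤ H from hw.2)
    simp only [Complex.add_im, im_T]
    nlinarith [Real.pi_gt_three]
  · rintro _ ⟨z, hz, rfl⟩
    have h1 : (k : ℝ) ≤ -N := by exact_mod_cast hk.le
    have h2 := abs_le.1 (hM z hz)
    have h3 := abs_le.1 (show |w.im| ≤ H from hw.2)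
    simp only [Complex.add_im, im_T]
    nlinarith [Real.pi_gt_three]

open Classical in
theorem count (p : ℤ → Prop) {L U : ℤ} (hL : L ≤ 0) (hU : 0 ≤ U) (h1 : ∀ k, U ≤ k → ¬ p k)
    (h2 : ∀ k, k < L → p k) :
    ({k : ℤ | 0 ≤ k ∧ p k}.ncard : ℤ) - ({k : ℤ | k < 0 ∧ ¬ p k}.ncard : ℤ) =
      ((Finset.Ico L U).filter p).card + L := by
  have e1 : {k : ℤ | 0 ≤ k ∧ p k} = ((Finset.Ico 0 U).filter p : Finset ℤ) := by
    ext k
    simp only [mem_ofPred_eq, Finset.coe_filter, Finset.mem_Ico]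
    exact ⟨fun h => ⟨⟨h.1, not_le.1 fun h' => h1 k h' h.2⟩, h.2⟩, fun h => ⟨h.1.1, h.2⟩⟩
  have e2 : {k : ℤ | k < 0 ∧ ¬ p k} = ((Finset.Ico L 0).filter fun k => ¬ p k : Finset ℤ) := by
    ext k
    simp only [mem_ofPred_eq, Finset.coe_filter, Finset.mem_Ico]
    exact ⟨fun h => ⟨⟨not_lt.1 fun h' => h.2 (h2 k h'), h.1⟩, h.2⟩, fun h => ⟨h.1.2, h.2⟩⟩
  have e3 := Finset.card_filter_add_card_filter_not (s := Finset.Ico L 0) p
  rw [Int.card_Ico] at e3
  have e4 : ((Finset.Ico L U).filter p).card =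
      ((Finset.Ico L 0).filter p).card + ((Finset.Ico 0 U).filter p).card := by
    rw [← Finset.Ico_union_Ico_eq_Ico hL hU, Finset.filter_union, Finset.card_union_of_disjoint
      (Finset.disjoint_filter_filter (Finset.Ico_disjoint_Ico_consecutive _ _ _))]
  rw [e1, e2, ncard_coe_finset, ncard_coe_finset, e4]
  omega

open Classical in
theorem swap (p q : ℤ → Prop) (I S : Finset ℤ) (hI : ∀ k, k ∉ I → (p k ↔ q k))
    (hS : ∀ k, k ∉ S → (p k ↔ q k)) :
    ((I.filter p).card : ℤ) - (I.filter q).card = ((S.filter p).card : ℤ) - (S.filter q).card := by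
  have key : ∀ J : Finset ℤ, J ⊆ I ∪ S → (∀ k, k ∉ J → (p k ↔ q k)) →
      ((J.filter p).card : ℤ) - (J.filter q).card =
        ∑ k ∈ I ∪ S, ((if p k then 1 else 0 : ℤ) - if q k then 1 else 0) := fun J h1 h2 => by
    rw [← Finset.sum_subset h1 fun k _ hk => by simp [h2 k hk], Finset.sum_sub_distrib]
    simp
  rw [key I Finset.subset_union_left hI, key S Finset.subset_union_right hS]

open Classical in
theorem diff {a b H : ℝ} {A : Set ℂ} {x y : ℂ} (S : Finset ℤ) (h : Crs a b A)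
    (hx : x ∈ strip a b ∩ Hb H) (hy : y ∈ strip a b ∩ Hb H)
    (hS : ∀ k, k ∉ S → JoinedIn (strip a b \ sh k A) x y) :
    wind a b A x - wind a b A y = ((S.filter fun k => x ∈ Up a b (sh k A)).card : ℤ) -
      ((S.filter fun k => y ∈ Up a b (sh k A)).card : ℤ) := by
  obtain ⟨N, hN⟩ := far h H
  have c1 := count (fun k => x ∈ Up a b (sh k A)) (L := -N) (U := N) (by omega) (by omega)
    (hN x hx).1 (hN x hx).2
  have c2 := count (fun k => y ∈ Up a b (sh k A)) (L := -N) (U := N) (by omega) (by omega)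
    (hN y hy).1 (hN y hy).2
  rw [wind, wind, c1, c2, add_sub_add_right_eq_sub]
  refine swap _ _ _ _ (fun k hk => ?_) fun k hk => ⟨up_join (hS k hk).symm, up_join (hS k hk)⟩
  by_cases h1 : k < -N
  · exact iff_of_true ((hN x hx).2 k h1) ((hN y hy).2 k h1)
  · have h2 : (N : ℤ) ≤ k := by
      rw [Finset.mem_Ico] at hk
      omega
    exact iff_of_false ((hN x hx).1 k h2) ((hN y hy).1 k h2)

theorem per {a b : ℝ} {A : Set ℂ} {w : ℂ} (h : Crs a b A) (hw : w ∈ strip a b) :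
    wind a b A (w + TT) = wind a b A w + 1 := by
  classical
  obtain ⟨N, hN⟩ := far h |w.im|
  obtain ⟨h1, h2⟩ := hN w ⟨hw, le_refl |w.im|⟩
  have c1 := count (fun k => w ∈ Up a b (sh k A)) (L := -N - 1) (U := N) (by omega) (by omega)
    h1 fun k hk => h2 k (by omega)
  have c2 := count (fun k => w + TT ∈ Up a b (sh k A)) (L := -N - 1 + 1) (U := N + 1) (by omega)
    (by omega) (fun k hk h => h1 (k - 1) (by omega) ((up_succ k).1 h))
    fun k hk => (up_succ k).2 (h2 (k - 1) (by omega))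
  rw [wind, wind, c1, c2, add_assoc _ _ 1]
  congr 2
  refine Finset.card_bij (fun k _ => k - 1) (fun k hk => ?_) (fun k _ l _ e => by omega)
    fun k hk => ⟨k + 1, ?_, by omega⟩
  · rw [Finset.mem_filter, Finset.mem_Ico] at hk ⊢
    exact ⟨by omega, (up_succ k).1 hk.2⟩
  · rw [Finset.mem_filter, Finset.mem_Ico] at hk ⊢
    exact ⟨by omega, (up_succ _).2 (by simpa using hk.2)⟩

theorem hb_convex (H : ℝ) : Convex ℝ (Hb H) := by
  have : Hb H = {w : ℂ | -H ≤ w.im} ∩ {w : ℂ | w.im ≤ H} :=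
    Set.ext fun w => abs_le (a := w.im) (b := H)
  rw [this]
  exact (convex_halfSpace_im_ge _).inter (convex_halfSpace_im_le _)

end AWind

open AWind

theorem windP : WindP := by
  classical
  refine ⟨fun a b H A h => fin H h, fun a b A k h => crs k h, fun a b A w h hw => per h hw,
    fun a b H A x y S h hx hy hS => diff S h hx hy fun k hk => ?_,
    fun a b H A P x y h hP hj => ?_, fun H X A hH hX => ?_⟩
  · refine ((((strip_convex a b).inter (hb_convex H)).isPathConnected ⟨x, hx⟩).joinedIn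
      x hx y hy).mono fun z hz => ⟨hz.1, fun hz' => hk (hS k ⟨z, hz', hz.2⟩)⟩
  · have hf : {k : ℤ | (sh k A ∩ P).Nonempty}.Finite :=
      (fin H h).subset fun k ⟨z, hz, hz'⟩ => ⟨z, hz, (hP hz').2⟩
    rw [diff hf.toFinset h (hP hj.source_mem) (hP hj.target_mem) fun k hk =>
      hj.mono fun z hz => ⟨(hP hz).1, fun hz' => hk (hf.mem_toFinset.2 ⟨z, hz', hz⟩)⟩,
      ncard_eq_toFinset_card _ hf, abs_le]
    have h1 := Finset.card_filter_le hf.toFinset fun k => x ∈ Up a b (sh k A)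
    have h2 := Finset.card_filter_le hf.toFinset fun k => y ∈ Up a b (sh k A)
    constructor <;> omega
  · obtain ⟨F, h1, h2⟩ := band hH hX
    rwa [← h2, ncard_coe_finset]

end Vale.Agent.P198
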