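import Vale.Agent.P198.A.Ring
import Vale.Agent.P198.A.CT
import Vale.Agent.P198.A.Real
import Vale.Agent.P198.A.Flow
import Vale.Agent.P198.A.Pot
import Vale.Agent.P198.A.CS
import Vale.Agent.P198.A.Time
import Vale.Agent.P198.A.Spr
import Vale.Agent.P198.A.Big
import Vale.Agent.P198.A.Coarea
import Vale.Agent.P198.A.Dual
import Vale.Agent.P198.A.Lf
import Vale.Agent.P198.A.Crv
import Vale.Agent.P198.A.Wind
import Vale.Agent.P198.A.Seq
import Vale.Agent.P198.A.Mup
import Vale.Agent.P198.A.Sm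
import Vale.Agent.P198.A.Rho
import Vale.Agent.P198.A.UC0
import Vale.Agent.P198.A.Mlo
import Vale.Agent.P198.A.Ext
import Vale.Agent.P198.A.Win
import Vale.Agent.P198.A.BadW
import Vale.Agent.P198.A.Cnt1
import Vale.Agent.P198.A.Cnt2
import Vale.Agent.P198.A.Vn
import Vale.Agent.P198.A.ULim
import Vale.Agent.P198.A.VLim
import Vale.Agent.P198.A.PL
import Vale.Agent.P198.A.Prop
import Vale.Agent.P198.A.Thru
import Vale.Agent.P198.A.Band
import Vale.Agent.P198.A.Surj
import Vale.Agent.P198.A.Win2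
import Vale.Agent.P198.A.Slab
import Vale.Agent.P198.A.Key
import Vale.Agent.P198.A.Dens
import Vale.Agent.P198.A.Surg
import Vale.Agent.P198.A.VConn
import Vale.Agent.P198.A.Slice
import Vale.Agent.P198.A.Area
import Vale.Agent.P198.A.Osc
import Vale.Agent.P198.A.Shell
import Vale.Agent.P198.A.Core
import Vale.Agent.P198.A.Inj
import Vale.Agent.P198.A.Hom
import Vale.Agent.P198.A.ChartK
import Vale.Agent.P198.A.Ratio

/-! Part II-a: a weakly quasisymmetric chart. -/

open Set Metric Topology Filter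

namespace Vale.Agent.P198

variable {G Z : Type*} [Group G] [MetricSpace Z] [MulAction G Z] [CompactSpace Z]

theorem partIIa (D : Dyn G Z) (E : Geo Z) : PartIIa D := by
  intro hT
  obtain ⟨R⟩ := ringP D
  have hCT := ctP D
  have hRe := realP D E
  have hCS := csP D
  have hTi := timeP D
  have hSp := sprP D
  have hBg := bigP D hT
  have hDu := dualP D E hT hSp (coareaP G)
  have hLf := lfP D E R
  have hCr := crvP D E R
  obtain ⟨s⟩ := seqP D E R (flowEx D hCT) (potEx D hCT) hLf
  have hMu := s.mupP hRe hCS hSp hBg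
  have hSm := s.smP hT hRe hCS hSp
  have hRho := s.rhoP hMu hSm
  have hU0 := s.uc0P hRe hDu hRho
  have hMl := s.mloP hU0 hRho
  have hUC := s.ucP hU0 hMu
  have hEx := s.extP hCr windP hCS hSp hBg hMl
  have hWi := s.winP hCr hTi
  have hBW := s.badWP hWi hTi hCS hSp hBg hMl hRho
  have hC1 := s.cnt1P
  have hC2 := s.cnt2P hCr windP hEx hSm hMl
  have hVn := s.vnP hCr windP
  obtain ⟨l, hl⟩ := s.plP (s.uLimP hUC hRho) (s.vLimP hVn hC2)
  have hPr := l.propP
  have hBa := l.bandP (s.thruP hl hLf hCr hRho)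
  have hSu := l.surjP hPr hBa
  have hLa := l.lamP hPr hBa
  have hSl := s.slabP hl hCr windP hPr hWi (s.win2P hl hRho) hBW hC2 hEx
  have hK := l.keyP hPr
  have hVC := l.vConnP hPr hSu hLa hK (l.densP hK) surgP (s.slabE hSl)
  have hAr := s.areaP hl hSl (l.sliceP hPr hSu hLa hK) hTi hRho hMu
  have hCo := s.coreP hPr hDu hAr (s.oscP hl hVn hC1 hMl) (shellP G)
  have hIn := l.injP R hPr hVC hCo
  exact ratioP E (l.chartK R hPr (l.homP hPr hSu hIn) hCo)

end Vale.Agent.P198
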