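import Vale.Agent.P198.A.Stm

/-! The ring domain. -/

open Set Metric Topology Filter

namespace Vale.Agent.P198

variable {G Z : Type*} [Group G] [MetricSpace Z] [MulAction G Z] [CompactSpace Z]
  {D : Dyn G Z} {E : Geo Z} {R : Ring Z}

namespace ARing

omit [CompactSpace Z] in
theorem unif {ψ : ℂ → Z} (h : IsOpenEmbedding ψ) {K : Set ℂ} (hK : IsCompact K) {η : ℝ}
    (hη : 0 < η) : ∃ δ : ℝ, 0 < δ ∧ ∀ z ∈ K, ball (ψ z) δ ⊆ ψ '' ball z η := by
  obtain ⟨δ, hδ, H⟩ := lebesgue_number_lemma_of_metric (hK.image h.continuous)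
    (c := fun z : ℂ => ψ '' ball z (η / 2)) (fun z => h.isOpenMap _ isOpen_ball) (by
      rintro _ ⟨z, -, rfl⟩
      exact mem_iUnion.2 ⟨z, z, mem_ball_self (by positivity), rfl⟩)
  refine ⟨δ, hδ, fun z hz => ?_⟩
  obtain ⟨z', hz'⟩ := H _ ⟨z, hz, rfl⟩
  obtain ⟨u, hu, e⟩ := hz' (mem_ball_self hδ)
  obtain rfl := h.injective e
  refine hz'.trans (image_mono fun v hv => ?_)
  rw [mem_ball] at hu hv ⊢
  linarith [dist_triangle_right v u z']

omit [CompactSpace Z] in
theorem inv_cont {ψ : ℂ → Z} (h : IsOpenEmbedding ψ) (z : ℂ) :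
    ContinuousAt (Function.invFun ψ) (ψ z) := by
  have e : ∀ u, Function.invFun ψ (ψ u) = u := Function.leftInverse_invFun h.injective
  rw [ContinuousAt, e, ← h.map_nhds_eq, tendsto_map'_iff]
  have : Function.invFun ψ ∘ ψ = id := funext e
  rw [this]
  exact tendsto_id

theorem log_small {ε : ℝ} (hε : 0 < ε) :
    ∃ η : ℝ, 0 < η ∧ ∀ u : ℂ, ‖u - 1‖ < η → u ∈ Complex.slitPlane ∧ ‖Complex.log u‖ < ε := by
  have h1 : ContinuousAt Complex.log 1 := continuousAt_clog Complex.one_mem_slitPlane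
  obtain ⟨η, hη, H⟩ := Metric.continuousAt_iff.1 h1 ε hε
  refine ⟨min η 1, lt_min hη one_pos, fun u hu => ⟨?_, ?_⟩⟩
  · have := Complex.mem_slitPlane_of_norm_lt_one (hu.trans_le (min_le_right _ _))
    rwa [add_sub_cancel] at this
  · have := H (x := u) (by rw [dist_eq_norm]; exact hu.trans_le (min_le_left _ _))
    rwa [Complex.log_one, dist_zero_right] at this

omit [CompactSpace Z] in
theorem inj {ψ : ℂ → Z} (h : IsOpenEmbedding ψ) (w w' : ℂ)
    (e : ψ (Complex.exp w) = ψ (Complex.exp w')) : ∃ k : ℤ, w' = w + k * TT :=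
  Complex.exp_eq_exp_iff_exists_int.1 (h.injective e).symm

omit [CompactSpace Z] in
theorem sec {ψ : ℂ → Z} (h : IsOpenEmbedding ψ) (ε : ℝ) (hε : 0 < ε) :
    ∃ δ : ℝ, 0 < δ ∧ ∀ w ∈ strip (-1) 2, ∃ s : Z → ℂ,
      ContinuousOn s (ball (ψ (Complex.exp w)) δ) ∧ s (ψ (Complex.exp w)) = w ∧
        ∀ y ∈ ball (ψ (Complex.exp w)) δ, ψ (Complex.exp (s y)) = y ∧ s y ∈ ball w ε := by
  have e : ∀ u, Function.invFun ψ (ψ u) = u := Function.leftInverse_invFun h.injective
  obtain ⟨η, hη, H⟩ := log_small hε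
  obtain ⟨δ, hδ, H2⟩ := unif h (isCompact_closedBall (0 : ℂ) (Real.exp 2))
    (mul_pos hη (Real.exp_pos (-1)))
  refine ⟨δ, hδ, fun w hw => ?_⟩
  have hw0 := Complex.exp_ne_zero w
  have hK : Complex.exp w ∈ closedBall (0 : ℂ) (Real.exp 2) := by
    rw [mem_closedBall_zero_iff, Complex.norm_exp]
    exact Real.exp_le_exp.2 hw.2
  have key : ∀ y ∈ ball (ψ (Complex.exp w)) δ, ∃ z, ψ z = y ∧ ‖z / Complex.exp w - 1‖ < η := by
    intro y hy
    obtain ⟨z, hz, rfl⟩ := H2 _ hK hy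
    refine ⟨z, rfl, ?_⟩
    rw [div_sub_one hw0, norm_div, Complex.norm_exp, div_lt_iff₀ (Real.exp_pos _)]
    rw [mem_ball, dist_eq_norm] at hz
    exact hz.trans_le (mul_le_mul_of_nonneg_left (Real.exp_le_exp.2 hw.1) hη.le)
  refine ⟨fun y => w + Complex.log (Function.invFun ψ y / Complex.exp w), fun y hy => ?_, ?_,
    fun y hy => ?_⟩
  · obtain ⟨z, rfl, hz⟩ := key y hy
    refine ContinuousAt.continuousWithinAt (continuousAt_const.add ?_)
    refine ContinuousAt.clog ((inv_cont h z).div_const _) ?_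
    rw [e]
    exact (H _ hz).1
  · simp only [e, div_self hw0, Complex.log_one, add_zero]
  · obtain ⟨z, rfl, hz⟩ := key y hy
    simp only [e]
    refine ⟨?_, ?_⟩
    · rw [Complex.exp_add, Complex.exp_log (Complex.slitPlane_ne_zero (H _ hz).1),
        mul_div_cancel₀ _ hw0]
    · rw [mem_ball, dist_eq_norm, add_sub_cancel_left]
      exact (H _ hz).2

omit [CompactSpace Z] in
theorem uc {ψ : ℂ → Z} (h : IsOpenEmbedding ψ) (δ : ℝ) (hδ : 0 < δ) :
    ∃ ε : ℝ, 0 < ε ∧ ∀ w ∈ strip (-1) 2, ∀ w' : ℂ, dist w' w < ε →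
      dist (ψ (Complex.exp w')) (ψ (Complex.exp w)) < δ := by
  have hu := (isCompact_closedBall (0 : ℂ) (Real.exp 3)).uniformContinuousOn_of_continuous
    h.continuous.continuousOn
  obtain ⟨η, hη, H⟩ := Metric.uniformContinuousOn_iff.1 hu δ hδ
  have h2 := Real.exp_pos 2
  refine ⟨min 1 (η / (2 * Real.exp 2)), lt_min one_pos (by positivity), fun w hw w' hw' => ?_⟩
  rw [dist_eq_norm] at hw'
  have h1 : ‖w' - w‖ < 1 := hw'.trans_le (min_le_left _ _)
  have h3 : ‖w' - w‖ < η / (2 * Real.exp 2) := hw'.trans_le (min_le_right _ _)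
  have h4 : |(w' - w).re| ≤ ‖w' - w‖ := Complex.abs_re_le_norm _
  rw [Complex.sub_re] at h4
  have h5 := (abs_le.1 h4).2
  have h6 := hw.2
  refine H _ ?_ _ ?_ ?_
  · rw [mem_closedBall_zero_iff, Complex.norm_exp]
    exact Real.exp_le_exp.2 (by linarith)
  · rw [mem_closedBall_zero_iff, Complex.norm_exp]
    exact Real.exp_le_exp.2 (by linarith)
  · have e : Complex.exp w' - Complex.exp w = Complex.exp w * (Complex.exp (w' - w) - 1) := by
      rw [mul_sub, ← Complex.exp_add, add_sub_cancel, mul_one]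
    rw [dist_eq_norm, e, norm_mul, Complex.norm_exp]
    have h7 := Complex.norm_exp_sub_one_le h1.le
    have h8 : Real.exp w.re ≤ Real.exp 2 := Real.exp_le_exp.2 h6
    rw [lt_div_iff₀ (by positivity)] at h3
    calc Real.exp w.re * ‖Complex.exp (w' - w) - 1‖ ≤ Real.exp 2 * (2 * ‖w' - w‖) :=
          mul_le_mul h8 h7 (norm_nonneg _) h2.le
      _ < η := by linarith

omit [CompactSpace Z] in
theorem low {ψ : ℂ → Z} (h : IsOpenEmbedding ψ) (ε : ℝ) (hε : 0 < ε) :
    ∃ δ : ℝ, 0 < δ ∧ ∀ w ∈ strip (-1) 2, ∀ w' : ℂ, dist w' w ≤ 3 →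
      dist (ψ (Complex.exp w')) (ψ (Complex.exp w)) < δ → dist w' w < ε := by
  obtain ⟨δ, hδ, H⟩ := sec h (min ε 1) (lt_min hε one_pos)
  refine ⟨δ, hδ, fun w hw w' h3 hd => ?_⟩
  obtain ⟨s, -, -, hs⟩ := H w hw
  obtain ⟨h1, h2⟩ := hs _ hd
  obtain ⟨k, hk⟩ := inj h _ _ h1
  set u := s (ψ (Complex.exp w')) with hu
  rw [mem_ball] at h2
  have h4 : dist w' u < 4 := by
    have := dist_triangle_right w' u w
    have := min_le_right ε 1
    linarith
  have h5 : dist w' u = |(k : ℝ)| * (2 * Real.pi) := by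
    rw [dist_eq_norm, hk, add_sub_cancel_left, norm_mul, TT]
    simp [abs_of_pos Real.pi_pos]
  have h6 : k = 0 := by
    by_contra hk0
    have h7 : (1 : ℝ) ≤ |(k : ℝ)| := by exact_mod_cast Int.one_le_abs hk0
    have := Real.pi_gt_three
    nlinarith
  rw [h6, Int.cast_zero, zero_mul, add_zero] at hk
  rw [hk]
  exact h2.trans_le (min_le_left _ _)

omit [CompactSpace Z] in
theorem mem1 {ψ : ℂ → Z} (h : IsOpenEmbedding ψ) (w : ℂ) :
    ψ (Complex.exp w) ∈ (ψ '' ball 0 (Real.exp 1))ᶜ ↔ 1 ≤ w.re := by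
  rw [mem_compl_iff, h.injective.mem_set_image, mem_ball_zero_iff, Complex.norm_exp,
    Real.exp_lt_exp, not_lt]

omit [CompactSpace Z] in
theorem conn1 {ψ : ℂ → Z} (h : IsOpenEmbedding ψ) {b : Z} (hr : range ψ = {b}ᶜ)
    [PathConnectedSpace Z] : IsPathConnected (ψ '' ball 0 (Real.exp 1))ᶜ := by
  have hA : IsPathConnected ((fun w => ψ (Complex.exp w)) '' {w : ℂ | 1 ≤ w.re}) :=
    ((convex_halfSpace_re_ge 1).isPathConnected ⟨1, by simp⟩).image
      (h.continuous.comp Complex.continuous_exp)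
  have hsub : (fun w => ψ (Complex.exp w)) '' {w : ℂ | 1 ≤ w.re} ⊆
      (ψ '' ball 0 (Real.exp 1))ᶜ := by
    rintro _ ⟨w, hw, rfl⟩
    exact (mem1 h w).2 hw
  have hmem : ∀ x ∈ (ψ '' ball 0 (Real.exp 1))ᶜ, x ≠ b →
      x ∈ (fun w => ψ (Complex.exp w)) '' {w : ℂ | 1 ≤ w.re} := by
    intro x hx hb
    obtain ⟨z, rfl⟩ : x ∈ range ψ := hr ▸ hb
    have hz : z ≠ 0 := by
      rintro rfl
      exact hx ⟨0, mem_ball_self (Real.exp_pos 1), rfl⟩
    refine ⟨Complex.log z, (mem1 h _).1 ?_, ?_⟩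
    · rwa [Complex.exp_log hz]
    · simp only [Complex.exp_log hz]
  have hF : IsClosed (ψ '' closedBall 0 (Real.exp 1)) :=
    ((isCompact_closedBall _ _).image h.continuous).isClosed
  have hbr : ∀ z, ψ z ≠ b := fun z => by
    have : ψ z ∈ range ψ := ⟨z, rfl⟩
    rwa [hr] at this
  have hbF : b ∉ ψ '' closedBall 0 (Real.exp 1) := fun ⟨z, _, e⟩ => hbr z e
  obtain ⟨y, hy, -, hj⟩ := (pathP Z).first univ _ b (ψ 0)
    (joinedIn_univ.2 (PathConnectedSpace.joined _ _)) hF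
    ⟨0, mem_closedBall_self (Real.exp_pos 1).le, rfl⟩
  have hyU : y ∉ ψ '' ball 0 (Real.exp 1) := by
    intro hyU
    obtain ⟨γ, hγ⟩ := hj
    have h1 : range γ ⊆ (ψ '' closedBall 0 (Real.exp 1))ᶜ := by
      refine IsPreconnected.subset_left_of_subset_union hF.isOpen_compl
        (h.isOpenMap _ (isOpen_ball (x := 0) (ε := Real.exp 1)))
        (disjoint_compl_left.mono_right (image_mono ball_subset_closedBall)) ?_
        ⟨b, ⟨0, γ.source⟩, hbF⟩ (isPreconnected_range γ.continuous)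
      rintro _ ⟨t, rfl⟩
      rcases hγ t with h2 | h2
      · exact Or.inl h2.2
      · rw [mem_singleton_iff.1 h2]
        exact Or.inr hyU
    exact h1 ⟨1, γ.target⟩ hy
  have hyb : y ≠ b := fun e => hbF (e ▸ hy)
  refine ⟨y, hyU, fun {x} hx => ?_⟩
  by_cases hb : x = b
  · rw [hb]
    refine hj.symm.mono ?_
    rintro u (hu | hu)
    · exact fun h2 => hu.2 (image_mono ball_subset_closedBall h2)
    · rw [mem_singleton_iff.1 hu]
      exact hyU
  · exact (hA.joinedIn _ (hmem y hyU hyb) _ (hmem x hx hb)).mono hsub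

omit [CompactSpace Z] in
theorem big {x y : Z} {d : ℝ} (h : d ≤ dist x y / 2) (z : Z) : d ≤ dist x z ∨ d ≤ dist y z := by
  have := dist_triangle_right x y z
  by_cases h1 : d ≤ dist x z
  · exact Or.inl h1
  · exact Or.inr (by linarith)

end ARing

theorem ringP (D : Dyn G Z) : RingP Z := by
  obtain ⟨b⟩ := D.ne
  obtain ⟨ψ, h, hr⟩ := D.chart b
  obtain ⟨-, -, hpc⟩ := gTwo D
  have he : (1 : ℝ) < Real.exp 1 := Real.one_lt_exp_iff.2 one_pos
  have hbr : ∀ z, ψ z ≠ b := fun z => by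
    have : ψ z ∈ range ψ := ⟨z, rfl⟩
    rwa [hr] at this
  obtain ⟨δ, hδ, hth⟩ := ((isCompact_closedBall (0 : ℂ) 1).image
    h.continuous).exists_thickening_subset_open
    (h.isOpenMap _ (isOpen_ball (x := 0) (ε := Real.exp 1)))
    (image_mono (closedBall_subset_ball he))
  have h01 : 0 < dist (ψ 0) (ψ 1) := dist_pos.2 fun e => zero_ne_one (h.injective e)
  have h1b : 0 < dist (ψ (Complex.exp 1)) b := dist_pos.2 (hbr _)
  refine ⟨{
    p := fun w => ψ (Complex.exp w)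
    E0 := ψ '' closedBall 0 1
    E1 := (ψ '' ball 0 (Real.exp 1))ᶜ
    d1 := min δ (min (dist (ψ 0) (ψ 1) / 2) (dist (ψ (Complex.exp 1)) b / 2))
    cont := h.continuous.comp Complex.continuous_exp
    per := fun w k => ?_
    inj := ARing.inj h
    sec := ARing.sec h
    uc := ARing.uc h
    low := ARing.low h
    mem0 := fun w => ?_
    mem1 := ARing.mem1 h
    mid := fun x h0 h1 => ?_
    conn0 := ((convex_closedBall (0 : ℂ) 1).isPathConnected
      ⟨0, mem_closedBall_self zero_le_one⟩).image h.continuous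
    conn1 := ARing.conn1 h hr
    d1_pos := lt_min hδ (lt_min (by positivity) (by positivity))
    sep := fun x hx y hy => ?_
    big0 := fun z => ?_
    big1 := fun z => ?_ }⟩
  · exact congrArg ψ (Complex.exp_eq_exp_iff_exists_int.2 ⟨k, rfl⟩)
  · rw [h.injective.mem_set_image, mem_closedBall_zero_iff, Complex.norm_exp,
      Real.exp_le_one_iff]
  · obtain ⟨z, -, rfl⟩ := not_not.1 h1
    have hz : z ≠ 0 := by
      rintro rfl
      exact h0 ⟨0, mem_closedBall_self zero_le_one, rfl⟩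
    exact ⟨Complex.log z, by rw [Complex.exp_log hz]⟩
  · refine (min_le_left _ _).trans (not_lt.1 fun hlt => hy (hth ?_))
    exact mem_thickening_iff.2 ⟨x, hx, by rwa [dist_comm]⟩
  · rcases ARing.big ((min_le_right δ _).trans (min_le_left _ _)) z with h1 | h1
    · exact ⟨_, ⟨0, mem_closedBall_self zero_le_one, rfl⟩, h1⟩
    · exact ⟨_, ⟨1, by simp, rfl⟩, h1⟩
  · rcases ARing.big ((min_le_right δ _).trans (min_le_right _ _)) z with h1 | h1
    · exact ⟨_, (ARing.mem1 h 1).2 (by simp), h1⟩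
    · exact ⟨_, fun ⟨z, _, e⟩ => hbr z e, h1⟩

end Vale.Agent.P198
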