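import Vale.Agent.P198.A.Stm

/-! Few walks visit a small ball. -/

open Set Metric Topology Filter

namespace Vale.Agent.P198

variable {G Z : Type*} [Group G] [MetricSpace Z] [MulAction G Z] [CompactSpace Z] {D : Dyn G Z}
  {E : Geo Z} {R : Ring Z}

namespace ASm

theorem ser (D : Dyn G Z) (w : Z) (r : ℝ) (hr : 0 < r) (N : ℕ) (hN : 0 < N) :
    ∀ᶠ n in atTop, ∀ B, D.TestAt n B → ∃ ρ : G → ℝ, (∀ g, 0 ≤ ρ g) ∧ N * D.mass n ρ ≤ B ∧
      ∀ (A : Set Z) (x y : Z), JoinedIn A x y → dist x w ≤ r → r * 4 ^ N ≤ dist y w →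
        1 ≤ D.ln n ρ A := by
  classical
  have hinj : Function.Injective fun i : ℕ => (w, r * 4 ^ i) := by
    intro i j h
    have h1 : r * 4 ^ i = r * 4 ^ j := congrArg Prod.snd h
    exact pow_right_injective₀ (by norm_num : (0 : ℝ) < 4) (by norm_num) (mul_left_cancel₀ hr.ne' h1)
  have hd : ∀ i j : ℕ, i < j → Disjoint (ann w (r * 4 ^ i)) (ann w (r * 4 ^ j)) := by
    intro i j h
    refine Set.disjoint_left.2 fun y h1 h2 => ?_
    have h3 : (4 : ℝ) ^ (i + 1) ≤ 4 ^ j := pow_le_pow_right₀ (by norm_num) h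
    have h4 := mul_le_mul_of_nonneg_left h3 hr.le
    have h5 : 0 < r * 4 ^ i := by positivity
    rw [pow_succ] at h4
    linarith [h1.2, h2.1]
  have := serP D ((Finset.range N).image fun i : ℕ => (w, r * 4 ^ i))
    (Finset.Nonempty.image ⟨0, Finset.mem_range.2 hN⟩ _) (fun p hp => by
      obtain ⟨i, -, rfl⟩ := Finset.mem_image.1 hp
      positivity) (fun p hp p' hp' hne => by
      obtain ⟨i, -, rfl⟩ := Finset.mem_image.1 hp
      obtain ⟨j, -, rfl⟩ := Finset.mem_image.1 hp'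
      rcases lt_trichotomy i j with h | h | h
      · exact hd i j h
      · exact absurd (by rw [h]) hne
      · exact (hd j i h).symm)
  filter_upwards [this] with n hn B hB
  obtain ⟨ρ, h0, h1, -, h2⟩ := hn B hB
  rw [Finset.card_image_of_injective _ hinj, Finset.card_range] at h1
  refine ⟨ρ, h0, h1, fun A x y hj hx hy => h2 A fun p hp => ?_⟩
  obtain ⟨i, hi, rfl⟩ := Finset.mem_image.1 hp
  have h3 : (4 : ℝ) ^ (i + 1) ≤ 4 ^ N := pow_le_pow_right₀ (by norm_num) (Finset.mem_range.1 hi)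
  have h4 := mul_le_mul_of_nonneg_left h3 hr.le
  have h5 : (1 : ℝ) ≤ 4 ^ i := one_le_pow₀ (by norm_num)
  have h6 := mul_le_mul_of_nonneg_left h5 hr.le
  rw [pow_succ] at h4
  exact ⟨x, y, hj, by simp only; linarith, by simp only; linarith⟩

omit [CompactSpace Z] in
theorem far (hR : RealP D E) {n k j0 : ℕ} {d : ℕ → G} (h : D.IsCh R.E0 R.E1 n k d) (hj : j0 ≤ k)
    (hn : 2 * D.C * D.q ^ n < R.d1 / 8) (w : Z) :
    ∃ y, R.d1 / 4 ≤ dist y w ∧ JoinedIn {y | ∃ j ∈ Finset.range (k + 1),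
      dist y (D.pt (d j)) < 4 * D.C * E.Λ * D.q ^ n} (D.pt (d j0)) y := by
  obtain ⟨-, x, hx, h1⟩ := D.mem_hit.1 h.st
  obtain ⟨-, y, hy, h2⟩ := D.mem_hit.1 h.en
  have h3 := R.sep x hx y hy
  have h4 := dist_triangle4 x (D.pt (d 0)) (D.pt (d k)) y
  have h5 := dist_triangle_right (D.pt (d 0)) (D.pt (d k)) w
  rw [dist_comm y] at h2
  have hd := R.d1_pos
  by_cases hc : R.d1 / 4 ≤ dist (D.pt (d 0)) w
  · refine ⟨_, hc, ((hR n k d h.wk 0 j0 (Nat.zero_le _) hj).mono ?_).symm⟩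
    rintro y ⟨j, -, a2, a3⟩
    exact ⟨j, Finset.mem_range.2 (by omega), a3⟩
  · refine ⟨D.pt (d k), by linarith, (hR n k d h.wk j0 k hj le_rfl).mono ?_⟩
    rintro y ⟨j, -, a2, a3⟩
    exact ⟨j, Finset.mem_range.2 (by omega), a3⟩

theorem wt_rep {ι : Type*} (T : Finset ι) (μ : ι → ℝ) (A : Set ι) :
    ∃ S : Finset ι, (∀ i ∈ S, i ∈ T ∧ i ∈ A) ∧ wt T μ A = ∑ i ∈ S, μ i := by
  classical
  exact ⟨_, fun i hi => Finset.mem_filter.1 hi, rfl⟩

end ASm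

theorem Seq.smP (s : Seq D E R) (hT : D.Tst) (hR : RealP D E) (hC : CSP D) (hS : SprP D) :
    s.SmP := by
  classical
  intro κ hκ
  obtain ⟨B, hB, hT⟩ := hT
  obtain ⟨Ns, hNs, hS⟩ := hS (4 * D.C * E.Λ)
  obtain ⟨N, hN⟩ := exists_nat_gt (Ns * B / κ)
  have hN0 : (0 : ℝ) < N := lt_trans (by positivity) hN
  have hd := R.d1_pos
  obtain ⟨r, hr, hrd⟩ : ∃ r : ℝ, 0 < r ∧ 2 * r * 4 ^ N = R.d1 / 4 :=
    ⟨R.d1 / (8 * 4 ^ N), by positivity, by field_simp; norm_num⟩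
  obtain ⟨t, -, ht, hcov⟩ := finite_cover_balls_of_compact (isCompact_univ (X := Z)) hr
  refine ⟨r, hr, ?_⟩
  have ev := (eventually_all_finite ht).2 fun w _ =>
    ASm.ser D w (2 * r) (by positivity) N (Nat.cast_pos.1 hN0)
  filter_upwards [ev, D.ev_small (2 * D.C) (R.d1 / 8) (by positivity)] with n hn hq z
  obtain ⟨w, hw, hzw⟩ := mem_iUnion₂.1 (hcov (mem_univ z))
  obtain ⟨ρ, h0, h1, h2⟩ := hn w hw B (hT n)
  obtain ⟨σ, k0, k1, k2⟩ := hS n ρ h0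
  have hm : D.mass n σ ≤ κ := by
    rw [div_lt_iff₀ hκ] at hN
    refine le_of_mul_le_mul_left ?_ hN0
    nlinarith
  have hm0 : 0 ≤ D.mass n σ := Finset.sum_nonneg fun g _ => sq_nonneg _
  obtain ⟨S, hS', e⟩ : ∃ S : Finset ℕ, (∀ i ∈ S, i ∈ (s.P n).T ∧
      ∃ j ≤ (s.P n).m i, dist (D.pt ((s.P n).c i j)) z < r) ∧ wt (s.P n).T (s.P n).μ
        {i | ∃ j ≤ (s.P n).m i, dist (D.pt ((s.P n).c i j)) z < r} = ∑ i ∈ S, (s.P n).μ i := by
    exact ASm.wt_rep _ _ _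
  rw [e]
  have hsub : S ⊆ (s.P n).T := fun i hi => (hS' i hi).1
  have hμ : ∀ i ∈ S, 0 ≤ (s.P n).μ i := fun i hi => ((s.P n).μ_pos i (hsub hi)).le
  have c1 := hC n _ _ (s.P n).toFlow σ S (fun _ => True) k0 hsub
  simp only [Finset.filter_true] at c1
  have c2 : ∑ i ∈ S, (s.P n).μ i * ∑ j ∈ Finset.range ((s.P n).m i + 1),
      (s.P n).ρ ((s.P n).c i j) ≤ 1 := by
    rw [Finset.sum_congr rfl fun i hi => by rw [(s.P n).tot i (hsub hi), mul_one], ← (s.P n).μ_sum]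
    exact Finset.sum_le_sum_of_subset_of_nonneg hsub fun i hi _ => ((s.P n).μ_pos i hi).le
  have c3 : ∑ i ∈ S, (s.P n).μ i ≤ ∑ i ∈ S, (s.P n).μ i * ∑ j ∈ Finset.range ((s.P n).m i + 1),
      σ ((s.P n).c i j) := by
    refine Finset.sum_le_sum fun i hi => le_mul_of_one_le_right (hμ i hi) ?_
    obtain ⟨hiT, j0, hj0, hz⟩ := hS' i hi
    obtain ⟨y, a1, a2⟩ := ASm.far hR ((s.P n).ch i hiT) hj0 hq w
    refine (h2 _ _ _ a2 ?_ (by linarith)).trans (k2 _ _ _ fun y hy => hy)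
    have := dist_triangle (D.pt ((s.P n).c i j0)) z w
    have := mem_ball.1 hzw
    linarith
  have c4 := pow_le_pow_left₀ (Finset.sum_nonneg hμ) c3 2
  have c5 := mul_le_mul_of_nonneg_right c4 (s.P n).M_pos.le
  have c6 := mul_le_mul_of_nonneg_left c2 hm0
  linarith

end Vale.Agent.P198
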