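import Vale.Agent.P198.L.All

/-! Part II-a: statements. -/

open Set Metric Topology Filter

namespace Vale.Agent.P198

variable {G Z : Type*} [Group G] [MetricSpace Z] [MulAction G Z]

/-- A ring domain with its universal cover. -/
structure Ring (Z : Type*) [MetricSpace Z] where
  p : ℂ → Z
  E0 : Set Z
  E1 : Set Z
  d1 : ℝ
  cont : Continuous p
  per : ∀ (w : ℂ) (k : ℤ), p (w + k * TT) = p w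
  inj : ∀ w w' : ℂ, p w = p w' → ∃ k : ℤ, w' = w + k * TT
  sec : ∀ ε : ℝ, 0 < ε → ∃ δ : ℝ, 0 < δ ∧ ∀ w ∈ strip (-1) 2, ∃ s : Z → ℂ,
    ContinuousOn s (ball (p w) δ) ∧ s (p w) = w ∧ ∀ y ∈ ball (p w) δ, p (s y) = y ∧ s y ∈ ball w ε
  uc : ∀ δ : ℝ, 0 < δ → ∃ ε : ℝ, 0 < ε ∧ ∀ w ∈ strip (-1) 2, ∀ w' : ℂ, dist w' w < ε →
    dist (p w') (p w) < δ
  low : ∀ ε : ℝ, 0 < ε → ∃ δ : ℝ, 0 < δ ∧ ∀ w ∈ strip (-1) 2, ∀ w' : ℂ, dist w' w ≤ 3 →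
    dist (p w') (p w) < δ → dist w' w < ε
  mem0 : ∀ w : ℂ, p w ∈ E0 ↔ w.re ≤ 0
  mem1 : ∀ w : ℂ, p w ∈ E1 ↔ 1 ≤ w.re
  mid : ∀ x : Z, x ∉ E0 → x ∉ E1 → ∃ w : ℂ, p w = x
  conn0 : IsPathConnected E0
  conn1 : IsPathConnected E1
  d1_pos : 0 < d1
  sep : ∀ x ∈ E0, ∀ y ∈ E1, d1 ≤ dist x y
  big0 : ∀ z : Z, ∃ x ∈ E0, d1 ≤ dist x z
  big1 : ∀ z : Z, ∃ x ∈ E1, d1 ≤ dist x z

def RingP (Z : Type*) [MetricSpace Z] : Prop := Nonempty (Ring Z)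

/-- A walk through nodes of level `n`. -/
structure Dyn.Wk (D : Dyn G Z) (n k : ℕ) (d : ℕ → G) : Prop where
  lev : ∀ j ≤ k, D.len (d j) = n
  adj : ∀ j < k, dist (D.pt (d j)) (D.pt (d (j + 1))) < 4 * D.C * D.q ^ n

/-- A walk from `E0` to `E1` whose inner nodes avoid both. -/
structure Dyn.IsCh (D : Dyn G Z) (E0 E1 : Set Z) (n k : ℕ) (d : ℕ → G) : Prop where
  wk : D.Wk n k d
  st : d 0 ∈ D.hit n E0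
  en : d k ∈ D.hit n E1
  nst : ∀ j, 0 < j → j ≤ k → d j ∉ D.hit n E0
  nen : ∀ j < k, d j ∉ D.hit n E1

/-- Paths give walks. -/
def CTP (D : Dyn G Z) : Prop :=
  ∀ (n : ℕ) (P : Set Z) (x y : Z) (g g' : G), JoinedIn P x y → D.len g = n → D.len g' = n →
    dist x (D.pt g) < 2 * D.C * D.q ^ n → dist y (D.pt g') < 2 * D.C * D.q ^ n →
    ∃ (k : ℕ) (d : ℕ → G), D.Wk n k d ∧ d 0 = g ∧ d k = g' ∧ (∀ j ≤ k, d j ∈ D.hit n P) ∧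
      ∀ j ≤ k, ∀ j' ≤ k, d j = d j' → j = j'

/-- Walks give paths. -/
def RealP (D : Dyn G Z) (E : Geo Z) : Prop :=
  ∀ (n k : ℕ) (d : ℕ → G), D.Wk n k d → ∀ a b, a ≤ b → b ≤ k →
    JoinedIn {y | ∃ j, a ≤ j ∧ j ≤ b ∧ dist y (D.pt (d j)) < 4 * D.C * E.Λ * D.q ^ n}
      (D.pt (d a)) (D.pt (d b))

open Classical in
/-- The extremal flow on walks. -/
structure Flow (D : Dyn G Z) (n : ℕ) (E0 E1 : Set Z) where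
  T : Finset ℕ
  μ : ℕ → ℝ
  m : ℕ → ℕ
  c : ℕ → ℕ → G
  M : ℝ
  ρ : G → ℝ
  μ_pos : ∀ i ∈ T, 0 < μ i
  μ_sum : ∑ i ∈ T, μ i = 1
  M_pos : 0 < M
  ch : ∀ i ∈ T, D.IsCh E0 E1 n (m i) (c i)
  inj : ∀ i ∈ T, ∀ j ≤ m i, ∀ j' ≤ m i, c i j = c i j' → j = j'
  ρ_def : ∀ g, ρ g = M * ∑ i ∈ T.filter fun i => ∃ j ≤ m i, c i j = g, μ i
  tot : ∀ i ∈ T, ∑ j ∈ Finset.range (m i + 1), ρ (c i j) = 1
  adm : ∀ (k : ℕ) (d : ℕ → G), D.Wk n k d → d 0 ∈ D.hit n E0 → d k ∈ D.hit n E1 →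
    1 ≤ ∑ j ∈ Finset.range (k + 1), ρ (d j)
  mass : D.mass n ρ = M

theorem Flow.ρ_nonneg {D : Dyn G Z} {n : ℕ} {E0 E1 : Set Z} (F : Flow D n E0 E1) (g : G) :
    0 ≤ F.ρ g := by
  classical
  rw [F.ρ_def]
  exact mul_nonneg F.M_pos.le (Finset.sum_nonneg fun i hi =>
    (F.μ_pos i (Finset.mem_filter.1 hi).1).le)

def FlowEx (D : Dyn G Z) : Prop :=
  ∀ (n : ℕ) (E0 E1 : Set Z), E0.Nonempty → E1.Nonempty → Nonempty (Flow D n E0 E1)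

/-- The flow with its potential. -/
structure Pot (D : Dyn G Z) (n : ℕ) (E0 E1 : Set Z) extends Flow D n E0 E1 where
  u : G → ℝ
  time : ∀ i ∈ T, ∀ j ≤ m i, u (c i j) = ∑ j' ∈ Finset.range (j + 1), ρ (c i j')
  u_nonneg : ∀ g, D.len g = n → 0 ≤ u g
  u_le : ∀ g, D.len g = n → u g ≤ 1
  u_st : ∀ g ∈ D.hit n E0, u g ≤ ρ g
  u_en : ∀ g ∈ D.hit n E1, 1 ≤ u g
  plen : ∀ (P : Set Z) (x y : Z) (g g' : G), JoinedIn P x y → D.len g = n → D.len g' = n →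
    dist x (D.pt g) < 2 * D.C * D.q ^ n → dist y (D.pt g') < 2 * D.C * D.q ^ n →
    u g' ≤ u g + D.ln n ρ P
  thru : ∀ g, D.len g = n → ∃ (k : ℕ) (d : ℕ → G) (j0 : ℕ), D.Wk n k d ∧ d 0 ∈ D.hit n E0 ∧
    d k ∈ D.hit n E1 ∧ j0 ≤ k ∧ d j0 = g ∧ ∀ j < k, u (d j) ≤ u (d (j + 1))

def PotEx (D : Dyn G Z) : Prop :=
  ∀ (n : ℕ) (E0 E1 : Set Z), Nonempty (Flow D n E0 E1) → Nonempty (Pot D n E0 E1)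

open Classical in
/-- Cauchy-Schwarz along the flow. -/
def CSP (D : Dyn G Z) : Prop :=
  ∀ (n : ℕ) (E0 E1 : Set Z) (F : Flow D n E0 E1) (σ : G → ℝ) (S : Finset ℕ) (Q : G → Prop),
    (∀ g, 0 ≤ σ g) → S ⊆ F.T →
    (∑ i ∈ S, F.μ i * ∑ j ∈ (Finset.range (F.m i + 1)).filter fun j => Q (F.c i j), σ (F.c i j)) ^ 2
      * F.M ≤ D.mass n σ *
      ∑ i ∈ S, F.μ i * ∑ j ∈ (Finset.range (F.m i + 1)).filter fun j => Q (F.c i j), F.ρ (F.c i j)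

open Classical in
/-- Time spent in a window. -/
def TimeP (D : Dyn G Z) : Prop :=
  ∀ (n : ℕ) (E0 E1 : Set Z) (F : Pot D n E0 E1) (r t lam : ℝ), (∀ g, F.ρ g ≤ r) → 0 ≤ lam →
    ∀ i ∈ F.T, (∀ j j', j ≤ j' → j' ≤ F.m i → F.u (F.c i j) ≤ F.u (F.c i j')) ∧
      ∑ j ∈ (Finset.range (F.m i + 1)).filter fun j => |F.u (F.c i j) - t| ≤ lam, F.ρ (F.c i j)
        ≤ 2 * lam + r

/-- Spreading a weight. -/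
def SprP (D : Dyn G Z) : Prop :=
  ∀ L : ℝ, ∃ N : ℝ, 0 < N ∧ ∀ (n : ℕ) (τ : G → ℝ), (∀ g, 0 ≤ τ g) → ∃ σ : G → ℝ, (∀ g, 0 ≤ σ g) ∧
    D.mass n σ ≤ N * D.mass n τ ∧ ∀ (P : Set Z) (J : Finset ℕ) (d : ℕ → G),
      (∀ y ∈ P, ∃ j ∈ J, dist y (D.pt (d j)) < L * D.q ^ n) → D.ln n τ P ≤ ∑ j ∈ J, σ (d j)

/-- A test weight for big sets. -/
def BigP (D : Dyn G Z) : Prop :=
  ∀ δ : ℝ, 0 < δ → ∃ B : ℝ, 0 < B ∧ ∀ᶠ n in atTop, ∃ τ : G → ℝ, (∀ g, 0 ≤ τ g) ∧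
    D.mass n τ ≤ B ∧ ∀ A ∈ Big Z δ, 1 ≤ D.ln n τ A

open Classical in
def CoareaP (G : Type*) : Prop :=
  ∀ (T : Finset G) (σ lo hi : G → ℝ), (∀ g ∈ T, 0 ≤ σ g) → (∀ g ∈ T, lo g ≤ hi g) →
    ∃ t : ℝ, 0 < t ∧ t < 1 ∧
      ∑ g ∈ T.filter fun g => lo g ≤ t ∧ t < hi g, σ g ≤ ∑ g ∈ T, σ g * (hi g - lo g)

/-- `K` crosses the annulus of ratio `κ ^ 2`. -/
def CrK {Z : Type*} [MetricSpace Z] (κ : ℝ) (z : Z) (s : ℝ) (K : Set Z) : Prop :=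
  ∃ a b, JoinedIn K a b ∧ κ * dist a z ≤ s ∧ κ * s ≤ dist b z

/-- Duality: two sets crossing an annulus are joined in it by a short path. -/
def DualP (D : Dyn G Z) : Prop :=
  ∃ κ : ℝ, 1 ≤ κ ∧ ∀ L : ℝ, 0 ≤ L → ∃ Cd : ℝ, 0 < Cd ∧ ∀ (n : ℕ) (z : Z) (s : ℝ) (σ : G → ℝ)
    (K1 K2 : Set Z), 2 * D.q ^ n ≤ s → (∀ g, 0 ≤ σ g) → CrK κ z s K1 → CrK κ z s K2 →
    ∃ W : Set Z, ∃ x1 ∈ K1, ∃ x2 ∈ K2, JoinedIn W x1 x2 ∧ W ⊆ ball z (3 * s) ∧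
      (∑ g ∈ D.near n L W, σ g) ^ 2 ≤ Cd * ∑ g ∈ D.near n (L + 1) (ann z s), σ g ^ 2

/-- A lift of a walk to the universal cover. -/
structure IsLf (D : Dyn G Z) (E : Geo Z) (R : Ring Z) (n : ℕ) (ε : ℝ) (k : ℕ) (d : ℕ → G)
    (w : ℕ → ℂ) (Lk : ℕ → Set ℂ) : Prop where
  pos : 0 < k
  pw : ∀ j ≤ k, R.p (w j) = D.pt (d j)
  cpt : ∀ j < k, IsCompact (Lk j)
  conn : ∀ j < k, IsPathConnected (Lk j)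
  ml : ∀ j < k, w j ∈ Lk j
  mr : ∀ j < k, w (j + 1) ∈ Lk j
  sm : ∀ j < k, Lk j ⊆ ball (w j) ε
  nr : ∀ j < k, ∀ y ∈ Lk j, dist (R.p y) (D.pt (d j)) < 4 * D.C * E.Λ * D.q ^ n
  re0 : |(w 0).re| < ε
  re1 : |(w k).re - 1| < ε
  rem : ∀ j ≤ k, -ε < (w j).re ∧ (w j).re < 1 + ε

/-- The curve of a lift. -/
def crv (k : ℕ) (w : ℕ → ℂ) (Lk : ℕ → Set ℂ) : Set ℂ :=
  {y | y.im = (w 0).im ∧ -1 ≤ y.re ∧ y.re ≤ (w 0).re} ∪ (⋃ j < k, Lk j) ∪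
    {y | y.im = (w k).im ∧ (w k).re ≤ y.re ∧ y.re ≤ 2}

def LfP (D : Dyn G Z) (E : Geo Z) (R : Ring Z) : Prop :=
  ∀ ε : ℝ, 0 < ε → ∀ᶠ n in atTop, ∀ (k : ℕ) (d : ℕ → G), D.IsCh R.E0 R.E1 n k d →
    ∃ w Lk, IsLf D E R n ε k d w Lk

structure CrvP (D : Dyn G Z) (E : Geo Z) (R : Ring Z) : Prop where
  crs : ∀ n ε k d w Lk, ε ≤ 1 / 2 → IsLf D E R n ε k d w Lk → Crs (-1) 2 (crv k w Lk)
  link : ∀ n ε k d w Lk, IsLf D E R n ε k d w Lk → ∀ a b, a < b → b ≤ k →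
    IsPathConnected (⋃ j ∈ Ico a b, Lk j)
  shift : ∀ n ε k d w Lk (l : ℤ), IsLf D E R n ε k d w Lk →
    IsLf D E R n ε k d (fun j => w j + l * TT) fun j => sh l (Lk j)

/-- The horizontal band. -/
def Hb (H : ℝ) : Set ℂ := {w | |w.im| ≤ H}

open Classical in
structure WindP : Prop where
  fin : ∀ (a b H : ℝ) (A : Set ℂ), Crs a b A → {k : ℤ | (sh k A ∩ Hb H).Nonempty}.Finite
  crs : ∀ (a b : ℝ) (A : Set ℂ) (k : ℤ), Crs a b A → Crs a b (sh k A)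
  per : ∀ (a b : ℝ) (A : Set ℂ) (w : ℂ), Crs a b A → w ∈ strip a b →
    wind a b A (w + TT) = wind a b A w + 1
  diff : ∀ (a b H : ℝ) (A : Set ℂ) (x y : ℂ) (S : Finset ℤ), Crs a b A → x ∈ strip a b ∩ Hb H →
    y ∈ strip a b ∩ Hb H → (∀ k : ℤ, (sh k A ∩ Hb H).Nonempty → k ∈ S) →
    wind a b A x - wind a b A y = ((S.filter fun k => x ∈ Up a b (sh k A)).card : ℤ) -
      ((S.filter fun k => y ∈ Up a b (sh k A)).card : ℤ)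
  osc : ∀ (a b H : ℝ) (A P : Set ℂ) (x y : ℂ), Crs a b A → P ⊆ strip a b ∩ Hb H →
    JoinedIn P x y →
    |wind a b A x - wind a b A y| ≤ ({k : ℤ | (sh k A ∩ P).Nonempty}.ncard : ℤ)
  num : ∀ (H X : ℝ) (A : Set ℂ), 0 ≤ H → (∀ y ∈ A, ∀ y' ∈ A, y.im - y'.im ≤ X) →
    ({k : ℤ | (sh k A ∩ Hb H).Nonempty}.ncard : ℝ) ≤ H + |X| + 1

/-- The data at all levels. -/
structure Seq (D : Dyn G Z) (E : Geo Z) (R : Ring Z) where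
  P : ∀ n, Pot D n R.E0 R.E1
  ε : ℕ → ℝ
  w : ℕ → ℕ → ℕ → ℂ
  Lk : ℕ → ℕ → ℕ → Set ℂ
  ε_lim : Tendsto ε atTop (𝓝 0)
  lf : ∀ᶠ n in atTop, ∀ i ∈ (P n).T,
    IsLf D E R n (ε n) ((P n).m i) ((P n).c i) (w n i) (Lk n i)

def SeqP (D : Dyn G Z) (E : Geo Z) (R : Ring Z) : Prop := Nonempty (Seq D E R)

namespace Seq

variable {D : Dyn G Z} {E : Geo Z} {R : Ring Z} (s : Seq D E R)

/-- The curves. -/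
def A (n i : ℕ) : Set ℂ := crv ((s.P n).m i) (s.w n i) (s.Lk n i)

/-- The mass of the lifts meeting a set. -/
noncomputable def cnt (n : ℕ) (Q : Set ℂ) : ℝ :=
  ∑ i ∈ (s.P n).T, (s.P n).μ i * ({k : ℤ | (sh k (s.A n i) ∩ Q).Nonempty}.ncard : ℝ)

/-- The conjugate function at level `n`. -/
noncomputable def Vn (n : ℕ) (w : ℂ) : ℝ :=
  ∑ i ∈ (s.P n).T, (s.P n).μ i * (wind (-1) 2 (s.A n i) w : ℝ)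

/-- Windows. -/
def Wn (n i : ℕ) (t lam : ℝ) : Set ℂ :=
  ⋃ j ∈ {j | j < (s.P n).m i ∧ |(s.P n).u ((s.P n).c i j) - t| ≤ lam}, s.Lk n i j

def MupP : Prop := ∃ C' : ℝ, 0 < C' ∧ ∀ᶠ n in atTop, (s.P n).M ≤ C'

def MloP : Prop := ∃ c : ℝ, 0 < c ∧ ∀ᶠ n in atTop, c ≤ (s.P n).M

/-- Few walks visit a small ball. -/
def SmP : Prop :=
  ∀ κ : ℝ, 0 < κ → ∃ r : ℝ, 0 < r ∧ ∀ᶠ n in atTop, ∀ z : Z,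
    wt (s.P n).T (s.P n).μ {i | ∃ j ≤ (s.P n).m i, dist (D.pt ((s.P n).c i j)) z < r} ^ 2 *
      (s.P n).M ≤ κ

def UCP : Prop :=
  ∀ κ : ℝ, 0 < κ → ∃ r : ℝ, 0 < r ∧ ∀ᶠ n in atTop, ∀ g g', D.len g = n → D.len g' = n →
    dist (D.pt g) (D.pt g') < r → |(s.P n).u g' - (s.P n).u g| ≤ κ

def RhoP : Prop := ∀ κ : ℝ, 0 < κ → ∀ᶠ n in atTop, ∀ g, (s.P n).ρ g ≤ κ

def UC0P : Prop :=
  ∃ Cu : ℝ, 0 < Cu ∧ ∀ N : ℕ, 0 < N → ∃ r : ℝ, 0 < r ∧ ∀ κ : ℝ, 0 < κ → ∀ᶠ n in atTop,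
    ∀ g g', D.len g = n → D.len g' = n → dist (D.pt g) (D.pt g') < r →
      (s.P n).u g' - (s.P n).u g ≤ κ + √(Cu * (s.P n).M / N)

def ExtP : Prop :=
  ∀ H : ℝ, ∃ C : ℝ, 0 < C ∧ ∀ᶠ n in atTop, ∀ S ⊆ (s.P n).T,
    ∑ i ∈ S, (s.P n).μ i * ({k : ℤ | (sh k (s.A n i) ∩ Hb H).Nonempty}.ncard : ℝ) ≤
      C * √(∑ i ∈ S, (s.P n).μ i)

def WinP : Prop :=
  ∀ᶠ n in atTop, ∀ i ∈ (s.P n).T, ∀ t lam : ℝ, s.Wn n i t lam ⊆ s.A n i ∧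
    ((s.Wn n i t lam).Nonempty → IsPathConnected (s.Wn n i t lam))

def BadWP : Prop :=
  ∀ δ κ : ℝ, 0 < δ → 0 < κ → ∃ lam : ℝ, 0 < lam ∧ ∀ᶠ n in atTop, ∀ t : ℝ,
    wt (s.P n).T (s.P n).μ {i | ∃ y ∈ s.Wn n i t lam, ∃ y' ∈ s.Wn n i t lam, δ ≤ dist y y'} ≤ κ

def Cnt1P : Prop :=
  ∀ θ : ℝ, 0 < θ → ∀ᶠ n in atTop, ∀ (Q : Set ℂ) (w0 : ℂ), Q ⊆ strip θ (1 - θ) ∩ ball w0 1 →
    (s.P n).M * s.cnt n Q ≤ ∑ g ∈ D.near n (4 * D.C * E.Λ) (R.p '' Q), (s.P n).ρ g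

def Cnt2P : Prop :=
  ∀ θ κ : ℝ, 0 < θ → 0 < κ → ∃ r : ℝ, 0 < r ∧ ∀ᶠ n in atTop, ∀ w0 : ℂ,
    s.cnt n (strip θ (1 - θ) ∩ ball w0 r) ≤ κ

structure VnP : Prop where
  per : ∀ᶠ n in atTop, ∀ w ∈ strip (-1) 2, s.Vn n (w + TT) = s.Vn n w + 1
  osc : ∀ᶠ n in atTop, ∀ (Q : Set ℂ) (x y w0 : ℂ), Q ⊆ strip (-1) 2 ∩ ball w0 1 →
    JoinedIn Q x y → |s.Vn n x - s.Vn n y| ≤ s.cnt n Q

/-- The limit potential. -/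
structure IsU (U : Z → ℝ) : Prop where
  cont : Continuous U
  zero : ∀ x ∈ R.E0, U x = 0
  one : ∀ x ∈ R.E1, U x = 1
  app : ∀ L κ : ℝ, 0 < κ → ∀ᶠ n in (hyperfilter ℕ : Filter ℕ), ∀ (g : G) (y : Z), D.len g = n →
    dist y (D.pt g) < L * D.q ^ n → |(s.P n).u g - U y| ≤ κ

def ULimP : Prop := ∃ U, s.IsU U

/-- The limit conjugate function. -/
structure IsV (θ : ℝ) (V : ℂ → ℝ) : Prop where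
  cont : ContinuousOn V (strip θ (1 - θ))
  per : ∀ w ∈ strip θ (1 - θ), V (w + TT) = V w + 1
  app : ∀ κ : ℝ, 0 < κ → ∀ᶠ n in (hyperfilter ℕ : Filter ℕ), ∀ x ∈ strip θ (1 - θ),
    ∀ y ∈ strip θ (1 - θ), |V x - V y - (s.Vn n x - s.Vn n y)| ≤ κ

def VLimP : Prop := ∀ θ : ℝ, 0 < θ → θ < 1 / 4 → ∃ V, s.IsV θ V

end Seq

/-- The limit map in the plane. -/
structure PL where
  U : ℂ → ℝ
  V : ℂ → ℝ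
  θ : ℝ
  θ_pos : 0 < θ
  θ_lt : θ < 1 / 4
  U_cont : Continuous U
  U_per : ∀ (w : ℂ) (k : ℤ), U (w + k * TT) = U w
  lo : ∀ w : ℂ, w.re ≤ 2 * θ → U w ≤ 1 / 8
  hi : ∀ w : ℂ, 1 - 2 * θ ≤ w.re → 7 / 8 ≤ U w
  V_cont : ContinuousOn V (strip θ (1 - θ))
  V_per : ∀ w ∈ strip θ (1 - θ), V (w + TT) = V w + 1

namespace PL

variable (l : PL)

def Mid : Set ℂ := strip l.θ (1 - l.θ)

def Bd (t e : ℝ) : Set ℂ := {w | |l.U w - t| ≤ e}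

noncomputable def f (w : ℂ) : ℂ := ⟨l.U w, l.V w⟩

theorem re_mem {w : ℂ} (h1 : 1 / 8 < l.U w) (h2 : l.U w < 7 / 8) :
    2 * l.θ < w.re ∧ w.re < 1 - 2 * l.θ :=
  ⟨lt_of_not_ge fun h => absurd (l.lo w h) (not_le.2 h1),
    lt_of_not_ge fun h => absurd (l.hi w h) (not_le.2 h2)⟩

theorem mem_mid {w : ℂ} (h1 : 1 / 8 < l.U w) (h2 : l.U w < 7 / 8) : w ∈ l.Mid := by
  have := l.re_mem h1 h2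
  have := l.θ_pos
  constructor <;> linarith

/-- Through every point there is a crossing along which `U` is nearly monotone. -/
def ThruP : Prop :=
  ∀ t e : ℝ, 1 / 4 ≤ t → t ≤ 3 / 4 → 0 < e → e ≤ 1 / 32 → ∀ x ∈ l.Bd t e,
    ∃ A, Crs (-1) 2 A ∧ ∀ y ∈ A ∩ l.Bd t e, JoinedIn (l.Bd t (2 * e)) x y

/-- Level bands are connected. -/
def BandP : Prop :=
  ∀ t e : ℝ, 1 / 4 ≤ t → t ≤ 3 / 4 → 0 < e → e ≤ 1 / 32 → ∀ x ∈ l.Bd t e, ∀ y ∈ l.Bd t e,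
    JoinedIn (l.Bd t (2 * e)) x y

structure PropP : Prop where
  per : ∀ w ∈ l.Mid, ∀ k : ℤ, w + k * TT ∈ l.Mid ∧ l.V (w + k * TT) = l.V w + k
  prop : ∀ a b : ℝ, ∃ H : ℝ, 0 ≤ H ∧ ∀ w ∈ l.Mid, a ≤ l.V w → l.V w ≤ b → w ∈ Hb H
  uc : ∀ κ : ℝ, 0 < κ → ∃ δ : ℝ, 0 < δ ∧ ∀ w ∈ l.Mid, ∀ w' ∈ l.Mid, dist w w' < δ →
    ‖l.f w - l.f w'‖ ≤ κ
  lev : ∀ t : ℝ, 1 / 8 ≤ t → t ≤ 7 / 8 → ∃ w, l.U w = t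

def SurjP : Prop := ∀ t v : ℝ, 1 / 4 ≤ t → t ≤ 3 / 4 → ∃ w, l.U w = t ∧ l.V w = v

/-- Good curves. -/
def Gd (S : Finset (ℕ × ℤ)) (μ : ℕ × ℤ → ℝ) (A : ℕ × ℤ → Set ℂ) (t lam β : ℝ) (j : ℕ × ℤ) : Prop :=
  wt S μ {j' | (A j' ∩ (A j ∩ l.Bd t (3 * lam))).Nonempty} ≤ β ∧
    ∀ y ∈ A j ∩ l.Bd t (3 * lam), ∀ y' ∈ A j ∩ l.Bd t (3 * lam), |l.V y - l.V y'| ≤ β

/-- A weighted family of curves representing `V` near the level `t`. -/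
structure Slab (S : Finset (ℕ × ℤ)) (μ : ℕ × ℤ → ℝ) (A : ℕ × ℤ → Set ℂ) (t lam H H' β : ℝ) :
    Prop where
  nonneg : ∀ j ∈ S, 0 ≤ μ j
  crs : ∀ j ∈ S, Crs (-1) 2 (A j)
  hV : ∀ x ∈ l.Mid ∩ Hb H', ∀ y ∈ l.Mid ∩ Hb H', |l.V x - l.V y -
    (wt S μ {j | x ∈ Up (-1) 2 (A j)} - wt S μ {j | y ∈ Up (-1) 2 (A j)})| ≤ β
  win : ∀ j ∈ S, ∃ N ⊆ A j ∩ l.Bd t (3 * lam), IsPathConnected N ∧ A j ∩ l.Bd t lam ⊆ N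
  bad : wt S μ {j | (A j ∩ Hb H).Nonempty ∧ ¬ l.Gd S μ A t lam β j} ≤ β

def SlabE : Prop :=
  ∀ H β : ℝ, 0 < β → ∃ lam0 : ℝ, 0 < lam0 ∧ ∀ lam, 0 < lam → lam ≤ lam0 → ∀ H' t : ℝ,
    1 / 4 ≤ t → t ≤ 3 / 4 → ∃ S μ A, l.Slab S μ A t lam H H' β

/-- A connected version of the level band. -/
structure Lam (t lam : ℝ) (Λ : Set ℂ) : Prop where
  t1 : 1 / 4 ≤ t
  t2 : t ≤ 3 / 4
  pos : 0 < lam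
  le : lam ≤ 1 / 32
  conn : IsPathConnected Λ
  sup : l.Bd t (lam / 2) ⊆ Λ
  sub : Λ ⊆ l.Bd t lam

def LamP : Prop :=
  ∀ t lam : ℝ, 1 / 4 ≤ t → t ≤ 3 / 4 → 0 < lam → lam ≤ 1 / 32 → ∃ Λ, l.Lam t lam Λ

/-- The order of good curves along the level band is given by `V`. -/
def KeyP : Prop :=
  ∀ S μ A t lam H H' β Λ, l.Slab S μ A t lam H H' β → l.Lam t lam Λ → ∀ j ∈ S,
    l.Gd S μ A t lam β j → ∀ z ∈ A j ∩ l.Bd t lam ∩ Hb H', ∀ q ∈ Λ ∩ Hb H',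
      (q ∈ Up (-1) 2 (A j) → l.V z - 2 * β ≤ l.V q) ∧ (q ∉ Up (-1) 2 (A j) → l.V q ≤ l.V z + 2 * β)

def DensP : Prop :=
  ∀ S μ A t lam H H' β Λ, l.Slab S μ A t lam H H' β → l.Lam t lam Λ → ∀ q1 ∈ Hb H, ∀ q2 ∈ Hb H,
    JoinedIn (Λ ∩ Hb H') q1 q2 → l.V q1 + 2 * β < l.V q2 → ∃ j ∈ S, l.Gd S μ A t lam β j ∧
      ∃ z ∈ A j ∩ Λ ∩ Hb H', l.V q1 - 2 * β ≤ l.V z ∧ l.V z ≤ l.V q2 + 2 * β

def VConnP : Prop :=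
  ∀ t a b e : ℝ, 1 / 4 ≤ t → t ≤ 3 / 4 → 0 < e → ∀ x y : ℂ, l.U x = t → l.U y = t → a ≤ l.V x →
    l.V x ≤ b → a ≤ l.V y → l.V y ≤ b →
    JoinedIn {w | |l.U w - t| ≤ e ∧ a - e ≤ l.V w ∧ l.V w ≤ b + e} x y

def SliceP : Prop :=
  ∀ a b β : ℝ, a ≤ b → 0 < β → ∃ H : ℝ, ∀ t lam : ℝ, 1 / 4 ≤ t → t ≤ 3 / 4 → 0 < lam →
    lam ≤ 1 / 32 → ∃ H1 : ℝ, H ≤ H1 ∧ (∀ w ∈ l.Mid, a ≤ l.V w → l.V w ≤ b → w ∈ Hb H) ∧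
      ∀ H', H1 ≤ H' → ∀ S μ A, l.Slab S μ A t lam H H' β →
        wt S μ {j | ∃ y ∈ A j ∩ l.Bd t lam, a ≤ l.V y ∧ l.V y ≤ b} ≤ b - a + 9 * β

def InjP : Prop :=
  ∀ x y : ℂ, 3 / 8 ≤ l.U x → l.U x ≤ 5 / 8 → l.f x = l.f y → x = y

/-- The inverse map. -/
def HomP : Prop :=
  ∃ gi : ℂ → ℂ, ContinuousOn gi {ζ | 3 / 8 < ζ.re ∧ ζ.re < 5 / 8} ∧
    (∀ ζ : ℂ, 3 / 8 < ζ.re → ζ.re < 5 / 8 → l.f (gi ζ) = ζ) ∧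
    ∀ w : ℂ, 3 / 8 < l.U w → l.U w < 5 / 8 → gi (l.f w) = w

/-- The core length-area estimate. -/
def CoreP {Z : Type*} [MetricSpace Z] (R : Ring Z) : Prop :=
  ∃ κ H δ : ℝ, 1 ≤ κ ∧ 1 ≤ H ∧ 0 < δ ∧ ∀ (w0 p0 : ℂ) (r s : ℝ) (K1 K2 : Set ℂ),
    1 / 4 ≤ l.U w0 → l.U w0 ≤ 3 / 4 → 3 / 8 ≤ p0.re → p0.re ≤ 5 / 8 → 0 < r → r ≤ δ → 0 < s →
    H * s ≤ 1 / 16 → K1 ⊆ ball w0 1 → K2 ⊆ ball w0 1 → CrK κ (R.p w0) r (R.p '' K1) →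
    CrK κ (R.p w0) r (R.p '' K2) → (∀ w ∈ K1, ‖l.f w - p0‖ ≤ s) →
    (∀ w ∈ K2, H * s ≤ ‖l.f w - p0‖) → False

end PL

open Classical in
/-- Weights on dyadic shells. -/
def ShellP (G : Type*) : Prop :=
  ∀ (V : Finset G) (ρ φ : G → ℝ) (ok : G → Prop) (s Ca C0 : ℝ) (N : ℕ), (∀ g, 0 ≤ ρ g) → 0 < s →
    0 < C0 →
    (∀ j < N, ∑ g ∈ V.filter fun g => ok g ∧ φ g ≤ 2 ^ (j + 1) * s, ρ g ^ 2 ≤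
      Ca * (2 ^ (j + 1) * s) ^ 2) →
    ∃ σ : G → ℝ, (∀ g, 0 ≤ σ g) ∧ ∑ g ∈ V, σ g ^ 2 ≤ 4 * Ca * N ∧
      ∀ (V' : Finset G) (Y : ℕ → Finset G), (∀ j < N, Y j ⊆ V' ∧
        (∀ g ∈ Y j, ok g ∧ 2 ^ j * s < φ g ∧ φ g ≤ 2 ^ (j + 1) * s) ∧
        2 ^ j * s / 4 ≤ C0 * ∑ g ∈ Y j, ρ g) → N / (4 * C0) ≤ ∑ g ∈ V', σ g

/-- Paths avoiding a curve except in a window. -/
def SurgP : Prop :=
  ∀ (P A N B : Set ℂ) (x y : ℂ), IsClosed A → JoinedIn P x y → IsPathConnected N → P ∩ A ⊆ N →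
    (∀ w w', w ∈ B → JoinedIn (P \ A) w w' → w' ∈ B) → x ∈ B → y ∈ B → x ∉ A → y ∉ A →
    JoinedIn (((P ∩ B) \ A) ∪ N) x y

namespace Seq

variable {D : Dyn G Z} {E : Geo Z} {R : Ring Z} (s : Seq D E R)

/-- The plane map is the limit of the data. -/
structure Is (l : PL) : Prop where
  hU : ∃ U, s.IsU U ∧ ∀ w, l.U w = U (R.p w)
  hV : s.IsV l.θ l.V

def PLP : Prop := ∃ l : PL, s.Is l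

def SlabP (l : PL) : Prop :=
  ∀ H β : ℝ, 0 < β → ∃ lam0 : ℝ, 0 < lam0 ∧ ∀ lam, 0 < lam → lam ≤ lam0 → ∀ H' : ℝ,
    ∀ᶠ n in (hyperfilter ℕ : Filter ℕ), ∃ S : Finset (ℕ × ℤ),
      (∀ i k, (i, k) ∈ S ↔ i ∈ (s.P n).T ∧ (sh k (s.A n i) ∩ Hb H').Nonempty) ∧
      ∀ t : ℝ, 1 / 4 ≤ t → t ≤ 3 / 4 →
        l.Slab S (fun j => (s.P n).μ j.1) (fun j => sh j.2 (s.A n j.1)) t lam H H' β

/-- Windows cover the part of a curve in a band. -/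
def Win2P (l : PL) : Prop :=
  ∀ lam : ℝ, 0 < lam → lam ≤ 1 / 64 → ∀ᶠ n in (hyperfilter ℕ : Filter ℕ), ∀ i ∈ (s.P n).T,
    ∀ t : ℝ, 1 / 4 ≤ t → t ≤ 3 / 4 → (s.Wn n i t (2 * lam)).Nonempty ∧
      s.A n i ∩ l.Bd t lam ⊆ s.Wn n i t (2 * lam) ∧ s.Wn n i t (2 * lam) ⊆ l.Bd t (3 * lam) ∧
      s.A n i ∩ l.Bd t (3 * lam) ⊆ s.Wn n i t (4 * lam)

open Classical in
def AreaP (l : PL) : Prop :=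
  ∃ Ca : ℝ, 0 < Ca ∧ ∀ (p0 : ℂ) (r : ℝ), 3 / 8 ≤ p0.re → p0.re ≤ 5 / 8 → 0 < r → r ≤ 1 / 8 →
    ∀ᶠ n in (hyperfilter ℕ : Filter ℕ),
      ∑ g ∈ (D.lev n).filter fun g => ∃ y, R.p y = D.pt g ∧ ‖l.f y - p0‖ ≤ r, (s.P n).ρ g ^ 2
        ≤ Ca * r ^ 2

def OscP (l : PL) : Prop :=
  ∃ C0 : ℝ, 0 < C0 ∧ ∀ κ : ℝ, 0 < κ → ∀ᶠ n in (hyperfilter ℕ : Filter ℕ),
    ∀ (Q : Set ℂ) (w0 x y : ℂ), Q ⊆ l.Mid ∩ ball w0 1 → JoinedIn Q x y →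
      ‖l.f x - l.f y‖ ≤ C0 * ∑ g ∈ D.near n (4 * D.C * E.Λ) (R.p '' Q), (s.P n).ρ g + κ

end Seq

/-- A chart with a general ratio. -/
structure ChartK (Z : Type*) [MetricSpace Z] where
  x0 : Z
  r0 : ℝ
  f : Z → ℂ
  H : ℝ
  κ : ℝ
  r0_pos : 0 < r0
  one_le_H : 1 ≤ H
  one_le_κ : 1 ≤ κ
  cont : ContinuousOn f (ball x0 r0)
  inj : InjOn f (ball x0 r0)
  opn : ∀ U : Set Z, IsOpen U → U ⊆ ball x0 r0 → IsOpen (f '' U)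
  qb : ∀ x ∈ ball x0 r0, ∀ y ∈ ball x0 r0, ∀ z ∈ ball x0 r0,
    κ * dist y x ≤ dist z x → ‖f y - f x‖ ≤ H * ‖f z - f x‖

end Vale.Agent.P198
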