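import Vale.Agent.P198.A.Stm

/-! Windows cover the part of a curve in a band. -/

open Set Metric Topology Filter

namespace Vale.Agent.P198

variable {G Z : Type*} [Group G] [MetricSpace Z] [MulAction G Z] [CompactSpace Z] {D : Dyn G Z}
  {E : Geo Z} {R : Ring Z}

namespace AWin2

theorem step {f : ℕ → ℝ} {m : ℕ} {t r : ℝ} (h0 : f 0 ≤ t) (h1 : t < f m)
    (hs : ∀ j < m, f (j + 1) ≤ f j + r) : ∃ j < m, f j ≤ t ∧ t - r ≤ f j := by
  induction m with
  | zero => exact absurd h0 (not_le.2 h1)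
  | succ m ih =>
    by_cases h : t < f m
    · obtain ⟨j, hj, h'⟩ := ih h fun j hj => hs j (by omega)
      exact ⟨j, by omega, h'⟩
    · have := hs m (Nat.lt_succ_self m)
      exact ⟨m, Nat.lt_succ_self m, not_lt.1 h, by linarith⟩

end AWin2

theorem Seq.win2P (s : Seq D E R) {l : PL} (hl : s.Is l) (hR : s.RhoP) : s.Win2P l := by
  intro lam h0 h1
  obtain ⟨U, hU, hlU⟩ := hl.hU
  have hθ := l.θ_pos
  have e1 := hU.app (4 * D.C * E.Λ) lam h0
  have e2 := s.lf.filter_mono Nat.hyperfilter_le_atTop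
  have e3 := (s.ε_lim.eventually (gt_mem_nhds hθ)).filter_mono Nat.hyperfilter_le_atTop
  have e4 := (hR lam h0).filter_mono Nat.hyperfilter_le_atTop
  filter_upwards [e1, e2, e3, e4] with n a1 a2 a3 a4 i hi t ht1 ht2
  have hlf := a2 i hi
  have key : ∀ j < (s.P n).m i, ∀ y ∈ s.Lk n i j, |(s.P n).u ((s.P n).c i j) - l.U y| ≤ lam := by
    intro j hj y hy
    rw [hlU]
    exact a1 _ _ (((s.P n).ch i hi).wk.lev j hj.le) (hlf.nr j hj y hy)
  have cov : ∀ e : ℝ, e ≤ 3 * lam → s.A n i ∩ l.Bd t e ⊆ s.Wn n i t (e + lam) := by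
    rintro e he y ⟨hy, hb⟩
    have hb' := abs_le.1 (show |l.U y - t| ≤ e from hb)
    rcases hy with (hy | hy) | hy
    · exfalso
      have h2 := (abs_lt.1 hlf.re0).2
      have h3 := l.lo y (by have := hy.2.2; linarith)
      linarith [hb'.1]
    · obtain ⟨j, hj, hy⟩ := mem_iUnion₂.1 hy
      refine mem_iUnion₂.2 ⟨j, ⟨hj, ?_⟩, hy⟩
      have h2 := abs_le.1 (key j hj y hy)
      exact abs_le.2 ⟨by linarith [h2.1, hb'.1], by linarith [h2.2, hb'.2]⟩
    · exfalso
      have h2 := (abs_lt.1 hlf.re1).1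
      have h3 := l.hi y (by have := hy.2.1; linarith)
      linarith [hb'.2]
  refine ⟨?_, ?_, ?_, ?_⟩
  · obtain ⟨j, hj, h2, h3⟩ := AWin2.step (f := fun j => (s.P n).u ((s.P n).c i j))
      (m := (s.P n).m i) (t := t) (r := lam)
      (by
        have := (s.P n).time i hi 0 (Nat.zero_le _)
        rw [Finset.sum_range_one] at this
        have := a4 ((s.P n).c i 0)
        linarith)
      (by
        have h2 := (s.P n).time i hi _ le_rfl
        rw [(s.P n).tot i hi] at h2
        linarith)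
      (fun j hj => by
        have h2 := (s.P n).time i hi (j + 1) hj
        rw [Finset.sum_range_succ, ← (s.P n).time i hi j hj.le] at h2
        have := a4 ((s.P n).c i (j + 1))
        linarith)
    exact ⟨s.w n i j, mem_iUnion₂.2 ⟨j, ⟨hj, abs_le.2 ⟨by linarith, by linarith⟩⟩, hlf.ml j hj⟩⟩
  · have := cov lam (by linarith)
    rwa [← two_mul] at this
  · intro y hy
    obtain ⟨j, ⟨hj, h2⟩, hy⟩ := mem_iUnion₂.1 hy
    have h3 := abs_le.1 (key j hj y hy)
    have h4 := abs_le.1 h2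
    change |l.U y - t| ≤ 3 * lam
    exact abs_le.2 ⟨by linarith [h3.2, h4.1], by linarith [h3.1, h4.2]⟩
  · have := cov (3 * lam) le_rfl
    rwa [show 3 * lam + lam = 4 * lam by ring] at this

end Vale.Agent.P198
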